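import Vale.Agent.Lib.P154.Poly

noncomputable section

namespace Vale.Agent.Lib.P154.Cert3

open Vale.Agent.Lib.P154

def psi_0_1_6 (A C : ℝ) : ℝ := (-3/4)*C + (-3/4)*C^2 + (3/4)*A + (3)*A*C + (-3/2)*A^2 + (3/4)*A^2*C + (-9/4)*A^3

theorem psi_0_1_6_nonneg (s0 s1 s2 : ℝ) (h0 : 0 ≤ s0) (h1 : 0 ≤ s1) (h2 : 0 ≤ s2) (hs : s0 + s1 + s2 = 1) :
    0 ≤ psi_0_1_6 ((1)*achi s1 s2) ((1)*cchi s1 s2) := by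
  have key : psi_0_1_6 ((1)*achi s1 s2) ((1)*cchi s1 s2) = (243/32)*s0*s1^3*s2^3 + (729/64)*s0*s1^4*s2^2 + (729/128)*s0*s1^5*s2 + (243/256)*s0*s1^6 + (81/8)*s0^2*s1^2*s2^3 + (81/4)*s0^2*s1^3*s2^2 + (405/32)*s0^2*s1^4*s2 + (81/32)*s0^2*s1^5 + (27/4)*s0^3*s1*s2^3 + (27/2)*s0^3*s1^2*s2^2 + (81/8)*s0^3*s1^3*s2 + (81/32)*s0^3*s1^4 + (9/4)*s0^4*s2^3 + (9/2)*s0^4*s1*s2^2 + (27/8)*s0^4*s1^2*s2 + (9/8)*s0^4*s1^3 + (3/4)*s0^5*s2^2 + (3/8)*s0^5*s1*s2 + (3/16)*s0^5*s1^2 := by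
    have e : s0 = 1 - s1 - s2 := by linarith
    subst e; unfold psi_0_1_6 achi cchi; ring
  rw [key]; positivity

def psi_0_2_5 (A C : ℝ) : ℝ := (-3)*C + (-21/16)*C^2 + (51/8)*A + (165/16)*A*C + (-129/8)*A^2 + (-33/16)*A^2*C + (9/2)*A^3

theorem psi_0_2_5_nonneg (s0 s1 s2 : ℝ) (h0 : 0 ≤ s0) (h1 : 0 ≤ s1) (h2 : 0 ≤ s2) (hs : s0 + s1 + s2 = 1) :
    0 ≤ psi_0_2_5 ((1)*achi s1 s2) ((1)*cchi s1 s2) := by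
  have key : psi_0_2_5 ((1)*achi s1 s2) ((1)*cchi s1 s2) = (729/128)*s1^3*s2^4 + (3645/256)*s1^4*s2^3 + (6561/512)*s1^5*s2^2 + (5103/1024)*s1^6*s2 + (729/1024)*s1^7 + (2187/64)*s0*s1^2*s2^4 + (5589/64)*s0*s1^3*s2^3 + (22599/256)*s0*s1^4*s2^2 + (5103/128)*s0*s1^5*s2 + (1701/256)*s0*s1^6 + (1701/32)*s0^2*s1*s2^4 + (2349/16)*s0^2*s1^2*s2^3 + (10287/64)*s0^2*s1^3*s2^2 + (21465/256)*s0^2*s1^4*s2 + (4293/256)*s0^2*s1^5 + (189/8)*s0^3*s2^4 + (405/4)*s0^3*s1*s2^3 + (3915/32)*s0^3*s1^2*s2^2 + (2295/32)*s0^3*s1^3*s2 + (2295/128)*s0^3*s1^4 + (207/8)*s0^4*s2^3 + (693/16)*s0^4*s1*s2^2 + (837/32)*s0^4*s1^2*s2 + (279/32)*s0^4*s1^3 + (51/8)*s0^5*s2^2 + (51/16)*s0^5*s1*s2 + (51/32)*s0^5*s1^2 := by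
    have e : s0 = 1 - s1 - s2 := by linarith
    subst e; unfold psi_0_2_5 achi cchi; ring
  rw [key]; positivity

def psi_0_3_4 (A C : ℝ) : ℝ := (-51/16)*C + (-21/32)*C^2 + (93/8)*A + (177/16)*A*C + (-30)*A^2 + (-21/4)*A^2*C + (63/4)*A^3

theorem psi_0_3_4_nonneg (s0 s1 s2 : ℝ) (h0 : 0 ≤ s0) (h1 : 0 ≤ s1) (h2 : 0 ≤ s2) (hs : s0 + s1 + s2 = 1) :
    0 ≤ psi_0_3_4 ((1)*achi s1 s2) ((1)*cchi s1 s2) := by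
  have key : psi_0_3_4 ((1)*achi s1 s2) ((1)*cchi s1 s2) = (729/128)*s1^2*s2^5 + (729/32)*s1^3*s2^4 + (18225/512)*s1^4*s2^3 + (13851/512)*s1^5*s2^2 + (5103/512)*s1^6*s2 + (729/512)*s1^7 + (243/16)*s0*s1*s2^5 + (13851/128)*s0*s1^2*s2^4 + (24057/128)*s0*s1^3*s2^3 + (79947/512)*s0*s1^4*s2^2 + (16767/256)*s0*s1^5*s2 + (5589/512)*s0*s1^6 + (81/8)*s0^2*s2^5 + (4779/32)*s0^2*s1*s2^4 + (5103/16)*s0^2*s1^2*s2^3 + (18549/64)*s0^2*s1^3*s2^2 + (35235/256)*s0^2*s1^4*s2 + (7047/256)*s0^2*s1^5 + (243/4)*s0^3*s2^4 + (216)*s0^3*s1*s2^3 + (459/2)*s0^3*s1^2*s2^2 + (243/2)*s0^3*s1^3*s2 + (243/8)*s0^3*s1^4 + (207/4)*s0^4*s2^3 + (2637/32)*s0^4*s1*s2^2 + (2943/64)*s0^4*s1^2*s2 + (981/64)*s0^4*s1^3 + (93/8)*s0^5*s2^2 + (93/16)*s0^5*s1*s2 + (93/32)*s0^5*s1^2 := by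
    have e : s0 = 1 - s1 - s2 := by linarith
    subst e; unfold psi_0_3_4 achi cchi; ring
  rw [key]; positivity

def psi_0_4_3 (A C : ℝ) : ℝ := (135/16)*A + (135/64)*A*C + (-675/32)*A^2 + (-135/64)*A^2*C + (405/32)*A^3

theorem psi_0_4_3_nonneg (s0 s1 s2 : ℝ) (h0 : 0 ≤ s0) (h1 : 0 ≤ s1) (h2 : 0 ≤ s2) (hs : s0 + s1 + s2 = 1) :
    0 ≤ psi_0_4_3 ((1)*achi s1 s2) ((1)*cchi s1 s2) := by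
  have key : psi_0_4_3 ((1)*achi s1 s2) ((1)*cchi s1 s2) = (3645/256)*s1^2*s2^5 + (18225/512)*s1^3*s2^4 + (18225/512)*s1^4*s2^3 + (40095/2048)*s1^5*s2^2 + (25515/4096)*s1^6*s2 + (3645/4096)*s1^7 + (1215/32)*s0*s1*s2^5 + (18225/128)*s0*s1^2*s2^4 + (44955/256)*s0*s1^3*s2^3 + (27945/256)*s0*s1^4*s2^2 + (40095/1024)*s0*s1^5*s2 + (13365/2048)*s0*s1^6 + (405/16)*s0^2*s2^5 + (22275/128)*s0^2*s1*s2^4 + (9315/32)*s0^2*s1^2*s2^3 + (53865/256)*s0^2*s1^3*s2^2 + (87075/1024)*s0^2*s1^4*s2 + (17415/1024)*s0^2*s1^5 + (2025/32)*s0^3*s2^4 + (6075/32)*s0^3*s1*s2^3 + (22275/128)*s0^3*s1^2*s2^2 + (10125/128)*s0^3*s1^3*s2 + (10125/512)*s0^3*s1^4 + (675/16)*s0^4*s2^3 + (2025/32)*s0^4*s1*s2^2 + (2025/64)*s0^4*s1^2*s2 + (675/64)*s0^4*s1^3 + (135/16)*s0^5*s2^2 + (135/32)*s0^5*s1*s2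 + (135/64)*s0^5*s1^2 := by
    have e : s0 = 1 - s1 - s2 := by linarith
    subst e; unfold psi_0_4_3 achi cchi; ring
  rw [key]; positivity

def psi_0_5_2 (A C : ℝ) : ℝ := (105/64)*C + (21/128)*C^2 + (3)*A + (-51/16)*A*C + (-219/32)*A^2 + (57/64)*A^2*C + (9/2)*A^3

theorem psi_0_5_2_nonneg (s0 s1 s2 : ℝ) (h0 : 0 ≤ s0) (h1 : 0 ≤ s1) (h2 : 0 ≤ s2) (hs : s0 + s1 + s2 = 1) :
    0 ≤ psi_0_5_2 ((1)*achi s1 s2) ((1)*cchi s1 s2) - ((729/2048)*s0^2*s1^5) := by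
  have key : psi_0_5_2 ((1)*achi s1 s2) ((1)*cchi s1 s2) - ((729/2048)*s0^2*s1^5) = (6561/512)*s1^2*s2^5 + (13851/512)*s1^3*s2^4 + (40095/2048)*s1^4*s2^3 + (6561/1024)*s1^5*s2^2 + (5103/4096)*s1^6*s2 + (729/4096)*s1^7 + (2187/64)*s0*s1*s2^5 + (50301/512)*s0*s1^2*s2^4 + (46899/512)*s0*s1^3*s2^3 + (73629/2048)*s0*s1^4*s2^2 + (8019/1024)*s0*s1^5*s2 + (2673/2048)*s0*s1^6 + (729/32)*s0^2*s2^5 + (7047/64)*s0^2*s1*s2^4 + (2349/16)*s0^2*s1^2*s2^3 + (9639/128)*s0^2*s1^3*s2^2 + (10125/512)*s0^2*s1^4*s2 + (7371/2048)*s0^2*s1^5 + (1161/32)*s0^3*s2^4 + (729/8)*s0^3*s1*s2^3 + (8613/128)*s0^3*s1^2*s2^2 + (2781/128)*s0^3*s1^3*s2 + (2781/512)*s0^3*s1^4 + (585/32)*s0^4*s2^3 + (3195/128)*s0^4*s1*s2^2 + (2565/256)*s0^4*s1^2*s2 + (855/256)*s0^4*s1^3 + (3)*s0^5*s2^2 + (3/2)*s0^5*s1*s2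 + (3/4)*s0^5*s1^2 := by
    have e : s0 = 1 - s1 - s2 := by linarith
    subst e; unfold psi_0_5_2 achi cchi; ring
  rw [key]; positivity

def psi_0_6_1 (A C : ℝ) : ℝ := (105/128)*C + (21/256)*C^2 + (21/32)*A + (-231/128)*A*C + (-21/16)*A^2 + (21/32)*A^2*C + (63/64)*A^3

theorem psi_0_6_1_nonneg (s0 s1 s2 : ℝ) (h0 : 0 ≤ s0) (h1 : 0 ≤ s1) (h2 : 0 ≤ s2) (hs : s0 + s1 + s2 = 1) :
    0 ≤ psi_0_6_1 ((1)*achi s1 s2) ((1)*cchi s1 s2) - ((243/2048)*s0^2*s1^5) := by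
  have key : psi_0_6_1 ((1)*achi s1 s2) ((1)*cchi s1 s2) - ((243/2048)*s0^2*s1^5) = (5103/1024)*s1^2*s2^5 + (5103/512)*s1^3*s2^4 + (25515/4096)*s1^4*s2^3 + (5103/4096)*s1^5*s2^2 + (1701/128)*s0*s1*s2^5 + (35721/1024)*s0*s1^2*s2^4 + (28917/1024)*s0*s1^3*s2^3 + (28917/4096)*s0*s1^4*s2^2 + (567/64)*s0^2*s2^5 + (9639/256)*s0^2*s1*s2^4 + (2835/64)*s0^2*s1^2*s2^3 + (8505/512)*s0^2*s1^3*s2^2 + (2835/2048)*s0^2*s1^4*s2 + (81/512)*s0^2*s1^5 + (189/16)*s0^3*s2^4 + (1701/64)*s0^3*s1*s2^3 + (2079/128)*s0^3*s1^2*s2^2 + (189/64)*s0^3*s1^3*s2 + (189/256)*s0^3*s1^4 + (315/64)*s0^4*s2^3 + (1575/256)*s0^4*s1*s2^2 + (945/512)*s0^4*s1^2*s2 + (315/512)*s0^4*s1^3 + (21/32)*s0^5*s2^2 + (21/64)*s0^5*s1*s2 + (21/128)*s0^5*s1^2 := by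
    have e : s0 = 1 - s1 - s2 := by linarith
    subst e; unfold psi_0_6_1 achi cchi; ring
  rw [key]; positivity

def psi_0_7_0 (A C : ℝ) : ℝ := (15/128)*C + (3/256)*C^2 + (3/32)*A + (-33/128)*A*C + (-3/16)*A^2 + (3/32)*A^2*C + (9/64)*A^3

theorem psi_0_7_0_nonneg (s0 s1 s2 : ℝ) (h0 : 0 ≤ s0) (h1 : 0 ≤ s1) (h2 : 0 ≤ s2) (hs : s0 + s1 + s2 = 1) :
    0 ≤ psi_0_7_0 ((1)*achi s1 s2) ((1)*cchi s1 s2) - ((81/8192)*s0^2*s1^5) := by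
  have key : psi_0_7_0 ((1)*achi s1 s2) ((1)*cchi s1 s2) - ((81/8192)*s0^2*s1^5) = (729/1024)*s1^2*s2^5 + (729/512)*s1^3*s2^4 + (3645/4096)*s1^4*s2^3 + (729/4096)*s1^5*s2^2 + (243/128)*s0*s1*s2^5 + (5103/1024)*s0*s1^2*s2^4 + (4131/1024)*s0*s1^3*s2^3 + (4131/4096)*s0*s1^4*s2^2 + (81/64)*s0^2*s2^5 + (1377/256)*s0^2*s1*s2^4 + (405/64)*s0^2*s1^2*s2^3 + (1215/512)*s0^2*s1^3*s2^2 + (405/2048)*s0^2*s1^4*s2 + (243/8192)*s0^2*s1^5 + (27/16)*s0^3*s2^4 + (243/64)*s0^3*s1*s2^3 + (297/128)*s0^3*s1^2*s2^2 + (27/64)*s0^3*s1^3*s2 + (27/256)*s0^3*s1^4 + (45/64)*s0^4*s2^3 + (225/256)*s0^4*s1*s2^2 + (135/512)*s0^4*s1^2*s2 + (45/512)*s0^4*s1^3 + (3/32)*s0^5*s2^2 + (3/64)*s0^5*s1*s2 + (3/128)*s0^5*s1^2 := by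
    have e : s0 = 1 - s1 - s2 := by linarith
    subst e; unfold psi_0_7_0 achi cchi; ring
  rw [key]; positivity

def psi_1_0_6 (A C : ℝ) : ℝ := (-1)*C + (-1)*C^2 + (1)*A + (4)*A*C + (-2)*A^2 + (1)*A^2*C + (-3)*A^3

theorem psi_1_0_6_nonneg (s0 s1 s2 : ℝ) (h0 : 0 ≤ s0) (h1 : 0 ≤ s1) (h2 : 0 ≤ s2) (hs : s0 + s1 + s2 = 1) :
    0 ≤ psi_1_0_6 ((1)*achi s1 s2) ((1)*cchi s1 s2) := by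
  have key : psi_1_0_6 ((1)*achi s1 s2) ((1)*cchi s1 s2) = (81/8)*s0*s1^3*s2^3 + (243/16)*s0*s1^4*s2^2 + (243/32)*s0*s1^5*s2 + (81/64)*s0*s1^6 + (27/2)*s0^2*s1^2*s2^3 + (27)*s0^2*s1^3*s2^2 + (135/8)*s0^2*s1^4*s2 + (27/8)*s0^2*s1^5 + (9)*s0^3*s1*s2^3 + (18)*s0^3*s1^2*s2^2 + (27/2)*s0^3*s1^3*s2 + (27/8)*s0^3*s1^4 + (3)*s0^4*s2^3 + (6)*s0^4*s1*s2^2 + (9/2)*s0^4*s1^2*s2 + (3/2)*s0^4*s1^3 + (1)*s0^5*s2^2 + (1/2)*s0^5*s1*s2 + (1/4)*s0^5*s1^2 := by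
    have e : s0 = 1 - s1 - s2 := by linarith
    subst e; unfold psi_1_0_6 achi cchi; ring
  rw [key]; positivity

def psi_1_1_5 (A C : ℝ) : ℝ := (-27/4)*C + (-9/4)*C^2 + (27/2)*A + (81/4)*A*C + (-63/2)*A^2 + (-9/2)*A^2*C + (9)*A^3

theorem psi_1_1_5_nonneg (s0 s1 s2 : ℝ) (h0 : 0 ≤ s0) (h1 : 0 ≤ s1) (h2 : 0 ≤ s2) (hs : s0 + s1 + s2 = 1) :
    0 ≤ psi_1_1_5 ((1)*achi s1 s2) ((1)*cchi s1 s2) := by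
  have key : psi_1_1_5 ((1)*achi s1 s2) ((1)*cchi s1 s2) = (243/16)*s1^3*s2^4 + (1215/32)*s1^4*s2^3 + (2187/64)*s1^5*s2^2 + (1701/128)*s1^6*s2 + (243/128)*s1^7 + (1215/16)*s0*s1^2*s2^4 + (3159/16)*s0*s1^3*s2^3 + (12879/64)*s0*s1^4*s2^2 + (729/8)*s0*s1^5*s2 + (243/16)*s0*s1^6 + (891/8)*s0^2*s1*s2^4 + (2511/8)*s0^2*s1^2*s2^3 + (5589/16)*s0^2*s1^3*s2^2 + (11745/64)*s0^2*s1^4*s2 + (2349/64)*s0^2*s1^5 + (99/2)*s0^3*s2^4 + (423/2)*s0^3*s1*s2^3 + (2079/8)*s0^3*s1^2*s2^2 + (1233/8)*s0^3*s1^3*s2 + (1233/32)*s0^3*s1^4 + (54)*s0^4*s2^3 + (729/8)*s0^4*s1*s2^2 + (891/16)*s0^4*s1^2*s2 + (297/16)*s0^4*s1^3 + (27/2)*s0^5*s2^2 + (27/4)*s0^5*s1*s2 + (27/8)*s0^5*s1^2 := by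
    have e : s0 = 1 - s1 - s2 := by linarith
    subst e; unfold psi_1_1_5 achi cchi; ring
  rw [key]; positivity

def psi_1_2_4 (A C : ℝ) : ℝ := (-33/4)*C + (-3/2)*C^2 + (141/4)*A + (393/16)*A*C + (-84)*A^2 + (-219/16)*A^2*C + (99/2)*A^3

theorem psi_1_2_4_nonneg (s0 s1 s2 : ℝ) (h0 : 0 ≤ s0) (h1 : 0 ≤ s1) (h2 : 0 ≤ s2) (hs : s0 + s1 + s2 = 1) :
    0 ≤ psi_1_2_4 ((1)*achi s1 s2) ((1)*cchi s1 s2) := by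
  have key : psi_1_2_4 ((1)*achi s1 s2) ((1)*cchi s1 s2) = (2187/64)*s1^2*s2^5 + (13851/128)*s1^3*s2^4 + (18225/128)*s1^4*s2^3 + (50301/512)*s1^5*s2^2 + (35721/1024)*s1^6*s2 + (5103/1024)*s1^7 + (1215/16)*s0*s1*s2^5 + (6561/16)*s0*s1^2*s2^4 + (20655/32)*s0*s1^3*s2^3 + (64395/128)*s0*s1^4*s2^2 + (6561/32)*s0*s1^5*s2 + (2187/64)*s0*s1^6 + (405/8)*s0^2*s2^5 + (16605/32)*s0^2*s1*s2^4 + (33129/32)*s0^2*s1^2*s2^3 + (57591/64)*s0^2*s1^3*s2^2 + (106515/256)*s0^2*s1^4*s2 + (21303/256)*s0^2*s1^5 + (405/2)*s0^3*s2^4 + (2727/4)*s0^3*s1*s2^3 + (5643/8)*s0^3*s1^2*s2^2 + (729/2)*s0^3*s1^3*s2 + (729/8)*s0^3*s1^4 + (639/4)*s0^4*s2^3 + (252)*s0^4*s1*s2^2 + (1107/8)*s0^4*s1^2*s2 + (369/8)*s0^4*s1^3 + (141/4)*s0^5*s2^2 + (141/8)*s0^5*s1*s2 + (141/16)*s0^5*s1^2 := by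
    have e : s0 = 1 - s1 - s2 := by linarith
    subst e; unfold psi_1_2_4 achi cchi; ring
  rw [key]; positivity

def psi_1_3_3 (A C : ℝ) : ℝ := (1)*C + (-1/8)*C^2 + (131/4)*A + (11/4)*A*C + (-149/2)*A^2 + (-133/16)*A^2*C + (411/8)*A^3

theorem psi_1_3_3_nonneg (s0 s1 s2 : ℝ) (h0 : 0 ≤ s0) (h1 : 0 ≤ s1) (h2 : 0 ≤ s2) (hs : s0 + s1 + s2 = 1) :
    0 ≤ psi_1_3_3 ((1)*achi s1 s2) ((1)*cchi s1 s2) := by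
  have key : psi_1_3_3 ((1)*achi s1 s2) ((1)*cchi s1 s2) = (243/32)*s1*s2^6 + (5589/64)*s1^2*s2^5 + (24057/128)*s1^3*s2^4 + (44955/256)*s1^4*s2^3 + (46899/512)*s1^5*s2^2 + (28917/1024)*s1^6*s2 + (4131/1024)*s1^7 + (81/8)*s0*s2^6 + (3159/16)*s0*s1*s2^5 + (20655/32)*s0*s1^2*s2^4 + (48519/64)*s0*s1^3*s2^3 + (58077/128)*s0*s1^4*s2^2 + (40581/256)*s0*s1^5*s2 + (13527/512)*s0*s1^6 + (243/2)*s0^2*s2^5 + (5913/8)*s0^2*s1*s2^4 + (9531/8)*s0^2*s1^2*s2^3 + (13419/16)*s0^2*s1^3*s2^2 + (21195/64)*s0^2*s1^4*s2 + (4239/64)*s0^2*s1^5 + (261)*s0^3*s2^4 + (3033/4)*s0^3*s1*s2^3 + (684)*s0^3*s1^2*s2^2 + (2439/8)*s0^3*s1^3*s2 + (2439/32)*s0^3*s1^4 + (663/4)*s0^4*s2^3 + (1977/8)*s0^4*s1*s2^2 + (1953/16)*s0^4*s1^2*s2 + (651/16)*s0^4*s1^3 + (131/4)*s0^5*s2^2 + (131/8)*s0^5*s1*s2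 + (131/16)*s0^5*s1^2 := by
    have e : s0 = 1 - s1 - s2 := by linarith
    subst e; unfold psi_1_3_3 achi cchi; ring
  rw [key]; positivity

def psi_1_4_2 (A C : ℝ) : ℝ := (243/32)*C + (9/32)*C^2 + (27/2)*A + (-891/64)*A*C + (-423/16)*A^2 + (117/64)*A^2*C + (333/16)*A^3

theorem psi_1_4_2_nonneg (s0 s1 s2 : ℝ) (h0 : 0 ≤ s0) (h1 : 0 ≤ s1) (h2 : 0 ≤ s2) (hs : s0 + s1 + s2 = 1) :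
    0 ≤ psi_1_4_2 ((1)*achi s1 s2) ((1)*cchi s1 s2) := by
  have key : psi_1_4_2 ((1)*achi s1 s2) ((1)*cchi s1 s2) = (729/64)*s1*s2^6 + (22599/256)*s1^2*s2^5 + (79947/512)*s1^3*s2^4 + (27945/256)*s1^4*s2^3 + (73629/2048)*s1^5*s2^2 + (28917/4096)*s1^6*s2 + (4131/4096)*s1^7 + (243/16)*s0*s2^6 + (12879/64)*s0*s1*s2^5 + (64395/128)*s0*s1^2*s2^4 + (58077/128)*s0*s1^3*s2^3 + (45441/256)*s0*s1^4*s2^2 + (19683/512)*s0*s1^5*s2 + (6561/1024)*s0*s1^6 + (3807/32)*s0^2*s2^5 + (67797/128)*s0^2*s1*s2^4 + (88209/128)*s0^2*s1^2*s2^3 + (89991/256)*s0^2*s1^3*s2^2 + (93555/1024)*s0^2*s1^4*s2 + (18711/1024)*s0^2*s1^5 + (2709/16)*s0^3*s2^4 + (3339/8)*s0^3*s1*s2^3 + (19629/64)*s0^3*s1^2*s2^2 + (6273/64)*s0^3*s1^3*s2 + (6273/256)*s0^3*s1^4 + (1323/16)*s0^4*s2^3 + (7209/64)*s0^4*s1*s2^2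 + (5751/128)*s0^4*s1^2*s2 + (1917/128)*s0^4*s1^3 + (27/2)*s0^5*s2^2 + (27/4)*s0^5*s1*s2 + (27/8)*s0^5*s1^2 := by
    have e : s0 = 1 - s1 - s2 := by linarith
    subst e; unfold psi_1_4_2 achi cchi; ring
  rw [key]; positivity

def psi_1_5_1 (A C : ℝ) : ℝ := (141/32)*C + (3/16)*C^2 + (51/16)*A + (-561/64)*A*C + (-75/16)*A^2 + (75/32)*A^2*C + (153/32)*A^3

theorem psi_1_5_1_nonneg (s0 s1 s2 : ℝ) (h0 : 0 ≤ s0) (h1 : 0 ≤ s1) (h2 : 0 ≤ s2) (hs : s0 + s1 + s2 = 1) :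
    0 ≤ psi_1_5_1 ((1)*achi s1 s2) ((1)*cchi s1 s2) - ((-729/1024)*s0*s1^5*s2 + (-243/2048)*s0*s1^6) := by
  have key : psi_1_5_1 ((1)*achi s1 s2) ((1)*cchi s1 s2) - ((-729/1024)*s0*s1^5*s2 + (-243/2048)*s0*s1^6) = (729/128)*s1*s2^6 + (5103/128)*s1^2*s2^5 + (16767/256)*s1^3*s2^4 + (40095/1024)*s1^4*s2^3 + (8019/1024)*s1^5*s2^2 + (243/32)*s0*s2^6 + (729/8)*s0*s1*s2^5 + (6561/32)*s0*s1^2*s2^4 + (40581/256)*s0*s1^3*s2^3 + (19683/512)*s0*s1^4*s2^2 + (1701/32)*s0^2*s2^5 + (26487/128)*s0^2*s1*s2^4 + (30051/128)*s0^2*s1^2*s2^3 + (21789/256)*s0^2*s1^3*s2^2 + (5265/1024)*s0^2*s1^4*s2 + (1053/1024)*s0^2*s1^5 + (999/16)*s0^3*s2^4 + (2187/16)*s0^3*s1*s2^3 + (5211/64)*s0^3*s1^2*s2^2 + (837/64)*s0^3*s1^3*s2 + (837/256)*s0^3*s1^4 + (99/4)*s0^4*s2^3 + (1953/64)*s0^4*s1*s2^2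 + (1107/128)*s0^4*s1^2*s2 + (369/128)*s0^4*s1^3 + (51/16)*s0^5*s2^2 + (51/32)*s0^5*s1*s2 + (51/64)*s0^5*s1^2 := by
    have e : s0 = 1 - s1 - s2 := by linarith
    subst e; unfold psi_1_5_1 achi cchi; ring
  rw [key]; positivity

def psi_1_6_0 (A C : ℝ) : ℝ := (47/64)*C + (1/32)*C^2 + (17/32)*A + (-187/128)*A*C + (-25/32)*A^2 + (25/64)*A^2*C + (51/64)*A^3

theorem psi_1_6_0_nonneg (s0 s1 s2 : ℝ) (h0 : 0 ≤ s0) (h1 : 0 ≤ s1) (h2 : 0 ≤ s2) (hs : s0 + s1 + s2 = 1) :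
    0 ≤ psi_1_6_0 ((1)*achi s1 s2) ((1)*cchi s1 s2) - ((-243/2048)*s0*s1^5*s2 + (-81/4096)*s0*s1^6) := by
  have key : psi_1_6_0 ((1)*achi s1 s2) ((1)*cchi s1 s2) - ((-243/2048)*s0*s1^5*s2 + (-81/4096)*s0*s1^6) = (243/256)*s1*s2^6 + (1701/256)*s1^2*s2^5 + (5589/512)*s1^3*s2^4 + (13365/2048)*s1^4*s2^3 + (2673/2048)*s1^5*s2^2 + (81/64)*s0*s2^6 + (243/16)*s0*s1*s2^5 + (2187/64)*s0*s1^2*s2^4 + (13527/512)*s0*s1^3*s2^3 + (6561/1024)*s0*s1^4*s2^2 + (567/64)*s0^2*s2^5 + (8829/256)*s0^2*s1*s2^4 + (10017/256)*s0^2*s1^2*s2^3 + (7263/512)*s0^2*s1^3*s2^2 + (1755/2048)*s0^2*s1^4*s2 + (351/2048)*s0^2*s1^5 + (333/32)*s0^3*s2^4 + (729/32)*s0^3*s1*s2^3 + (1737/128)*s0^3*s1^2*s2^2 + (279/128)*s0^3*s1^3*s2 + (279/512)*s0^3*s1^4 + (33/8)*s0^4*s2^3 + (651/128)*s0^4*s1*s2^2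 + (369/256)*s0^4*s1^2*s2 + (123/256)*s0^4*s1^3 + (17/32)*s0^5*s2^2 + (17/64)*s0^5*s1*s2 + (17/128)*s0^5*s1^2 := by
    have e : s0 = 1 - s1 - s2 := by linarith
    subst e; unfold psi_1_6_0 achi cchi; ring
  rw [key]; positivity

def psi_2_0_5 (A C : ℝ) : ℝ := (-7/2)*C + (-1/2)*C^2 + (8)*A + (19/2)*A*C + (-19)*A^2 + (-4)*A^2*C + (9)*A^3

theorem psi_2_0_5_nonneg (s0 s1 s2 : ℝ) (h0 : 0 ≤ s0) (h1 : 0 ≤ s1) (h2 : 0 ≤ s2) (hs : s0 + s1 + s2 = 1) :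
    0 ≤ psi_2_0_5 ((1)*achi s1 s2) ((1)*cchi s1 s2) := by
  have key : psi_2_0_5 ((1)*achi s1 s2) ((1)*cchi s1 s2) = (81/8)*s1^3*s2^4 + (405/16)*s1^4*s2^3 + (729/32)*s1^5*s2^2 + (567/64)*s1^6*s2 + (81/64)*s1^7 + (405/8)*s0*s1^2*s2^4 + (243/2)*s0*s1^3*s2^3 + (3807/32)*s0*s1^4*s2^2 + (1701/32)*s0*s1^5*s2 + (567/64)*s0*s1^6 + (297/4)*s0^2*s1*s2^4 + (783/4)*s0^2*s1^2*s2^3 + (1647/8)*s0^2*s1^3*s2^2 + (3375/32)*s0^2*s1^4*s2 + (675/32)*s0^2*s1^5 + (33)*s0^3*s2^4 + (132)*s0^3*s1*s2^3 + (621/4)*s0^3*s1^2*s2^2 + (357/4)*s0^3*s1^3*s2 + (357/16)*s0^3*s1^4 + (33)*s0^4*s2^3 + (219/4)*s0^4*s1*s2^2 + (261/8)*s0^4*s1^2*s2 + (87/8)*s0^4*s1^3 + (8)*s0^5*s2^2 + (4)*s0^5*s1*s2 + (2)*s0^5*s1^2 := by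
    have e : s0 = 1 - s1 - s2 := by linarith
    subst e; unfold psi_2_0_5 achi cchi; ring
  rw [key]; positivity

def psi_2_1_4 (A C : ℝ) : ℝ := (-11/2)*C + (-5/8)*C^2 + (37)*A + (61/4)*A*C + (-347/4)*A^2 + (-14)*A^2*C + (243/4)*A^3

theorem psi_2_1_4_nonneg (s0 s1 s2 : ℝ) (h0 : 0 ≤ s0) (h1 : 0 ≤ s1) (h2 : 0 ≤ s2) (hs : s0 + s1 + s2 = 1) :
    0 ≤ psi_2_1_4 ((1)*achi s1 s2) ((1)*cchi s1 s2) := by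
  have key : psi_2_1_4 ((1)*achi s1 s2) ((1)*cchi s1 s2) = (1701/32)*s1^2*s2^5 + (4779/32)*s1^3*s2^4 + (22275/128)*s1^4*s2^3 + (7047/64)*s1^5*s2^2 + (9639/256)*s1^6*s2 + (1377/256)*s1^7 + (891/8)*s0*s1*s2^5 + (16605/32)*s0*s1^2*s2^4 + (5913/8)*s0*s1^3*s2^3 + (67797/128)*s0*s1^4*s2^2 + (26487/128)*s0*s1^5*s2 + (8829/256)*s0*s1^6 + (297/4)*s0^2*s2^5 + (5049/8)*s0^2*s1*s2^4 + (18711/16)*s0^2*s1^2*s2^3 + (15147/16)*s0^2*s1^3*s2^2 + (13365/32)*s0^2*s1^4*s2 + (2673/32)*s0^2*s1^5 + (957/4)*s0^3*s2^4 + (3045/4)*s0^3*s1*s2^3 + (12015/16)*s0^3*s1^2*s2^2 + (5925/16)*s0^3*s1^3*s2 + (5925/64)*s0^3*s1^4 + (174)*s0^4*s2^3 + (1077/4)*s0^4*s1*s2^2 + (1143/8)*s0^4*s1^2*s2 + (381/8)*s0^4*s1^3 + (37)*s0^5*s2^2 + (37/2)*s0^5*s1*s2 + (37/4)*s0^5*s1^2 := by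
    have e : s0 = 1 - s1 - s2 := by linarith
    subst e; unfold psi_2_1_4 achi cchi; ring
  rw [key]; positivity

def psi_2_2_3 (A C : ℝ) : ℝ := (29/8)*C + (-1/8)*C^2 + (197/4)*A + (-35/8)*A*C + (-221/2)*A^2 + (-49/4)*A^2*C + (351/4)*A^3

theorem psi_2_2_3_nonneg (s0 s1 s2 : ℝ) (h0 : 0 ≤ s0) (h1 : 0 ≤ s1) (h2 : 0 ≤ s2) (hs : s0 + s1 + s2 = 1) :
    0 ≤ psi_2_2_3 ((1)*achi s1 s2) ((1)*cchi s1 s2) := by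
  have key : psi_2_2_3 ((1)*achi s1 s2) ((1)*cchi s1 s2) = (81/8)*s1*s2^6 + (2349/16)*s1^2*s2^5 + (5103/16)*s1^3*s2^4 + (9315/32)*s1^4*s2^3 + (2349/16)*s1^5*s2^2 + (2835/64)*s1^6*s2 + (405/64)*s1^7 + (27/2)*s0*s2^6 + (2511/8)*s0*s1*s2^5 + (33129/32)*s0*s1^2*s2^4 + (9531/8)*s0*s1^3*s2^3 + (88209/128)*s0*s1^4*s2^2 + (30051/128)*s0*s1^5*s2 + (10017/256)*s0*s1^6 + (783/4)*s0^2*s2^5 + (18711/16)*s0^2*s1*s2^4 + (3699/2)*s0^2*s1^2*s2^3 + (40473/32)*s0^2*s1^3*s2^2 + (62235/128)*s0^2*s1^4*s2 + (12447/128)*s0^2*s1^5 + (411)*s0^3*s2^4 + (2343/2)*s0^3*s1*s2^3 + (8289/8)*s0^3*s1^2*s2^2 + (3603/8)*s0^3*s1^3*s2 + (3603/32)*s0^3*s1^4 + (507/2)*s0^4*s2^3 + (5997/16)*s0^4*s1*s2^2 + (5823/32)*s0^4*s1^2*s2 + (1941/32)*s0^4*s1^3 + (197/4)*s0^5*s2^2 + (197/8)*s0^5*s1*s2 + (197/16)*s0^5*s1^2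 := by
    have e : s0 = 1 - s1 - s2 := by linarith
    subst e; unfold psi_2_2_3 achi cchi; ring
  rw [key]; positivity

def psi_2_3_2 (A C : ℝ) : ℝ := (49/4)*C + (1/16)*C^2 + (26)*A + (-185/8)*A*C + (-413/8)*A^2 + (1/2)*A^2*C + (369/8)*A^3

theorem psi_2_3_2_nonneg (s0 s1 s2 : ℝ) (h0 : 0 ≤ s0) (h1 : 0 ≤ s1) (h2 : 0 ≤ s2) (hs : s0 + s1 + s2 = 1) :
    0 ≤ psi_2_3_2 ((1)*achi s1 s2) ((1)*cchi s1 s2) := by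
  have key : psi_2_3_2 ((1)*achi s1 s2) ((1)*cchi s1 s2) = (81/4)*s1*s2^6 + (10287/64)*s1^2*s2^5 + (18549/64)*s1^3*s2^4 + (53865/256)*s1^4*s2^3 + (9639/128)*s1^5*s2^2 + (8505/512)*s1^6*s2 + (1215/512)*s1^7 + (27)*s0*s2^6 + (5589/16)*s0*s1*s2^5 + (57591/64)*s0*s1^2*s2^4 + (13419/16)*s0*s1^3*s2^3 + (89991/256)*s0*s1^4*s2^2 + (21789/256)*s0*s1^5*s2 + (7263/512)*s0*s1^6 + (1647/8)*s0^2*s2^5 + (15147/16)*s0^2*s1*s2^4 + (40473/32)*s0^2*s1^2*s2^3 + (21681/32)*s0^2*s1^3*s2^2 + (12285/64)*s0^2*s1^4*s2 + (2457/64)*s0^2*s1^5 + (2451/8)*s0^3*s2^4 + (6159/8)*s0^3*s1*s2^3 + (18657/32)*s0^3*s1^2*s2^2 + (6339/32)*s0^3*s1^3*s2 + (6339/128)*s0^3*s1^4 + (309/2)*s0^4*s2^3 + (1707/8)*s0^4*s1*s2^2 + (1413/16)*s0^4*s1^2*s2 + (471/16)*s0^4*s1^3 + (26)*s0^5*s2^2 + (13)*s0^5*s1*s2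 + (13/2)*s0^5*s1^2 := by
    have e : s0 = 1 - s1 - s2 := by linarith
    subst e; unfold psi_2_3_2 achi cchi; ring
  rw [key]; positivity

def psi_2_4_1 (A C : ℝ) : ℝ := (265/32)*C + (5/64)*C^2 + (115/16)*A + (-65/4)*A*C + (-355/32)*A^2 + (55/16)*A^2*C + (405/32)*A^3

theorem psi_2_4_1_nonneg (s0 s1 s2 : ℝ) (h0 : 0 ≤ s0) (h1 : 0 ≤ s1) (h2 : 0 ≤ s2) (hs : s0 + s1 + s2 = 1) :
    0 ≤ psi_2_4_1 ((1)*achi s1 s2) ((1)*cchi s1 s2) := by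
  have key : psi_2_4_1 ((1)*achi s1 s2) ((1)*cchi s1 s2) = (405/32)*s1*s2^6 + (21465/256)*s1^2*s2^5 + (35235/256)*s1^3*s2^4 + (87075/1024)*s1^4*s2^3 + (10125/512)*s1^5*s2^2 + (2835/2048)*s1^6*s2 + (405/2048)*s1^7 + (135/8)*s0*s2^6 + (11745/64)*s0*s1*s2^5 + (106515/256)*s0*s1^2*s2^4 + (21195/64)*s0*s1^3*s2^3 + (93555/1024)*s0*s1^4*s2^2 + (5265/1024)*s0*s1^5*s2 + (1755/2048)*s0*s1^6 + (3375/32)*s0^2*s2^5 + (13365/32)*s0^2*s1*s2^4 + (62235/128)*s0^2*s1^2*s2^3 + (12285/64)*s0^2*s1^3*s2^2 + (11475/512)*s0^2*s1^4*s2 + (2295/512)*s0^2*s1^5 + (4065/32)*s0^3*s2^4 + (9105/32)*s0^3*s1*s2^3 + (22815/128)*s0^3*s1^2*s2^2 + (4605/128)*s0^3*s1^3*s2 + (4605/512)*s0^3*s1^4 + (105/2)*s0^4*s2^3 + (4245/64)*s0^4*s1*s2^2 + (2655/128)*s0^4*s1^2*s2 + (885/128)*s0^4*s1^3 + (115/16)*s0^5*s2^2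 + (115/32)*s0^5*s1*s2 + (115/64)*s0^5*s1^2 := by
    have e : s0 = 1 - s1 - s2 := by linarith
    subst e; unfold psi_2_4_1 achi cchi; ring
  rw [key]; positivity

def psi_2_5_0 (A C : ℝ) : ℝ := (53/32)*C + (1/64)*C^2 + (23/16)*A + (-13/4)*A*C + (-71/32)*A^2 + (11/16)*A^2*C + (81/32)*A^3

theorem psi_2_5_0_nonneg (s0 s1 s2 : ℝ) (h0 : 0 ≤ s0) (h1 : 0 ≤ s1) (h2 : 0 ≤ s2) (hs : s0 + s1 + s2 = 1) :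
    0 ≤ psi_2_5_0 ((1)*achi s1 s2) ((1)*cchi s1 s2) - ((729/2048)*s1^5*s2^2 + (243/2048)*s1^6*s2 + (81/8192)*s1^7) := by
  have key : psi_2_5_0 ((1)*achi s1 s2) ((1)*cchi s1 s2) - ((729/2048)*s1^5*s2^2 + (243/2048)*s1^6*s2 + (81/8192)*s1^7) = (81/32)*s1*s2^6 + (4293/256)*s1^2*s2^5 + (7047/256)*s1^3*s2^4 + (17415/1024)*s1^4*s2^3 + (7371/2048)*s1^5*s2^2 + (81/512)*s1^6*s2 + (243/8192)*s1^7 + (27/8)*s0*s2^6 + (2349/64)*s0*s1*s2^5 + (21303/256)*s0*s1^2*s2^4 + (4239/64)*s0*s1^3*s2^3 + (18711/1024)*s0*s1^4*s2^2 + (1053/1024)*s0*s1^5*s2 + (351/2048)*s0*s1^6 + (675/32)*s0^2*s2^5 + (2673/32)*s0^2*s1*s2^4 + (12447/128)*s0^2*s1^2*s2^3 + (2457/64)*s0^2*s1^3*s2^2 + (2295/512)*s0^2*s1^4*s2 + (459/512)*s0^2*s1^5 + (813/32)*s0^3*s2^4 + (1821/32)*s0^3*s1*s2^3 + (4563/128)*s0^3*s1^2*s2^2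 + (921/128)*s0^3*s1^3*s2 + (921/512)*s0^3*s1^4 + (21/2)*s0^4*s2^3 + (849/64)*s0^4*s1*s2^2 + (531/128)*s0^4*s1^2*s2 + (177/128)*s0^4*s1^3 + (23/16)*s0^5*s2^2 + (23/32)*s0^5*s1*s2 + (23/64)*s0^5*s1^2 := by
    have e : s0 = 1 - s1 - s2 := by linarith
    subst e; unfold psi_2_5_0 achi cchi; ring
  rw [key]; positivity

def psi_3_0_4 (A C : ℝ) : ℝ := (-1/2)*C + (12)*A + (3/2)*A*C + (-28)*A^2 + (-4)*A^2*C + (22)*A^3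

theorem psi_3_0_4_nonneg (s0 s1 s2 : ℝ) (h0 : 0 ≤ s0) (h1 : 0 ≤ s1) (h2 : 0 ≤ s2) (hs : s0 + s1 + s2 = 1) :
    0 ≤ psi_3_0_4 ((1)*achi s1 s2) ((1)*cchi s1 s2) := by
  have key : psi_3_0_4 ((1)*achi s1 s2) ((1)*cchi s1 s2) = (189/8)*s1^2*s2^5 + (243/4)*s1^3*s2^4 + (2025/32)*s1^4*s2^3 + (1161/32)*s1^5*s2^2 + (189/16)*s1^6*s2 + (27/16)*s1^7 + (99/2)*s0*s1*s2^5 + (405/2)*s0*s1^2*s2^4 + (261)*s0*s1^3*s2^3 + (2709/16)*s0*s1^4*s2^2 + (999/16)*s0*s1^5*s2 + (333/32)*s0*s1^6 + (33)*s0^2*s2^5 + (957/4)*s0^2*s1*s2^4 + (411)*s0^2*s1^2*s2^3 + (2451/8)*s0^2*s1^3*s2^2 + (4065/32)*s0^2*s1^4*s2 + (813/32)*s0^2*s1^5 + (88)*s0^3*s2^4 + (265)*s0^3*s1*s2^3 + (495/2)*s0^3*s1^2*s2^2 + (115)*s0^3*s1^3*s2 + (115/4)*s0^3*s1^4 + (59)*s0^4*s2^3 + (357/4)*s0^4*s1*s2^2 + (363/8)*s0^4*s1^2*s2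 + (121/8)*s0^4*s1^3 + (12)*s0^5*s2^2 + (6)*s0^5*s1*s2 + (3)*s0^5*s1^2 := by
    have e : s0 = 1 - s1 - s2 := by linarith
    subst e; unfold psi_3_0_4 achi cchi; ring
  rw [key]; positivity

def psi_3_1_3 (A C : ℝ) : ℝ := (4)*C + (30)*A + (-15/2)*A*C + (-67)*A^2 + (-7)*A^2*C + (58)*A^3

theorem psi_3_1_3_nonneg (s0 s1 s2 : ℝ) (h0 : 0 ≤ s0) (h1 : 0 ≤ s1) (h2 : 0 ≤ s2) (hs : s0 + s1 + s2 = 1) :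
    0 ≤ psi_3_1_3 ((1)*achi s1 s2) ((1)*cchi s1 s2) := by
  have key : psi_3_1_3 ((1)*achi s1 s2) ((1)*cchi s1 s2) = (27/4)*s1*s2^6 + (405/4)*s1^2*s2^5 + (216)*s1^3*s2^4 + (6075/32)*s1^4*s2^3 + (729/8)*s1^5*s2^2 + (1701/64)*s1^6*s2 + (243/64)*s1^7 + (9)*s0*s2^6 + (423/2)*s0*s1*s2^5 + (2727/4)*s0*s1^2*s2^4 + (3033/4)*s0*s1^3*s2^3 + (3339/8)*s0*s1^4*s2^2 + (2187/16)*s0*s1^5*s2 + (729/32)*s0*s1^6 + (132)*s0^2*s2^5 + (3045/4)*s0^2*s1*s2^4 + (2343/2)*s0^2*s1^2*s2^3 + (6159/8)*s0^2*s1^3*s2^2 + (9105/32)*s0^2*s1^4*s2 + (1821/32)*s0^2*s1^5 + (265)*s0^3*s2^4 + (739)*s0^3*s1*s2^3 + (2547/4)*s0^3*s1^2*s2^2 + (1069/4)*s0^3*s1^3*s2 + (1069/16)*s0^3*s1^4 + (158)*s0^4*s2^3 + (231)*s0^4*s1*s2^2 + (219/2)*s0^4*s1^2*s2 + (73/2)*s0^4*s1^3 + (30)*s0^5*s2^2 + (15)*s0^5*s1*s2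 + (15/2)*s0^5*s1^2 := by
    have e : s0 = 1 - s1 - s2 := by linarith
    subst e; unfold psi_3_1_3 achi cchi; ring
  rw [key]; positivity

def psi_3_2_2 (A C : ℝ) : ℝ := (69/8)*C + (45/2)*A + (-135/8)*A*C + (-93/2)*A^2 + (-3/2)*A^2*C + (87/2)*A^3

theorem psi_3_2_2_nonneg (s0 s1 s2 : ℝ) (h0 : 0 ≤ s0) (h1 : 0 ≤ s1) (h2 : 0 ≤ s2) (hs : s0 + s1 + s2 = 1) :
    0 ≤ psi_3_2_2 ((1)*achi s1 s2) ((1)*cchi s1 s2) := by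
  have key : psi_3_2_2 ((1)*achi s1 s2) ((1)*cchi s1 s2) = (27/2)*s1*s2^6 + (3915/32)*s1^2*s2^5 + (459/2)*s1^3*s2^4 + (22275/128)*s1^4*s2^3 + (8613/128)*s1^5*s2^2 + (2079/128)*s1^6*s2 + (297/128)*s1^7 + (18)*s0*s2^6 + (2079/8)*s0*s1*s2^5 + (5643/8)*s0*s1^2*s2^4 + (684)*s0*s1^3*s2^3 + (19629/64)*s0*s1^4*s2^2 + (5211/64)*s0*s1^5*s2 + (1737/128)*s0*s1^6 + (621/4)*s0^2*s2^5 + (12015/16)*s0^2*s1*s2^4 + (8289/8)*s0^2*s1^2*s2^3 + (18657/32)*s0^2*s1^3*s2^2 + (22815/128)*s0^2*s1^4*s2 + (4563/128)*s0^2*s1^5 + (495/2)*s0^3*s2^4 + (2547/4)*s0^3*s1*s2^3 + (1989/4)*s0^3*s1^2*s2^2 + (1431/8)*s0^3*s1^3*s2 + (1431/32)*s0^3*s1^4 + (519/4)*s0^4*s2^3 + (2907/16)*s0^4*s1*s2^2 + (2493/32)*s0^4*s1^2*s2 + (831/32)*s0^4*s1^3 + (45/2)*s0^5*s2^2 + (45/4)*s0^5*s1*s2 + (45/8)*s0^5*s1^2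 := by
    have e : s0 = 1 - s1 - s2 := by linarith
    subst e; unfold psi_3_2_2 achi cchi; ring
  rw [key]; positivity

def psi_3_3_1 (A C : ℝ) : ℝ := (53/8)*C + (15/2)*A + (-105/8)*A*C + (-13)*A^2 + (2)*A^2*C + (29/2)*A^3

theorem psi_3_3_1_nonneg (s0 s1 s2 : ℝ) (h0 : 0 ≤ s0) (h1 : 0 ≤ s1) (h2 : 0 ≤ s2) (hs : s0 + s1 + s2 = 1) :
    0 ≤ psi_3_3_1 ((1)*achi s1 s2) ((1)*cchi s1 s2) := by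
  have key : psi_3_3_1 ((1)*achi s1 s2) ((1)*cchi s1 s2) = (81/8)*s1*s2^6 + (2295/32)*s1^2*s2^5 + (243/2)*s1^3*s2^4 + (10125/128)*s1^4*s2^3 + (2781/128)*s1^5*s2^2 + (189/64)*s1^6*s2 + (27/64)*s1^7 + (27/2)*s0*s2^6 + (1233/8)*s0*s1*s2^5 + (729/2)*s0*s1^2*s2^4 + (2439/8)*s0*s1^3*s2^3 + (6273/64)*s0*s1^4*s2^2 + (837/64)*s0*s1^5*s2 + (279/128)*s0*s1^6 + (357/4)*s0^2*s2^5 + (5925/16)*s0^2*s1*s2^4 + (3603/8)*s0^2*s1^2*s2^3 + (6339/32)*s0^2*s1^3*s2^2 + (4605/128)*s0^2*s1^4*s2 + (921/128)*s0^2*s1^5 + (115)*s0^3*s2^4 + (1069/4)*s0^3*s1*s2^3 + (1431/8)*s0^3*s1^2*s2^2 + (181/4)*s0^3*s1^3*s2 + (181/16)*s0^3*s1^4 + (203/4)*s0^4*s2^3 + (1059/16)*s0^4*s1*s2^2 + (741/32)*s0^4*s1^2*s2 + (247/32)*s0^4*s1^3 + (15/2)*s0^5*s2^2 + (15/4)*s0^5*s1*s2 + (15/8)*s0^5*s1^2 := by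
    have e : s0 = 1 - s1 - s2 := by linarith
    subst e; unfold psi_3_3_1 achi cchi; ring
  rw [key]; positivity

def psi_3_4_0 (A C : ℝ) : ℝ := (53/32)*C + (15/8)*A + (-105/32)*A*C + (-13/4)*A^2 + (1/2)*A^2*C + (29/8)*A^3

theorem psi_3_4_0_nonneg (s0 s1 s2 : ℝ) (h0 : 0 ≤ s0) (h1 : 0 ≤ s1) (h2 : 0 ≤ s2) (hs : s0 + s1 + s2 = 1) :
    0 ≤ psi_3_4_0 ((1)*achi s1 s2) ((1)*cchi s1 s2) := by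
  have key : psi_3_4_0 ((1)*achi s1 s2) ((1)*cchi s1 s2) = (81/32)*s1*s2^6 + (2295/128)*s1^2*s2^5 + (243/8)*s1^3*s2^4 + (10125/512)*s1^4*s2^3 + (2781/512)*s1^5*s2^2 + (189/256)*s1^6*s2 + (27/256)*s1^7 + (27/8)*s0*s2^6 + (1233/32)*s0*s1*s2^5 + (729/8)*s0*s1^2*s2^4 + (2439/32)*s0*s1^3*s2^3 + (6273/256)*s0*s1^4*s2^2 + (837/256)*s0*s1^5*s2 + (279/512)*s0*s1^6 + (357/16)*s0^2*s2^5 + (5925/64)*s0^2*s1*s2^4 + (3603/32)*s0^2*s1^2*s2^3 + (6339/128)*s0^2*s1^3*s2^2 + (4605/512)*s0^2*s1^4*s2 + (921/512)*s0^2*s1^5 + (115/4)*s0^3*s2^4 + (1069/16)*s0^3*s1*s2^3 + (1431/32)*s0^3*s1^2*s2^2 + (181/16)*s0^3*s1^3*s2 + (181/64)*s0^3*s1^4 + (203/16)*s0^4*s2^3 + (1059/64)*s0^4*s1*s2^2 + (741/128)*s0^4*s1^2*s2 + (247/128)*s0^4*s1^3 + (15/8)*s0^5*s2^2 + (15/16)*s0^5*s1*s2 + (15/32)*s0^5*s1^2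 := by
    have e : s0 = 1 - s1 - s2 := by linarith
    subst e; unfold psi_3_4_0 achi cchi; ring
  rw [key]; positivity

def psi_4_0_3 (A C : ℝ) : ℝ := (3/2)*C + (6)*A + (-3)*A*C + (-13)*A^2 + (-1)*A^2*C + (12)*A^3

theorem psi_4_0_3_nonneg (s0 s1 s2 : ℝ) (h0 : 0 ≤ s0) (h1 : 0 ≤ s1) (h2 : 0 ≤ s2) (hs : s0 + s1 + s2 = 1) :
    0 ≤ psi_4_0_3 ((1)*achi s1 s2) ((1)*cchi s1 s2) := by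
  have key : psi_4_0_3 ((1)*achi s1 s2) ((1)*cchi s1 s2) = (9/4)*s1*s2^6 + (207/8)*s1^2*s2^5 + (207/4)*s1^3*s2^4 + (675/16)*s1^4*s2^3 + (585/32)*s1^5*s2^2 + (315/64)*s1^6*s2 + (45/64)*s1^7 + (3)*s0*s2^6 + (54)*s0*s1*s2^5 + (639/4)*s0*s1^2*s2^4 + (663/4)*s0*s1^3*s2^3 + (1323/16)*s0*s1^4*s2^2 + (99/4)*s0*s1^5*s2 + (33/8)*s0*s1^6 + (33)*s0^2*s2^5 + (174)*s0^2*s1*s2^4 + (507/2)*s0^2*s1^2*s2^3 + (309/2)*s0^2*s1^3*s2^2 + (105/2)*s0^2*s1^4*s2 + (21/2)*s0^2*s1^5 + (59)*s0^3*s2^4 + (158)*s0^3*s1*s2^3 + (519/4)*s0^3*s1^2*s2^2 + (203/4)*s0^3*s1^3*s2 + (203/16)*s0^3*s1^4 + (33)*s0^4*s2^3 + (189/4)*s0^4*s1*s2^2 + (171/8)*s0^4*s1^2*s2 + (57/8)*s0^4*s1^3 + (6)*s0^5*s2^2 + (3)*s0^5*s1*s2 + (3/2)*s0^5*s1^2 := by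
    have e : s0 = 1 - s1 - s2 := by linarith
    subst e; unfold psi_4_0_3 achi cchi; ring
  rw [key]; positivity

def psi_4_1_2 (A C : ℝ) : ℝ := (3)*C + (33/4)*A + (-6)*A*C + (-69/4)*A^2 + (-3/4)*A^2*C + (33/2)*A^3

theorem psi_4_1_2_nonneg (s0 s1 s2 : ℝ) (h0 : 0 ≤ s0) (h1 : 0 ≤ s1) (h2 : 0 ≤ s2) (hs : s0 + s1 + s2 = 1) :
    0 ≤ psi_4_1_2 ((1)*achi s1 s2) ((1)*cchi s1 s2) := by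
  have key : psi_4_1_2 ((1)*achi s1 s2) ((1)*cchi s1 s2) = (9/2)*s1*s2^6 + (693/16)*s1^2*s2^5 + (2637/32)*s1^3*s2^4 + (2025/32)*s1^4*s2^3 + (3195/128)*s1^5*s2^2 + (1575/256)*s1^6*s2 + (225/256)*s1^7 + (6)*s0*s2^6 + (729/8)*s0*s1*s2^5 + (252)*s0*s1^2*s2^4 + (1977/8)*s0*s1^3*s2^3 + (7209/64)*s0*s1^4*s2^2 + (1953/64)*s0*s1^5*s2 + (651/128)*s0*s1^6 + (219/4)*s0^2*s2^5 + (1077/4)*s0^2*s1*s2^4 + (5997/16)*s0^2*s1^2*s2^3 + (1707/8)*s0^2*s1^3*s2^2 + (4245/64)*s0^2*s1^4*s2 + (849/64)*s0^2*s1^5 + (357/4)*s0^3*s2^4 + (231)*s0^3*s1*s2^3 + (2907/16)*s0^3*s1^2*s2^2 + (1059/16)*s0^3*s1^3*s2 + (1059/64)*s0^3*s1^4 + (189/4)*s0^4*s2^3 + (531/8)*s0^4*s1*s2^2 + (459/16)*s0^4*s1^2*s2 + (153/16)*s0^4*s1^3 + (33/4)*s0^5*s2^2 + (33/8)*s0^5*s1*s2 + (33/16)*s0^5*s1^2 := by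
    have e : s0 = 1 - s1 - s2 := by linarith
    subst e; unfold psi_4_1_2 achi cchi; ring
  rw [key]; positivity

def psi_4_2_1 (A C : ℝ) : ℝ := (9/4)*C + (27/8)*A + (-9/2)*A*C + (-51/8)*A^2 + (3/8)*A^2*C + (27/4)*A^3

theorem psi_4_2_1_nonneg (s0 s1 s2 : ℝ) (h0 : 0 ≤ s0) (h1 : 0 ≤ s1) (h2 : 0 ≤ s2) (hs : s0 + s1 + s2 = 1) :
    0 ≤ psi_4_2_1 ((1)*achi s1 s2) ((1)*cchi s1 s2) := by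
  have key : psi_4_2_1 ((1)*achi s1 s2) ((1)*cchi s1 s2) = (27/8)*s1*s2^6 + (837/32)*s1^2*s2^5 + (2943/64)*s1^3*s2^4 + (2025/64)*s1^4*s2^3 + (2565/256)*s1^5*s2^2 + (945/512)*s1^6*s2 + (135/512)*s1^7 + (9/2)*s0*s2^6 + (891/16)*s0*s1*s2^5 + (1107/8)*s0*s1^2*s2^4 + (1953/16)*s0*s1^3*s2^3 + (5751/128)*s0*s1^4*s2^2 + (1107/128)*s0*s1^5*s2 + (369/256)*s0*s1^6 + (261/8)*s0^2*s2^5 + (1143/8)*s0^2*s1*s2^4 + (5823/32)*s0^2*s1^2*s2^3 + (1413/16)*s0^2*s1^3*s2^2 + (2655/128)*s0^2*s1^4*s2 + (531/128)*s0^2*s1^5 + (363/8)*s0^3*s2^4 + (219/2)*s0^3*s1*s2^3 + (2493/32)*s0^3*s1^2*s2^2 + (741/32)*s0^3*s1^3*s2 + (741/128)*s0^3*s1^4 + (171/8)*s0^4*s2^3 + (459/16)*s0^4*s1*s2^2 + (351/32)*s0^4*s1^2*s2 + (117/32)*s0^4*s1^3 + (27/8)*s0^5*s2^2 + (27/16)*s0^5*s1*s2 + (27/32)*s0^5*s1^2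 := by
    have e : s0 = 1 - s1 - s2 := by linarith
    subst e; unfold psi_4_2_1 achi cchi; ring
  rw [key]; positivity

def psi_4_3_0 (A C : ℝ) : ℝ := (3/4)*C + (9/8)*A + (-3/2)*A*C + (-17/8)*A^2 + (1/8)*A^2*C + (9/4)*A^3

theorem psi_4_3_0_nonneg (s0 s1 s2 : ℝ) (h0 : 0 ≤ s0) (h1 : 0 ≤ s1) (h2 : 0 ≤ s2) (hs : s0 + s1 + s2 = 1) :
    0 ≤ psi_4_3_0 ((1)*achi s1 s2) ((1)*cchi s1 s2) := by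
  have key : psi_4_3_0 ((1)*achi s1 s2) ((1)*cchi s1 s2) = (9/8)*s1*s2^6 + (279/32)*s1^2*s2^5 + (981/64)*s1^3*s2^4 + (675/64)*s1^4*s2^3 + (855/256)*s1^5*s2^2 + (315/512)*s1^6*s2 + (45/512)*s1^7 + (3/2)*s0*s2^6 + (297/16)*s0*s1*s2^5 + (369/8)*s0*s1^2*s2^4 + (651/16)*s0*s1^3*s2^3 + (1917/128)*s0*s1^4*s2^2 + (369/128)*s0*s1^5*s2 + (123/256)*s0*s1^6 + (87/8)*s0^2*s2^5 + (381/8)*s0^2*s1*s2^4 + (1941/32)*s0^2*s1^2*s2^3 + (471/16)*s0^2*s1^3*s2^2 + (885/128)*s0^2*s1^4*s2 + (177/128)*s0^2*s1^5 + (121/8)*s0^3*s2^4 + (73/2)*s0^3*s1*s2^3 + (831/32)*s0^3*s1^2*s2^2 + (247/32)*s0^3*s1^3*s2 + (247/128)*s0^3*s1^4 + (57/8)*s0^4*s2^3 + (153/16)*s0^4*s1*s2^2 + (117/32)*s0^4*s1^2*s2 + (39/32)*s0^4*s1^3 + (9/8)*s0^5*s2^2 + (9/16)*s0^5*s1*s2 + (9/32)*s0^5*s1^2 := by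
    have e : s0 = 1 - s1 - s2 := by linarith
    subst e; unfold psi_4_3_0 achi cchi; ring
  rw [key]; positivity

def psi_5_0_2 (A C : ℝ) : ℝ := (1/2)*C + (1)*A + (-1)*A*C + (-2)*A^2 + (2)*A^3

theorem psi_5_0_2_nonneg (s0 s1 s2 : ℝ) (h0 : 0 ≤ s0) (h1 : 0 ≤ s1) (h2 : 0 ≤ s2) (hs : s0 + s1 + s2 = 1) :
    0 ≤ psi_5_0_2 ((1)*achi s1 s2) ((1)*cchi s1 s2) := by
  have key : psi_5_0_2 ((1)*achi s1 s2) ((1)*cchi s1 s2) = (3/4)*s1*s2^6 + (51/8)*s1^2*s2^5 + (93/8)*s1^3*s2^4 + (135/16)*s1^4*s2^3 + (3)*s1^5*s2^2 + (21/32)*s1^6*s2 + (3/32)*s1^7 + (1)*s0*s2^6 + (27/2)*s0*s1*s2^5 + (141/4)*s0*s1^2*s2^4 + (131/4)*s0*s1^3*s2^3 + (27/2)*s0*s1^4*s2^2 + (51/16)*s0*s1^5*s2 + (17/32)*s0*s1^6 + (8)*s0^2*s2^5 + (37)*s0^2*s1*s2^4 + (197/4)*s0^2*s1^2*s2^3 + (26)*s0^2*s1^3*s2^2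 + (115/16)*s0^2*s1^4*s2 + (23/16)*s0^2*s1^5 + (12)*s0^3*s2^4 + (30)*s0^3*s1*s2^3 + (45/2)*s0^3*s1^2*s2^2 + (15/2)*s0^3*s1^3*s2 + (15/8)*s0^3*s1^4 + (6)*s0^4*s2^3 + (33/4)*s0^4*s1*s2^2 + (27/8)*s0^4*s1^2*s2 + (9/8)*s0^4*s1^3 + (1)*s0^5*s2^2 + (1/2)*s0^5*s1*s2 + (1/4)*s0^5*s1^2 := by
    have e : s0 = 1 - s1 - s2 := by linarith
    subst e; unfold psi_5_0_2 achi cchi; ring
  rw [key]; positivity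

def psi_5_1_1 (A C : ℝ) : ℝ := (1/4)*C + (1/2)*A + (-1/2)*A*C + (-1)*A^2 + (1)*A^3

theorem psi_5_1_1_nonneg (s0 s1 s2 : ℝ) (h0 : 0 ≤ s0) (h1 : 0 ≤ s1) (h2 : 0 ≤ s2) (hs : s0 + s1 + s2 = 1) :
    0 ≤ psi_5_1_1 ((1)*achi s1 s2) ((1)*cchi s1 s2) := by
  have key : psi_5_1_1 ((1)*achi s1 s2) ((1)*cchi s1 s2) = (3/8)*s1*s2^6 + (51/16)*s1^2*s2^5 + (93/16)*s1^3*s2^4 + (135/32)*s1^4*s2^3 + (3/2)*s1^5*s2^2 + (21/64)*s1^6*s2 + (3/64)*s1^7 + (1/2)*s0*s2^6 + (27/4)*s0*s1*s2^5 + (141/8)*s0*s1^2*s2^4 + (131/8)*s0*s1^3*s2^3 + (27/4)*s0*s1^4*s2^2 + (51/32)*s0*s1^5*s2 + (17/64)*s0*s1^6 + (4)*s0^2*s2^5 + (37/2)*s0^2*s1*s2^4 + (197/8)*s0^2*s1^2*s2^3 + (13)*s0^2*s1^3*s2^2 + (115/32)*s0^2*s1^4*s2 + (23/32)*s0^2*s1^5 + (6)*s0^3*s2^4 + (15)*s0^3*s1*s2^3 + (45/4)*s0^3*s1^2*s2^2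 + (15/4)*s0^3*s1^3*s2 + (15/16)*s0^3*s1^4 + (3)*s0^4*s2^3 + (33/8)*s0^4*s1*s2^2 + (27/16)*s0^4*s1^2*s2 + (9/16)*s0^4*s1^3 + (1/2)*s0^5*s2^2 + (1/4)*s0^5*s1*s2 + (1/8)*s0^5*s1^2 := by
    have e : s0 = 1 - s1 - s2 := by linarith
    subst e; unfold psi_5_1_1 achi cchi; ring
  rw [key]; positivity

def psi_5_2_0 (A C : ℝ) : ℝ := (1/8)*C + (1/4)*A + (-1/4)*A*C + (-1/2)*A^2 + (1/2)*A^3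

theorem psi_5_2_0_nonneg (s0 s1 s2 : ℝ) (h0 : 0 ≤ s0) (h1 : 0 ≤ s1) (h2 : 0 ≤ s2) (hs : s0 + s1 + s2 = 1) :
    0 ≤ psi_5_2_0 ((1)*achi s1 s2) ((1)*cchi s1 s2) := by
  have key : psi_5_2_0 ((1)*achi s1 s2) ((1)*cchi s1 s2) = (3/16)*s1*s2^6 + (51/32)*s1^2*s2^5 + (93/32)*s1^3*s2^4 + (135/64)*s1^4*s2^3 + (3/4)*s1^5*s2^2 + (21/128)*s1^6*s2 + (3/128)*s1^7 + (1/4)*s0*s2^6 + (27/8)*s0*s1*s2^5 + (141/16)*s0*s1^2*s2^4 + (131/16)*s0*s1^3*s2^3 + (27/8)*s0*s1^4*s2^2 + (51/64)*s0*s1^5*s2 + (17/128)*s0*s1^6 + (2)*s0^2*s2^5 + (37/4)*s0^2*s1*s2^4 + (197/16)*s0^2*s1^2*s2^3 + (13/2)*s0^2*s1^3*s2^2 + (115/64)*s0^2*s1^4*s2 + (23/64)*s0^2*s1^5 + (3)*s0^3*s2^4 + (15/2)*s0^3*s1*s2^3 + (45/8)*s0^3*s1^2*s2^2 + (15/8)*s0^3*s1^3*s2 + (15/32)*s0^3*s1^4 + (3/2)*s0^4*s2^3 + (33/16)*s0^4*s1*s2^2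 + (27/32)*s0^4*s1^2*s2 + (9/32)*s0^4*s1^3 + (1/4)*s0^5*s2^2 + (1/8)*s0^5*s1*s2 + (1/16)*s0^5*s1^2 := by
    have e : s0 = 1 - s1 - s2 := by linarith
    subst e; unfold psi_5_2_0 achi cchi; ring
  rw [key]; positivity

theorem main_id (t0 t1 t2 A C : ℝ) (ht : t0 + t1 + t2 = 1) :
    polyR ((1)*achi t1 t2) ((1)*cchi t1 t2) A C = t1*t2^6 * psi_0_1_6 A C + t1^2*t2^5 * psi_0_2_5 A C + t1^3*t2^4 * psi_0_3_4 A C + t1^4*t2^3 * psi_0_4_3 A C + t1^5*t2^2 * psi_0_5_2 A C + t1^6*t2 * psi_0_6_1 A C + t1^7 * psi_0_7_0 A C + t0*t2^6 * psi_1_0_6 A C + t0*t1*t2^5 * psi_1_1_5 A C + t0*t1^2*t2^4 * psi_1_2_4 A C + t0*t1^3*t2^3 * psi_1_3_3 A C + t0*t1^4*t2^2 * psi_1_4_2 A C + t0*t1^5*t2 * psi_1_5_1 A C + t0*t1^6 * psi_1_6_0 A C + t0^2*t2^5 * psi_2_0_5 A C + t0^2*t1*t2^4 *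 psi_2_1_4 A C + t0^2*t1^2*t2^3 * psi_2_2_3 A C + t0^2*t1^3*t2^2 * psi_2_3_2 A C + t0^2*t1^4*t2 * psi_2_4_1 A C + t0^2*t1^5 * psi_2_5_0 A C + t0^3*t2^4 * psi_3_0_4 A C + t0^3*t1*t2^3 * psi_3_1_3 A C + t0^3*t1^2*t2^2 * psi_3_2_2 A C + t0^3*t1^3*t2 * psi_3_3_1 A C + t0^3*t1^4 * psi_3_4_0 A C + t0^4*t2^3 * psi_4_0_3 A C + t0^4*t1*t2^2 * psi_4_1_2 A C + t0^4*t1^2*t2 * psi_4_2_1 A C + t0^4*t1^3 * psi_4_3_0 A C + t0^5*t2^2 * psi_5_0_2 A C + t0^5*t1*t2 * psi_5_1_1 A C + t0^5*t1^2 * psi_5_2_0 A C := by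
  have e : t0 = 1 - t1 - t2 := by linarith
  subst e; unfold polyR polyJ polyX polyY psi_0_1_6 psi_0_2_5 psi_0_3_4 psi_0_4_3 psi_0_5_2 psi_0_6_1 psi_0_7_0 psi_1_0_6 psi_1_1_5 psi_1_2_4 psi_1_3_3 psi_1_4_2 psi_1_5_1 psi_1_6_0 psi_2_0_5 psi_2_1_4 psi_2_2_3 psi_2_3_2 psi_2_4_1 psi_2_5_0 psi_3_0_4 psi_3_1_3 psi_3_2_2 psi_3_3_1 psi_3_4_0 psi_4_0_3 psi_4_1_2 psi_4_2_1 psi_4_3_0 psi_5_0_2 psi_5_1_1 psi_5_2_0 achi cchi; ring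

theorem nonneg (t0 t1 t2 s0 s1 s2 : ℝ) (ht0 : 0 ≤ t0) (ht1 : 0 ≤ t1) (ht2 : 0 ≤ t2) (ht : t0 + t1 + t2 = 1)
    (h0 : 0 ≤ s0) (h1 : 0 ≤ s1) (h2 : 0 ≤ s2) (hs : s0 + s1 + s2 = 1) :
    0 ≤ polyR ((1)*achi t1 t2) ((1)*cchi t1 t2) ((1)*achi s1 s2) ((1)*cchi s1 s2) := by
  rw [main_id t0 t1 t2 _ _ ht]
  have p_0_1_6 := psi_0_1_6_nonneg s0 s1 s2 h0 h1 h2 hs
  have p_0_2_5 := psi_0_2_5_nonneg s0 s1 s2 h0 h1 h2 hs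
  have p_0_3_4 := psi_0_3_4_nonneg s0 s1 s2 h0 h1 h2 hs
  have p_0_4_3 := psi_0_4_3_nonneg s0 s1 s2 h0 h1 h2 hs
  have p_0_5_2 := psi_0_5_2_nonneg s0 s1 s2 h0 h1 h2 hs
  have p_0_6_1 := psi_0_6_1_nonneg s0 s1 s2 h0 h1 h2 hs
  have p_0_7_0 := psi_0_7_0_nonneg s0 s1 s2 h0 h1 h2 hs
  have p_1_0_6 := psi_1_0_6_nonneg s0 s1 s2 h0 h1 h2 hs
  have p_1_1_5 := psi_1_1_5_nonneg s0 s1 s2 h0 h1 h2 hs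
  have p_1_2_4 := psi_1_2_4_nonneg s0 s1 s2 h0 h1 h2 hs
  have p_1_3_3 := psi_1_3_3_nonneg s0 s1 s2 h0 h1 h2 hs
  have p_1_4_2 := psi_1_4_2_nonneg s0 s1 s2 h0 h1 h2 hs
  have p_1_5_1 := psi_1_5_1_nonneg s0 s1 s2 h0 h1 h2 hs
  have p_1_6_0 := psi_1_6_0_nonneg s0 s1 s2 h0 h1 h2 hs
  have p_2_0_5 := psi_2_0_5_nonneg s0 s1 s2 h0 h1 h2 hs
  have p_2_1_4 := psi_2_1_4_nonneg s0 s1 s2 h0 h1 h2 hs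
  have p_2_2_3 := psi_2_2_3_nonneg s0 s1 s2 h0 h1 h2 hs
  have p_2_3_2 := psi_2_3_2_nonneg s0 s1 s2 h0 h1 h2 hs
  have p_2_4_1 := psi_2_4_1_nonneg s0 s1 s2 h0 h1 h2 hs
  have p_2_5_0 := psi_2_5_0_nonneg s0 s1 s2 h0 h1 h2 hs
  have p_3_0_4 := psi_3_0_4_nonneg s0 s1 s2 h0 h1 h2 hs
  have p_3_1_3 := psi_3_1_3_nonneg s0 s1 s2 h0 h1 h2 hs
  have p_3_2_2 := psi_3_2_2_nonneg s0 s1 s2 h0 h1 h2 hs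
  have p_3_3_1 := psi_3_3_1_nonneg s0 s1 s2 h0 h1 h2 hs
  have p_3_4_0 := psi_3_4_0_nonneg s0 s1 s2 h0 h1 h2 hs
  have p_4_0_3 := psi_4_0_3_nonneg s0 s1 s2 h0 h1 h2 hs
  have p_4_1_2 := psi_4_1_2_nonneg s0 s1 s2 h0 h1 h2 hs
  have p_4_2_1 := psi_4_2_1_nonneg s0 s1 s2 h0 h1 h2 hs
  have p_4_3_0 := psi_4_3_0_nonneg s0 s1 s2 h0 h1 h2 hs
  have p_5_0_2 := psi_5_0_2_nonneg s0 s1 s2 h0 h1 h2 hs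
  have p_5_1_1 := psi_5_1_1_nonneg s0 s1 s2 h0 h1 h2 hs
  have p_5_2_0 := psi_5_2_0_nonneg s0 s1 s2 h0 h1 h2 hs
  have hsq : 0 ≤ (81/8192) * t1^5 * s1^5 * (t0 * (s1 + 6 * s2) - s0 * (t1 + 6 * t2))^2 := by positivity
  generalize psi_0_1_6 ((1)*achi s1 s2) ((1)*cchi s1 s2) = P_0_1_6 at *
  generalize psi_0_2_5 ((1)*achi s1 s2) ((1)*cchi s1 s2) = P_0_2_5 at *
  generalize psi_0_3_4 ((1)*achi s1 s2) ((1)*cchi s1 s2) = P_0_3_4 at *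
  generalize psi_0_4_3 ((1)*achi s1 s2) ((1)*cchi s1 s2) = P_0_4_3 at *
  generalize psi_0_5_2 ((1)*achi s1 s2) ((1)*cchi s1 s2) = P_0_5_2 at *
  generalize psi_0_6_1 ((1)*achi s1 s2) ((1)*cchi s1 s2) = P_0_6_1 at *
  generalize psi_0_7_0 ((1)*achi s1 s2) ((1)*cchi s1 s2) = P_0_7_0 at *
  generalize psi_1_0_6 ((1)*achi s1 s2) ((1)*cchi s1 s2) = P_1_0_6 at *
  generalize psi_1_1_5 ((1)*achi s1 s2) ((1)*cchi s1 s2) = P_1_1_5 at *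
  generalize psi_1_2_4 ((1)*achi s1 s2) ((1)*cchi s1 s2) = P_1_2_4 at *
  generalize psi_1_3_3 ((1)*achi s1 s2) ((1)*cchi s1 s2) = P_1_3_3 at *
  generalize psi_1_4_2 ((1)*achi s1 s2) ((1)*cchi s1 s2) = P_1_4_2 at *
  generalize psi_1_5_1 ((1)*achi s1 s2) ((1)*cchi s1 s2) = P_1_5_1 at *
  generalize psi_1_6_0 ((1)*achi s1 s2) ((1)*cchi s1 s2) = P_1_6_0 at *
  generalize psi_2_0_5 ((1)*achi s1 s2) ((1)*cchi s1 s2) = P_2_0_5 at *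
  generalize psi_2_1_4 ((1)*achi s1 s2) ((1)*cchi s1 s2) = P_2_1_4 at *
  generalize psi_2_2_3 ((1)*achi s1 s2) ((1)*cchi s1 s2) = P_2_2_3 at *
  generalize psi_2_3_2 ((1)*achi s1 s2) ((1)*cchi s1 s2) = P_2_3_2 at *
  generalize psi_2_4_1 ((1)*achi s1 s2) ((1)*cchi s1 s2) = P_2_4_1 at *
  generalize psi_2_5_0 ((1)*achi s1 s2) ((1)*cchi s1 s2) = P_2_5_0 at *
  generalize psi_3_0_4 ((1)*achi s1 s2) ((1)*cchi s1 s2) = P_3_0_4 at *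
  generalize psi_3_1_3 ((1)*achi s1 s2) ((1)*cchi s1 s2) = P_3_1_3 at *
  generalize psi_3_2_2 ((1)*achi s1 s2) ((1)*cchi s1 s2) = P_3_2_2 at *
  generalize psi_3_3_1 ((1)*achi s1 s2) ((1)*cchi s1 s2) = P_3_3_1 at *
  generalize psi_3_4_0 ((1)*achi s1 s2) ((1)*cchi s1 s2) = P_3_4_0 at *
  generalize psi_4_0_3 ((1)*achi s1 s2) ((1)*cchi s1 s2) = P_4_0_3 at *
  generalize psi_4_1_2 ((1)*achi s1 s2) ((1)*cchi s1 s2) = P_4_1_2 at *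
  generalize psi_4_2_1 ((1)*achi s1 s2) ((1)*cchi s1 s2) = P_4_2_1 at *
  generalize psi_4_3_0 ((1)*achi s1 s2) ((1)*cchi s1 s2) = P_4_3_0 at *
  generalize psi_5_0_2 ((1)*achi s1 s2) ((1)*cchi s1 s2) = P_5_0_2 at *
  generalize psi_5_1_1 ((1)*achi s1 s2) ((1)*cchi s1 s2) = P_5_1_1 at *
  generalize psi_5_2_0 ((1)*achi s1 s2) ((1)*cchi s1 s2) = P_5_2_0 at *
  have e : t1*t2^6 * P_0_1_6 + t1^2*t2^5 * P_0_2_5 + t1^3*t2^4 * P_0_3_4 + t1^4*t2^3 * P_0_4_3 + t1^5*t2^2 * P_0_5_2 + t1^6*t2 * P_0_6_1 + t1^7 * P_0_7_0 + t0*t2^6 * P_1_0_6 + t0*t1*t2^5 * P_1_1_5 + t0*t1^2*t2^4 * P_1_2_4 + t0*t1^3*t2^3 * P_1_3_3 + t0*t1^4*t2^2 * P_1_4_2 + t0*t1^5*t2 * P_1_5_1 + t0*t1^6 * P_1_6_0 + t0^2*t2^5 * P_2_0_5 + t0^2*t1*t2^4 * P_2_1_4 + t0^2*t1^2*t2^3 * P_2_2_3 + t0^2*t1^3*t2^2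 * P_2_3_2 + t0^2*t1^4*t2 * P_2_4_1 + t0^2*t1^5 * P_2_5_0 + t0^3*t2^4 * P_3_0_4 + t0^3*t1*t2^3 * P_3_1_3 + t0^3*t1^2*t2^2 * P_3_2_2 + t0^3*t1^3*t2 * P_3_3_1 + t0^3*t1^4 * P_3_4_0 + t0^4*t2^3 * P_4_0_3 + t0^4*t1*t2^2 * P_4_1_2 + t0^4*t1^2*t2 * P_4_2_1 + t0^4*t1^3 * P_4_3_0 + t0^5*t2^2 * P_5_0_2 + t0^5*t1*t2 * P_5_1_1 + t0^5*t1^2 * P_5_2_0 = t1*t2^6 * P_0_1_6 + t1^2*t2^5 * P_0_2_5 + t1^3*t2^4 * P_0_3_4 + t1^4*t2^3 * P_0_4_3 + t1^5*t2^2 * (P_0_5_2 - ((729/2048)*s0^2*s1^5)) + t1^6*t2 * (P_0_6_1 - ((243/2048)*s0^2*s1^5)) + t1^7 * (P_0_7_0 - ((81/8192)*s0^2*s1^5)) + t0*t2^6 * P_1_0_6 + t0*t1*t2^5 * P_1_1_5 + t0*t1^2*t2^4 * P_1_2_4 + t0*t1^3*t2^3 * P_1_3_3 + t0*t1^4*t2^2 * P_1_4_2 + t0*t1^5*t2 * (P_1_5_1 - ((-729/1024)*s0*s1^5*s2 + (-243/2048)*s0*s1^6)) + t0*t1^6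 * (P_1_6_0 - ((-243/2048)*s0*s1^5*s2 + (-81/4096)*s0*s1^6)) + t0^2*t2^5 * P_2_0_5 + t0^2*t1*t2^4 * P_2_1_4 + t0^2*t1^2*t2^3 * P_2_2_3 + t0^2*t1^3*t2^2 * P_2_3_2 + t0^2*t1^4*t2 * P_2_4_1 + t0^2*t1^5 * (P_2_5_0 - ((729/2048)*s1^5*s2^2 + (243/2048)*s1^6*s2 + (81/8192)*s1^7)) + t0^3*t2^4 * P_3_0_4 + t0^3*t1*t2^3 * P_3_1_3 + t0^3*t1^2*t2^2 * P_3_2_2 + t0^3*t1^3*t2 * P_3_3_1 + t0^3*t1^4 * P_3_4_0 + t0^4*t2^3 * P_4_0_3 + t0^4*t1*t2^2 * P_4_1_2 + t0^4*t1^2*t2 * P_4_2_1 + t0^4*t1^3 * P_4_3_0 + t0^5*t2^2 * P_5_0_2 + t0^5*t1*t2 * P_5_1_1 + t0^5*t1^2 * P_5_2_0 + (81/8192) * t1^5 * s1^5 * (t0 * (s1 + 6 * s2) - s0 * (t1 + 6 * t2))^2 := by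
    ring
  rw [e]
  exact add_nonneg (add_nonneg (add_nonneg (add_nonneg (add_nonneg (add_nonneg (add_nonneg (add_nonneg (add_nonneg (add_nonneg (add_nonneg (add_nonneg (add_nonneg (add_nonneg (add_nonneg (add_nonneg (add_nonneg (add_nonneg (add_nonneg (add_nonneg (add_nonneg (add_nonneg (add_nonneg (add_nonneg (add_nonneg (add_nonneg (add_nonneg (add_nonneg (add_nonneg (add_nonneg (add_nonneg (add_nonneg (mul_nonneg (by positivity) p_0_1_6) (mul_nonneg (by positivity) p_0_2_5)) (mul_nonneg (by positivity) p_0_3_4)) (mul_nonneg (by positivity) p_0_4_3)) (mul_nonneg (by positivity) p_0_5_2)) (mul_nonneg (by positivity) p_0_6_1)) (mul_nonneg (by positivity) p_0_7_0)) (mul_nonneg (by positivity) p_1_0_6)) (mul_nonneg (by positivity) p_1_1_5)) (mul_nonneg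 (by positivity) p_1_2_4)) (mul_nonneg (by positivity) p_1_3_3)) (mul_nonneg (by positivity) p_1_4_2)) (mul_nonneg (by positivity) p_1_5_1)) (mul_nonneg (by positivity) p_1_6_0)) (mul_nonneg (by positivity) p_2_0_5)) (mul_nonneg (by positivity) p_2_1_4)) (mul_nonneg (by positivity) p_2_2_3)) (mul_nonneg (by positivity) p_2_3_2)) (mul_nonneg (by positivity) p_2_4_1)) (mul_nonneg (by positivity) p_2_5_0)) (mul_nonneg (by positivity) p_3_0_4)) (mul_nonneg (by positivity) p_3_1_3)) (mul_nonneg (by positivity) p_3_2_2)) (mul_nonneg (by positivity) p_3_3_1)) (mul_nonneg (by positivity) p_3_4_0)) (mul_nonneg (by positivity) p_4_0_3)) (mul_nonneg (by positivity) p_4_1_2)) (mul_nonneg (by positivity) p_4_2_1)) (mul_nonneg (by positivity) p_4_3_0)) (mul_nonneg (by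 positivity) p_5_0_2)) (mul_nonneg (by positivity) p_5_1_1)) (mul_nonneg (by positivity) p_5_2_0)) hsq

end Vale.Agent.Lib.P154.Cert3
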