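import Vale.Agent.Lib.P154.Defs

/-!
Broadcasting the `q`-state Potts channel on a Galton-Watson tree.
A truncated tree of depth `n + 1` records the number of children of the root and,
for each child, a truncated tree of depth `n`.
-/

noncomputable section

namespace Vale.Agent.Lib.P154

/-- Rooted ordered trees truncated at depth `n`. -/
def GWTree : ℕ → Type
  | 0 => Unit
  | n + 1 => Σ k : ℕ, Fin k → GWTree n

/-- The probability of a truncated tree when offspring counts are independent with law `p`. -/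
def gwWeight (p : ℕ → ℝ) : (n : ℕ) → GWTree n → ℝ
  | 0, _ => 1
  | n + 1, T => p T.1 * ∏ c : Fin T.1, gwWeight p n (T.2 c)

/-- The Poisson law with mean `d`. -/
def poissonLaw (d : ℝ) (k : ℕ) : ℝ := Real.exp (-d) * d ^ k / (k.factorial : ℝ)

/-- Spin assignments on the vertices at depth `n` of a truncated tree. -/
def GWSpins (q : ℕ) : (n : ℕ) → GWTree n → Type
  | 0, _ => Fin q
  | n + 1, T => (c : Fin T.1) → GWSpins q n (T.2 c)

/-- Spin assignments on a level of a truncated tree form a finite set. -/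
instance gwSpinsFintype (q : ℕ) : (n : ℕ) → (T : GWTree n) → Fintype (GWSpins q n T)
  | 0, _ => inferInstanceAs (Fintype (Fin q))
  | n + 1, T =>
    haveI := fun c : Fin T.1 => gwSpinsFintype q n (T.2 c)
    inferInstanceAs (Fintype ((c : Fin T.1) → GWSpins q n (T.2 c)))

/-- At depth `0` the only vertex is the root: its spin. -/
def gwSpinAtZero {q : ℕ} {T : GWTree 0} (τ : GWSpins q 0 T) : Fin q := τ

/-- The conditional probability of the level-`n` spins `τ` given the root spin `i`, for a fixed tree. -/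
def gwLik (q : ℕ) (lam : ℝ) : (n : ℕ) → (T : GWTree n) → Fin q → GWSpins q n T → ℝ
  | 0, _, i, τ => if i = gwSpinAtZero τ then 1 else 0
  | n + 1, T, i, τ => ∏ c : Fin T.1, ∑ j : Fin q, potts q lam i j * gwLik q lam n (T.2 c) j (τ c)

/-- The probability of the level-`n` spins `τ` under a uniform root spin, for a fixed tree. -/
def gwProb (q : ℕ) (lam : ℝ) (n : ℕ) (T : GWTree n) (τ : GWSpins q n T) : ℝ :=
  ∑ i : Fin q, (1 / (q : ℝ)) * gwLik q lam n T i τ

/-- The posterior probability of the root spin `i` given the tree and its level-`n` spins. -/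
def gwPost (q : ℕ) (lam : ℝ) (n : ℕ) (T : GWTree n) (i : Fin q) (τ : GWSpins q n T) : ℝ :=
  (1 / (q : ℝ)) * gwLik q lam n T i τ / gwProb q lam n T τ

/-- `E[(1/2) ∑ i, |P(σ_ρ = i | T, σ_{L_n}) - 1 / q|]` for a fixed tree `T`. -/
def gwTreeAdvantage (q : ℕ) (lam : ℝ) (n : ℕ) (T : GWTree n) : ℝ :=
  ∑ τ : GWSpins q n T,
    gwProb q lam n T τ * ((1 / 2) * ∑ i : Fin q, |gwPost q lam n T i τ - 1 / (q : ℝ)|)

/-- The quantity `a_n` on a Galton-Watson tree with offspring law `p`. -/
def gwAdvantage (p : ℕ → ℝ) (q : ℕ) (lam : ℝ) (n : ℕ) : ℝ :=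
  ∑' T : GWTree n, gwWeight p n T * gwTreeAdvantage q lam n T

end Vale.Agent.Lib.P154
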