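import Vale.Agent.Lib.P154.NegScalar

/-!
The recursion on the `d`-ary tree for a negative eigenvalue.
-/

noncomputable section

open Finset Filter Topology

namespace Vale.Agent.Lib.P154

section powers
variable {ι : Type*} [Fintype ι]

/-- One product step for the chi-square functional of powers of a capped signal. -/
theorem M_rec_neg {l : ι → Fin 3 → ℝ} {μ β θ : ℝ} (hμ : 0 < μ) (hc : NegCert μ β θ) (h : IsSig l)
    (hcap : Capped μ l) (k : ℕ) :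
    xx (powS (k + 1) l) ≤ xx (powS k l) + xx l - 3 / 2 * β * (xx (powS k l) * xx l)
      + θ * (xx l * BB (powS k l)) := by
  rw [xx_powS_succ, xx_prod_comm]
  exact xx_prod_neg hμ hc (powS_isSig h k) h hcap

/-- One product step for the third-moment functional of powers. -/
theorem N_rec_neg {l : ι → Fin 3 → ℝ} (h : IsSig l) (k : ℕ) :
    BB (powS (k + 1) l) ≤ BB (powS k l) + BB l - BB (powS k l) * BB l := by
  rw [BB_powS_succ, BB_prod_comm]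
  exact BB_prod_le (powS_isSig h k) h

theorem xx_powS_zero_le (l : ι → Fin 3 → ℝ) : xx (powS 0 l) ≤ 0 := (Bd_powS_zero l).x_le

theorem BB_powS_zero_le (l : ι → Fin 3 → ℝ) : BB (powS 0 l) ≤ 0 := by
  have := (Bd_powS_zero l).B_le
  linarith

end powers

/-! ### The tree -/

section tree
variable {d : ℕ} {μ : ℝ}

theorem lev_wsig' {lam : ℝ} (h0 : -(1 / 2) < lam) (h1 : lam < 1) : ∀ n, WSig (lev d lam n)
  | 0 => lev_zero_wsig d lam
  | n + 1 => by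
    rw [lev_succ]
    exact (powS_isSig (chan_isSig' (lev_wsig' h0 h1 n) h0 h1) d).toW

theorem xx_lev_zero (d : ℕ) (lam : ℝ) : xx (lev d lam 0) = 2 / 3 := by
  unfold xx sumF
  change 1 / 3 * ∑ t : Fin 3, F3 (if (0 : Fin 3) = t then (1 : ℝ) else 0)
    (if (1 : Fin 3) = t then (1 : ℝ) else 0) (if (2 : Fin 3) = t then (1 : ℝ) else 0) - 1 / 3 = 2 / 3
  simp [Fin.sum_univ_three, F3]
  norm_num

theorem advantage_tendsto_of_xx {lam : ℝ} (hW : ∀ n, WSig (lev d lam n))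
    (hx : Tendsto (fun n => xx (lev d lam n)) atTop (𝓝 0)) :
    Tendsto (advantage d 3 lam) atTop (𝓝 0) := by
  rw [Metric.tendsto_atTop]
  intro ε hε
  have hev := (tendsto_order.1 hx).2 (ε ^ 2) (by positivity)
  obtain ⟨N, hN⟩ := Filter.eventually_atTop.1 hev
  refine ⟨N, fun n hn => ?_⟩
  have h1 := advantage_le (hW n) (ε / 2) (by positivity)
  have h2 := advantage_nonneg (hW n)
  have h4 := hN n hn
  have h5 : xx (lev d lam n) / (4 * (ε / 2)) < ε / 2 := by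
    rw [div_lt_iff₀ (by positivity)]
    nlinarith
  rw [Real.dist_eq, sub_zero, abs_of_nonneg h2]
  nlinarith

/-- One level of the tree in the noncritical regime. -/
theorem lev_step_S {μ₀ β θ Y κ : ℝ} (hμ : 0 < μ) (hμμ₀ : μ ≤ μ₀) (hμ₀ : μ₀ ≤ 1 / 2) (hμ' : μ < 1 / 2)
    (hc : NegCert μ₀ β θ)
    (hθ : 0 ≤ θ) (hY : 2 / 3 * μ ^ 2 < Y) (hA : 3 / 2 * β * Y ≤ 1) (hA0 : 0 ≤ β) (hR : 3 / (1 - μ₀) * Y ≤ 1)
    (hS : ∀ t : ℝ, 0 ≤ t → t < 1 → Sq (1 - (3 / 2 * β * Y) * t) (1 - (3 / (1 - μ₀) * Y) * t) θ d ≤ κ)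
    (n : ℕ) :
    xx (lev d (-μ) (n + 1)) ≤ μ ^ 2 * κ * xx (lev d (-μ) n) := by
  have hl1 : -(1 / 2) < -μ := by linarith [hμ']
  have hl2 : -μ < 1 := by linarith
  have hW := lev_wsig' (d := d) hl1 hl2 n
  set l := chan (-μ) (lev d (-μ) n) with hl
  have hS' : IsSig l := chan_isSig' hW hl1 hl2
  have hcap : Capped μ₀ l := (chan_capped hW hμ.le).mono hμμ₀ (fun t => by
    have h0 := hS'.pos t 0
    have h1 := hS'.pos t 1
    have h2 := hS'.pos t 2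
    positivity)
  have hμ₀0 : 0 < μ₀ := by linarith
  have hx := xx_chan hW (-μ)
  set X := xx (lev d (-μ) n) with hX
  have hX0 : 0 ≤ X := xx_nonneg hW
  have hX1 : X ≤ 2 / 3 := xx_le_two_thirds' hW
  set y := xx l with hy
  have hye : y = μ ^ 2 * X := by rw [hx]; ring
  have hy0 : 0 ≤ y := by rw [hye]; positivity
  have hμ2 : μ ^ 2 ≤ μ₀ ^ 2 := by nlinarith
  have hyY : y < Y := by
    have : μ ^ 2 * X ≤ μ ^ 2 * (2 / 3) := mul_le_mul_of_nonneg_left hX1 (sq_nonneg μ)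
    rw [hye]
    linarith
  have hY0 : 0 < Y := by nlinarith [sq_nonneg μ, sq_pos_of_pos hμ]
  set t := y / Y with ht
  have ht0 : 0 ≤ t := by positivity
  have ht1 : t < 1 := by rw [ht, div_lt_one hY0]; exact hyY
  have hyt : y = Y * t := by rw [ht]; field_simp
  have hu : 0 < 1 - μ₀ := by linarith
  have hu1 : 0 < 1 - μ := by linarith
  -- the third-moment bound
  have hb := BB_chan_neg hW hμ.le (by linarith)
  rw [← hl, ← hy] at hb
  have hb' : BB l ≤ 3 / (1 - μ₀) * y := by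
    refine hb.trans (mul_le_mul_of_nonneg_right ?_ hy0)
    exact div_le_div_of_nonneg_left (by norm_num) hu (by linarith)
  have ha : 3 / 2 * β * y = (3 / 2 * β * Y) * t := by rw [hyt]; ring
  have hr : 3 / (1 - μ₀) * y = (3 / (1 - μ₀) * Y) * t := by rw [hyt]; ring
  have hat : 3 / 2 * β * y ≤ 1 := by
    rw [ha]
    have h5 : 3 / 2 * β * Y * t ≤ 3 / 2 * β * Y * 1 := mul_le_mul_of_nonneg_left ht1.le (by positivity)
    linarith
  have hrt : 3 / (1 - μ₀) * y ≤ 1 := by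
    rw [hr]
    have h5 : 3 / (1 - μ₀) * Y * t ≤ 3 / (1 - μ₀) * Y * 1 := mul_le_mul_of_nonneg_left ht1.le (by positivity)
    linarith
  have key := kfold_S (M := fun k => xx (powS k l)) (N := fun k => BB (powS k l)) (y := y) (b := BB l)
    (a := 3 / 2 * β) (θ := θ) (r := 1 - 3 / (1 - μ₀) * y)
    (xx_powS_zero_le l) (BB_powS_zero_le l) (fun k => BB_le_one (powS_isSig hS' k).toW)
    (fun k => by
      have := M_rec_neg hμ₀0 hc hS' hcap k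
      simpa only [mul_assoc] using this)
    (fun k => N_rec_neg hS' k) (by linarith) (by linarith) hy0 hθ (by linarith) d
  rw [lev_succ, ← hl]
  refine key.trans ?_
  rw [ha, hr]
  have h6 := hS t ht0 ht1
  rw [hye] at *
  have := mul_le_mul_of_nonneg_left h6 (mul_nonneg (sq_nonneg μ) hX0)
  nlinarith [this]

/-- One level of the tree in the critical regime. -/
theorem lev_step_crit {μ₀ β θ g : ℝ} (hd : 2 ≤ d) (hμ : 0 < μ) (hμμ₀ : μ ≤ μ₀) (hμ₀ : μ₀ < 1 / 2)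
    (hc : NegCert μ₀ β θ) (hθ : 0 ≤ θ) (hA : 3 / 2 * β * (2 / 3 * μ₀ ^ 2) ≤ 1) (hA0 : 0 ≤ β)
    (hg : 0 ≤ g) (hβ : θ * (3 / (1 - μ₀)) + g ≤ 3 / 2 * β) (n : ℕ) :
    xx (lev d (-μ) (n + 1)) ≤ d * (μ ^ 2 * xx (lev d (-μ) n)) - g * (μ ^ 2 * xx (lev d (-μ) n)) ^ 2 := by
  have hl1 : -(1 / 2) < -μ := by linarith
  have hl2 : -μ < 1 := by linarith
  have hW := lev_wsig' (d := d) hl1 hl2 n
  set l := chan (-μ) (lev d (-μ) n) with hl
  have hS' : IsSig l := chan_isSig' hW hl1 hl2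
  have hcap : Capped μ₀ l := (chan_capped hW hμ.le).mono hμμ₀ (fun t => by
    have h0 := hS'.pos t 0
    have h1 := hS'.pos t 1
    have h2 := hS'.pos t 2
    positivity)
  have hμ₀0 : 0 < μ₀ := by linarith
  have hx := xx_chan hW (-μ)
  set X := xx (lev d (-μ) n) with hX
  have hX0 : 0 ≤ X := xx_nonneg hW
  have hX1 : X ≤ 2 / 3 := xx_le_two_thirds' hW
  set y := xx l with hy
  have hye : y = μ ^ 2 * X := by rw [hx]; ring
  have hy0 : 0 ≤ y := by rw [hye]; positivity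
  have hμ2 : μ ^ 2 ≤ μ₀ ^ 2 := by nlinarith
  have hy1 : y ≤ 2 / 3 * μ₀ ^ 2 := by
    have : μ ^ 2 * X ≤ μ₀ ^ 2 * (2 / 3) := mul_le_mul hμ2 hX1 hX0 (by positivity)
    rw [hye]
    linarith
  have hu : 0 < 1 - μ₀ := by linarith
  have hu1 : 0 < 1 - μ := by linarith
  have hb := BB_chan_neg hW hμ.le (by linarith)
  rw [← hl, ← hy] at hb
  have hb' : BB l ≤ 3 / (1 - μ₀) * y := by
    refine hb.trans (mul_le_mul_of_nonneg_right ?_ hy0)
    exact div_le_div_of_nonneg_left (by norm_num) hu (by linarith)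
  have hat : 0 ≤ 1 - 3 / 2 * β * y := by
    have : 3 / 2 * β * y ≤ 3 / 2 * β * (2 / 3 * μ₀ ^ 2) := mul_le_mul_of_nonneg_left hy1 (by positivity)
    linarith
  have key := kfold_crit (M := fun k => xx (powS k l)) (N := fun k => BB (powS k l)) (y := y) (b := BB l)
    (a := 3 / 2 * β) (θ := θ) (c := 3 / (1 - μ₀)) (g := g)
    (xx_powS_zero_le l) (BB_powS_zero_le l) (fun k => BB_nonneg (powS_isSig hS' k))
    (fun k => by
      have := M_rec_neg hμ₀0 hc hS' hcap k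
      simpa only [mul_assoc] using this)
    (fun k => N_rec_neg hS' k) (BB_nonneg hS') hb' hy0 hθ hat hβ hg d
  rw [if_pos hd] at key
  rw [lev_succ, ← hl, ← hye]
  exact key

/-- Critical nonreconstruction. -/
theorem advantage_tendsto_crit {μ₀ β θ g : ℝ} (hd : 2 ≤ d) (hμ : 0 < μ) (hμμ₀ : μ ≤ μ₀) (hμ₀ : μ₀ < 1 / 2)
    (hc : NegCert μ₀ β θ) (hθ : 0 ≤ θ) (hA : 3 / 2 * β * (2 / 3 * μ₀ ^ 2) ≤ 1) (hA0 : 0 ≤ β)
    (hg : 0 < g) (hβ : θ * (3 / (1 - μ₀)) + g ≤ 3 / 2 * β) (hKS : (d : ℝ) * μ ^ 2 ≤ 1) :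
    Tendsto (advantage d 3 (-μ)) atTop (𝓝 0) := by
  have hl1 : -(1 / 2) < -μ := by linarith
  have hl2 : -μ < 1 := by linarith
  have hW := lev_wsig' (d := d) hl1 hl2
  apply advantage_tendsto_of_xx hW
  have hc' : 0 < g * μ ^ 4 := by positivity
  refine tendsto_of_quad hc' (fun n => xx_nonneg (hW n)) (fun n => ?_)
  have h1 := lev_step_crit hd hμ hμμ₀ hμ₀ hc hθ hA hA0 hg.le hβ n
  have hX0 := xx_nonneg (hW n)
  have h2 := mul_le_mul_of_nonneg_right hKS hX0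
  nlinarith

/-- Geometric decay in the noncritical regime. -/
theorem xx_lev_geom {μ₀ β θ Y κ : ℝ} (hμ : 0 < μ) (hμμ₀ : μ ≤ μ₀) (hμ₀ : μ₀ ≤ 1 / 2) (hμ' : μ < 1 / 2)
    (hc : NegCert μ₀ β θ)
    (hθ : 0 ≤ θ) (hY : 2 / 3 * μ ^ 2 < Y) (hA : 3 / 2 * β * Y ≤ 1) (hA0 : 0 ≤ β) (hR : 3 / (1 - μ₀) * Y ≤ 1)
    (hS : ∀ t : ℝ, 0 ≤ t → t < 1 → Sq (1 - (3 / 2 * β * Y) * t) (1 - (3 / (1 - μ₀) * Y) * t) θ d ≤ κ)
    (hκ : 0 ≤ κ) (n : ℕ) :
    xx (lev d (-μ) n) ≤ 2 / 3 * (μ₀ ^ 2 * κ) ^ n := by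
  have hl1 : -(1 / 2) < -μ := by linarith
  have hl2 : -μ < 1 := by linarith
  have hW := lev_wsig' (d := d) hl1 hl2
  have hμ2 : μ ^ 2 ≤ μ₀ ^ 2 := by nlinarith
  induction n with
  | zero => simp [xx_lev_zero]
  | succ n ih =>
    have h1 := lev_step_S hμ hμμ₀ hμ₀ hμ' hc hθ hY hA hA0 hR hS n
    have hX0 := xx_nonneg (hW n)
    have h2 : μ ^ 2 * κ * xx (lev d (-μ) n) ≤ μ₀ ^ 2 * κ * xx (lev d (-μ) n) :=
      mul_le_mul_of_nonneg_right (mul_le_mul_of_nonneg_right hμ2 hκ) hX0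
    have h3 : μ₀ ^ 2 * κ * xx (lev d (-μ) n) ≤ μ₀ ^ 2 * κ * (2 / 3 * (μ₀ ^ 2 * κ) ^ n) :=
      mul_le_mul_of_nonneg_left ih (by positivity)
    rw [pow_succ]
    nlinarith

/-- Noncritical nonreconstruction. -/
theorem advantage_tendsto_S {μ₀ β θ Y κ : ℝ} (hμ : 0 < μ) (hμμ₀ : μ ≤ μ₀) (hμ₀ : μ₀ ≤ 1 / 2) (hμ' : μ < 1 / 2)
    (hc : NegCert μ₀ β θ)
    (hθ : 0 ≤ θ) (hY : 2 / 3 * μ ^ 2 < Y) (hA : 3 / 2 * β * Y ≤ 1) (hA0 : 0 ≤ β) (hR : 3 / (1 - μ₀) * Y ≤ 1)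
    (hS : ∀ t : ℝ, 0 ≤ t → t < 1 → Sq (1 - (3 / 2 * β * Y) * t) (1 - (3 / (1 - μ₀) * Y) * t) θ d ≤ κ)
    (hκ : 0 ≤ κ) (hρ : μ₀ ^ 2 * κ < 1) :
    Tendsto (advantage d 3 (-μ)) atTop (𝓝 0) := by
  have hl1 : -(1 / 2) < -μ := by linarith
  have hl2 : -μ < 1 := by linarith
  have hW := lev_wsig' (d := d) hl1 hl2
  apply advantage_tendsto_of_xx hW
  have hμ2 : μ ^ 2 ≤ μ₀ ^ 2 := by nlinarith
  refine tendsto_of_geom (ρ := μ₀ ^ 2 * κ) (by positivity) hρ (fun n => xx_nonneg (hW n)) (fun n => ?_)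
  have h1 := lev_step_S hμ hμμ₀ hμ₀ hμ' hc hθ hY hA hA0 hR hS n
  have hX0 := xx_nonneg (hW n)
  have h2 : μ ^ 2 * κ * xx (lev d (-μ) n) ≤ μ₀ ^ 2 * κ * xx (lev d (-μ) n) :=
    mul_le_mul_of_nonneg_right (mul_le_mul_of_nonneg_right hμ2 hκ) hX0
  linarith

end tree

end Vale.Agent.Lib.P154
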