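import Mathlib

/-!
Discrete probability weights and means of bounded functions.
-/

noncomputable section

namespace Vale.Agent.Lib.P154

/-- Nonnegative weights with total mass one. -/
structure WProb {X : Type} (w : X → ℝ) : Prop where
  nonneg : ∀ x, 0 ≤ w x
  hasSum : HasSum w 1

/-- Bounded real functions. -/
def BddF {X : Type} (f : X → ℝ) : Prop := ∃ C : ℝ, ∀ x, |f x| ≤ C

/-- The mean of a function under weights. -/
def Ew {X : Type} (w f : X → ℝ) : ℝ := ∑' x, w x * f x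

variable {X Y : Type} {w : X → ℝ} {v : Y → ℝ} {f g : X → ℝ}

theorem BddF.of_Icc {f : X → ℝ} {a b : ℝ} (h : ∀ x, a ≤ f x ∧ f x ≤ b) : BddF f := by
  refine ⟨|a| + |b|, fun x => ?_⟩
  rw [abs_le]
  obtain ⟨h1, h2⟩ := h x
  constructor
  · linarith [neg_abs_le a, abs_nonneg b]
  · linarith [le_abs_self b, abs_nonneg a]

theorem BddF.add (hf : BddF f) (hg : BddF g) : BddF (fun x => f x + g x) := by
  obtain ⟨C, hC⟩ := hf
  obtain ⟨D, hD⟩ := hg
  exact ⟨C + D, fun x => (abs_add_le _ _).trans (add_le_add (hC x) (hD x))⟩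

theorem BddF.sub (hf : BddF f) (hg : BddF g) : BddF (fun x => f x - g x) := by
  obtain ⟨C, hC⟩ := hf
  obtain ⟨D, hD⟩ := hg
  exact ⟨C + D, fun x => (abs_sub _ _).trans (add_le_add (hC x) (hD x))⟩

theorem BddF.const_mul (c : ℝ) (hf : BddF f) : BddF (fun x => c * f x) := by
  obtain ⟨C, hC⟩ := hf
  refine ⟨|c| * C, fun x => ?_⟩
  rw [abs_mul]
  exact mul_le_mul_of_nonneg_left (hC x) (abs_nonneg c)

theorem WProb.summable_mul (hw : WProb w) (hf : BddF f) : Summable (fun x => w x * f x) := by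
  obtain ⟨C, hC⟩ := hf
  refine Summable.of_norm_bounded (g := fun x => C * w x) (hw.hasSum.summable.mul_left C) fun x => ?_
  rw [Real.norm_eq_abs, abs_mul, abs_of_nonneg (hw.nonneg x), mul_comm]
  exact mul_le_mul_of_nonneg_right (hC x) (hw.nonneg x)

theorem Ew_congr (f g : X → ℝ) (h : ∀ x, f x = g x) : Ew w f = Ew w g := by
  unfold Ew
  congr 1
  funext x
  rw [h]

theorem Ew_const (hw : WProb w) (c : ℝ) : Ew w (fun _ => c) = c := by
  unfold Ew
  rw [tsum_mul_right, hw.hasSum.tsum_eq, one_mul]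

theorem Ew_add (hw : WProb w) (hf : BddF f) (hg : BddF g) :
    Ew w (fun x => f x + g x) = Ew w f + Ew w g := by
  unfold Ew
  rw [← (hw.summable_mul hf).tsum_add (hw.summable_mul hg)]
  congr 1
  funext x
  ring

theorem Ew_sub (hw : WProb w) (hf : BddF f) (hg : BddF g) :
    Ew w (fun x => f x - g x) = Ew w f - Ew w g := by
  unfold Ew
  rw [← (hw.summable_mul hf).tsum_sub (hw.summable_mul hg)]
  congr 1
  funext x
  ring

theorem Ew_const_mul (c : ℝ) (f : X → ℝ) : Ew w (fun x => c * f x) = c * Ew w f := by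
  unfold Ew
  rw [← tsum_mul_left]
  congr 1
  funext x
  ring

theorem Ew_mono (hw : WProb w) (hf : BddF f) (hg : BddF g) (h : ∀ x, f x ≤ g x) : Ew w f ≤ Ew w g := by
  unfold Ew
  exact (hw.summable_mul hf).tsum_le_tsum
    (fun x => mul_le_mul_of_nonneg_left (h x) (hw.nonneg x)) (hw.summable_mul hg)

theorem Ew_nonneg (hw : WProb w) (h : ∀ x, 0 ≤ f x) : 0 ≤ Ew w f := by
  unfold Ew
  exact tsum_nonneg fun x => mul_nonneg (hw.nonneg x) (h x)

theorem Ew_le_of_le (hw : WProb w) (hf : BddF f) {c : ℝ} (h : ∀ x, f x ≤ c) : Ew w f ≤ c := by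
  have := Ew_mono hw hf (BddF.of_Icc (f := fun _ => c) (a := c) (b := c) fun _ => ⟨le_rfl, le_rfl⟩) h
  rwa [Ew_const hw] at this

/-- Product weights. -/
theorem WProb.prod (hw : WProb w) (hv : WProb v) : WProb (fun p : X × Y => w p.1 * v p.2) := by
  refine ⟨fun p => mul_nonneg (hw.nonneg _) (hv.nonneg _), ?_⟩
  have h1 : Summable (fun x => ‖w x‖) := hw.hasSum.summable.norm
  have h2 : Summable (fun y => ‖v y‖) := hv.hasSum.summable.norm
  have hs := summable_mul_of_summable_norm h1 h2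
  have := tsum_mul_tsum_of_summable_norm h1 h2
  rw [hw.hasSum.tsum_eq, hv.hasSum.tsum_eq, one_mul] at this
  have h3 := hs.hasSum
  rw [← this] at h3
  exact h3

/-- Means of products under product weights. -/
theorem Ew_prod_mul (hw : WProb w) (hv : WProb v) {f : X → ℝ} {g : Y → ℝ} (hf : BddF f) (hg : BddF g) :
    Ew (fun p : X × Y => w p.1 * v p.2) (fun p => f p.1 * g p.2) = Ew w f * Ew v g := by
  unfold Ew
  have h1 : Summable (fun x => ‖w x * f x‖) := (hw.summable_mul hf).norm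
  have h2 : Summable (fun y => ‖v y * g y‖) := (hv.summable_mul hg).norm
  rw [tsum_mul_tsum_of_summable_norm h1 h2]
  congr 1
  funext p
  ring

theorem Ew_prod_fst (hw : WProb w) (hv : WProb v) {f : X → ℝ} (hf : BddF f) :
    Ew (fun p : X × Y => w p.1 * v p.2) (fun p => f p.1) = Ew w f := by
  have := Ew_prod_mul hw hv (f := f) (g := fun _ => (1 : ℝ)) hf (BddF.of_Icc (a := 1) (b := 1) fun _ => ⟨le_rfl, le_rfl⟩)
  simp only [mul_one] at this
  rw [this, Ew_const hv, mul_one]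

theorem Ew_prod_snd (hw : WProb w) (hv : WProb v) {g : Y → ℝ} (hg : BddF g) :
    Ew (fun p : X × Y => w p.1 * v p.2) (fun p => g p.2) = Ew v g := by
  have := Ew_prod_mul hw hv (f := fun _ => (1 : ℝ)) (g := g) (BddF.of_Icc (a := 1) (b := 1) fun _ => ⟨le_rfl, le_rfl⟩) hg
  simp only [one_mul] at this
  rw [this, Ew_const hw, one_mul]

theorem Ew_bilin (hw : WProb w) (hv : WProb v) {f F : X → ℝ} {g G : Y → ℝ} (hf : BddF f) (hF : BddF F)
    (hg : BddF g) (hG : BddF G) :
    Ew (fun p : X × Y => w p.1 * v p.2)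
        (fun p => f p.1 + g p.2 - 3 * (f p.1 * g p.2) + (g p.2 * F p.1 + f p.1 * G p.2) / 2)
      = Ew w f + Ew v g - 3 * (Ew w f * Ew v g) + (Ew v g * Ew w F + Ew w f * Ew v G) / 2 := by
  have hu := hw.prod hv
  have bf : BddF (fun p : X × Y => f p.1) := by
    obtain ⟨C, hC⟩ := hf
    exact ⟨C, fun p => hC _⟩
  have bF : BddF (fun p : X × Y => F p.1) := by
    obtain ⟨C, hC⟩ := hF
    exact ⟨C, fun p => hC _⟩
  have bg : BddF (fun p : X × Y => g p.2) := by
    obtain ⟨C, hC⟩ := hg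
    exact ⟨C, fun p => hC _⟩
  have bG : BddF (fun p : X × Y => G p.2) := by
    obtain ⟨C, hC⟩ := hG
    exact ⟨C, fun p => hC _⟩
  have mulb : ∀ {a b : X × Y → ℝ}, BddF a → BddF b → BddF (fun p => a p * b p) := by
    intro a b ha hb
    obtain ⟨C, hC⟩ := ha
    obtain ⟨D, hD⟩ := hb
    refine ⟨C * D, fun p => ?_⟩
    rw [abs_mul]
    exact mul_le_mul (hC p) (hD p) (abs_nonneg _) ((abs_nonneg _).trans (hC p))
  have b1 := mulb bf bg
  have b2 := mulb bg bF
  have b3 := mulb bf bG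
  have e : (fun p : X × Y => f p.1 + g p.2 - 3 * (f p.1 * g p.2) + (g p.2 * F p.1 + f p.1 * G p.2) / 2)
      = fun p => (f p.1 + g p.2 - 3 * (f p.1 * g p.2)) + (1 / 2) * ((g p.2 * F p.1) + (f p.1 * G p.2)) := by
    funext p; ring
  rw [e, Ew_add hu ((bf.add bg).sub (b1.const_mul 3)) ((b2.add b3).const_mul _),
    Ew_sub hu (bf.add bg) (b1.const_mul 3), Ew_add hu bf bg, Ew_const_mul, Ew_const_mul, Ew_add hu b2 b3,
    Ew_prod_fst hw hv hf, Ew_prod_snd hw hv hg, Ew_prod_mul hw hv hf hg, Ew_prod_mul hw hv hf hG]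
  have e2 : Ew (fun p : X × Y => w p.1 * v p.2) (fun p => g p.2 * F p.1) = Ew w F * Ew v g := by
    rw [← Ew_prod_mul hw hv hF hg]
    exact Ew_congr _ _ fun p => mul_comm _ _
  rw [e2]
  ring

theorem Ew_bilin2 (hw : WProb w) (hv : WProb v) {f : X → ℝ} {g : Y → ℝ} (hf : BddF f) (hg : BddF g) :
    Ew (fun p : X × Y => w p.1 * v p.2) (fun p => f p.1 + g p.2 - f p.1 * g p.2)
      = Ew w f + Ew v g - Ew w f * Ew v g := by
  have hu := hw.prod hv
  have bf : BddF (fun p : X × Y => f p.1) := by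
    obtain ⟨C, hC⟩ := hf
    exact ⟨C, fun p => hC _⟩
  have bg : BddF (fun p : X × Y => g p.2) := by
    obtain ⟨C, hC⟩ := hg
    exact ⟨C, fun p => hC _⟩
  have b1 : BddF (fun p : X × Y => f p.1 * g p.2) := by
    obtain ⟨C, hC⟩ := bf
    obtain ⟨D, hD⟩ := bg
    refine ⟨C * D, fun p => ?_⟩
    rw [abs_mul]
    exact mul_le_mul (hC p) (hD p) (abs_nonneg _) ((abs_nonneg _).trans (hC p))
  rw [Ew_sub hu (bf.add bg) b1, Ew_add hu bf bg, Ew_prod_fst hw hv hf, Ew_prod_snd hw hv hg,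
    Ew_prod_mul hw hv hf hg]

/-- Powers of weights. -/
def wPow (w : X → ℝ) (k : ℕ) : (Fin k → X) → ℝ := fun ts => ∏ c, w (ts c)

theorem wPow_succ (w : X → ℝ) (k : ℕ) (p : X × (Fin k → X)) :
    wPow w (k + 1) (Fin.consEquiv (fun _ : Fin (k + 1) => X) p) = w p.1 * wPow w k p.2 := by
  unfold wPow
  rw [Fin.prod_univ_succ]
  rfl

theorem WProb.pow (hw : WProb w) (k : ℕ) : WProb (wPow w k) := by
  induction k with
  | zero =>
    refine ⟨fun ts => Finset.prod_nonneg fun c _ => hw.nonneg _, ?_⟩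
    have : HasSum (wPow w 0) (∑ ts, wPow w 0 ts) := hasSum_fintype _
    simpa [wPow] using this
  | succ k ih =>
    refine ⟨fun ts => Finset.prod_nonneg fun c _ => hw.nonneg _, ?_⟩
    have h := (hw.prod ih).hasSum
    have e := Equiv.hasSum_iff (Fin.consEquiv (fun _ : Fin (k + 1) => X)) (f := wPow w (k + 1)) (a := 1)
    apply e.1
    have h2 : (wPow w (k + 1) ∘ Fin.consEquiv (fun _ : Fin (k + 1) => X)) = fun p => w p.1 * wPow w k p.2 := by
      funext p
      exact wPow_succ w k p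
    rw [h2]
    exact h

/-- Means over a power in terms of the first factor and the rest. -/
theorem Ew_pow_succ {k : ℕ} (F : (Fin (k + 1) → X) → ℝ) :
    Ew (wPow w (k + 1)) F = Ew (fun p : X × (Fin k → X) => w p.1 * wPow w k p.2)
      (fun p => F (Fin.consEquiv (fun _ : Fin (k + 1) => X) p)) := by
  unfold Ew
  rw [← Equiv.tsum_eq (Fin.consEquiv (fun _ : Fin (k + 1) => X))]
  congr 1
  funext p
  rw [wPow_succ]

/-- Mixture weights over powers. -/
def wMix (p : ℕ → ℝ) (w : X → ℝ) : (Σ k : ℕ, Fin k → X) → ℝ := fun T => p T.1 * wPow w T.1 T.2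

theorem WProb.mix {p : ℕ → ℝ} (hp : WProb p) (hw : WProb w) : WProb (wMix p w) := by
  have h0 : ∀ T, 0 ≤ wMix p w T := fun T => mul_nonneg (hp.nonneg _) ((hw.pow _).nonneg _)
  have hfib : ∀ k, HasSum (fun ts : Fin k → X => wMix p w ⟨k, ts⟩) (p k) := by
    intro k
    have := ((hw.pow k).hasSum).mul_left (p k)
    simpa [wMix] using this
  have hs : Summable (wMix p w) := by
    rw [summable_sigma_of_nonneg h0]
    refine ⟨fun k => (hfib k).summable, ?_⟩
    have : (fun k => ∑' ts : Fin k → X, wMix p w ⟨k, ts⟩) = p := by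
      funext k
      exact (hfib k).tsum_eq
    rw [this]
    exact hp.hasSum.summable
  refine ⟨h0, ?_⟩
  have h1 := hs.hasSum
  have h2 : ∑' T, wMix p w T = 1 := by
    rw [hs.tsum_sigma' (fun k => (hfib k).summable)]
    have : (fun k => ∑' ts : Fin k → X, wMix p w ⟨k, ts⟩) = p := by
      funext k
      exact (hfib k).tsum_eq
    rw [this]
    exact hp.hasSum.tsum_eq
  rw [h2] at h1
  exact h1

theorem Ew_mix {p : ℕ → ℝ} (hp : WProb p) (hw : WProb w) {F : (Σ k : ℕ, Fin k → X) → ℝ} (hF : BddF F) :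
    Ew (wMix p w) F = ∑' k, p k * Ew (wPow w k) (fun ts => F ⟨k, ts⟩) := by
  have hs := (hp.mix hw).summable_mul hF
  unfold Ew
  have hfib : ∀ k, Summable (fun ts : Fin k → X => wMix p w ⟨k, ts⟩ * F ⟨k, ts⟩) := by
    intro k
    have : BddF (fun ts : Fin k → X => F ⟨k, ts⟩) := by
      obtain ⟨C, hC⟩ := hF
      exact ⟨C, fun ts => hC _⟩
    have h2 := ((hw.pow k).summable_mul this).mul_left (p k)
    refine h2.congr fun ts => ?_
    simp only [wMix]
    ring
  rw [hs.tsum_sigma' hfib]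
  congr 1
  funext k
  rw [← tsum_mul_left]
  congr 1
  funext ts
  simp only [wMix]
  ring

/-- A summation bound for mixtures: if each `a k ≤ b k`, then the weighted sums compare. -/
theorem tsum_mix_le {p a b : ℕ → ℝ} (hp : WProb p) {A : ℝ} (ha : ∃ C : ℝ, ∀ k, |a k| ≤ C)
    (hb : HasSum (fun k => p k * b k) A) (h : ∀ k, a k ≤ b k) :
    ∑' k, p k * a k ≤ A := by
  have hs : Summable (fun k => p k * a k) := hp.summable_mul ha
  rw [← hb.tsum_eq]
  exact hs.tsum_le_tsum (fun k => mul_le_mul_of_nonneg_left (h k) (hp.nonneg k)) hb.summable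

end Vale.Agent.Lib.P154
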