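import Vale.Agent.Lib.P154P.Level

/-!
Mellin functionals of signals with three root states.

For an exponent vector `c` (nonnegative, with sum one) the functional
`Mc c l = ∑ t, l t 0 ^ c 0 * l t 1 ^ c 1 * l t 2 ^ c 2` is exactly multiplicative over products of signals.
On signals with permutation symmetry it is an expectation of the symmetrised monomial `fhat c` over the
normalised likelihood vectors.  This file holds the functional, the expectation `EF`, and the channel.
-/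

noncomputable section

open Finset

namespace Vale.Agent.Lib.P154.Mellin

open Vale.Agent.Lib.P154 Vale.Agent.Lib.P154P

/-! ### The monomial -/

/-- Exponent vectors: nonnegative entries with sum one. -/
structure IsExp (c : Vc) : Prop where
  nonneg : ∀ i, 0 ≤ c i
  sum : c 0 + c 1 + c 2 = 1

/-- The monomial with real exponents (`0 ^ 0 = 1`). -/
def monoC (c v : Vc) : ℝ := v 0 ^ c 0 * v 1 ^ c 1 * v 2 ^ c 2

theorem monoC_eq_prod (c v : Vc) : monoC c v = ∏ i, v i ^ c i := by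
  rw [Fin.prod_univ_three]
  rfl

theorem monoC_nonneg (c : Vc) {v : Vc} (hv : NN v) : 0 ≤ monoC c v := by
  unfold monoC
  have h0 := Real.rpow_nonneg (hv 0) (c 0)
  have h1 := Real.rpow_nonneg (hv 1) (c 1)
  have h2 := Real.rpow_nonneg (hv 2) (c 2)
  positivity

theorem monoC_mul (c : Vc) {v w : Vc} (hv : NN v) (hw : NN w) : monoC c (v * w) = monoC c v * monoC c w := by
  unfold monoC
  simp only [Pi.mul_apply]
  rw [Real.mul_rpow (hv 0) (hw 0), Real.mul_rpow (hv 1) (hw 1), Real.mul_rpow (hv 2) (hw 2)]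
  ring

theorem monoC_one (c : Vc) : monoC c 1 = 1 := by
  simp [monoC]

theorem monoC_prod {κ : Type*} (c : Vc) (s : Finset κ) {v : κ → Vc} (hv : ∀ j ∈ s, NN (v j)) :
    monoC c (∏ j ∈ s, v j) = ∏ j ∈ s, monoC c (v j) := by
  classical
  induction s using Finset.induction_on with
  | empty => simpa using monoC_one c
  | insert a s ha ih =>
    rw [Finset.prod_insert ha, Finset.prod_insert ha]
    have hs : NN (∏ j ∈ s, v j) := fun i => by
      rw [Finset.prod_apply]
      exact Finset.prod_nonneg fun j hj => hv j (Finset.mem_insert_of_mem hj) i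
    rw [monoC_mul c (hv a (Finset.mem_insert_self _ _)) hs, ih fun j hj => hv j (Finset.mem_insert_of_mem hj)]

theorem monoC_smul {c : Vc} (hc : IsExp c) {k : ℝ} (hk : 0 ≤ k) {v : Vc} (hv : NN v) :
    monoC c (k • v) = k * monoC c v := by
  unfold monoC
  simp only [Pi.smul_apply, smul_eq_mul]
  rw [Real.mul_rpow hk (hv 0), Real.mul_rpow hk (hv 1), Real.mul_rpow hk (hv 2)]
  have e : k ^ c 0 * k ^ c 1 * k ^ c 2 = k := by
    rw [← Real.rpow_add_of_nonneg hk (hc.nonneg 0) (hc.nonneg 1),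
      ← Real.rpow_add_of_nonneg hk (add_nonneg (hc.nonneg 0) (hc.nonneg 1)) (hc.nonneg 2), hc.sum, Real.rpow_one]
  calc k ^ c 0 * v 0 ^ c 0 * (k ^ c 1 * v 1 ^ c 1) * (k ^ c 2 * v 2 ^ c 2)
      = (k ^ c 0 * k ^ c 1 * k ^ c 2) * (v 0 ^ c 0 * v 1 ^ c 1 * v 2 ^ c 2) := by ring
    _ = k * (v 0 ^ c 0 * v 1 ^ c 1 * v 2 ^ c 2) := by rw [e]

/-- Weighted arithmetic-geometric mean. -/
theorem monoC_le {c : Vc} (hc : IsExp c) {v : Vc} (hv : NN v) :
    monoC c v ≤ c 0 * v 0 + c 1 * v 1 + c 2 * v 2 :=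
  Real.geom_mean_le_arith_mean3_weighted (hc.nonneg 0) (hc.nonneg 1) (hc.nonneg 2) (hv 0) (hv 1) (hv 2) hc.sum

/-! ### The functional -/

section functional
variable {ι κ : Type*} [Fintype ι] [Fintype κ]

/-- The Mellin functional of a signal. -/
def Mc (c : Vc) (l : ι → Vc) : ℝ := ∑ t, monoC c (l t)

/-- One minus the Mellin functional. -/
def PhiC (c : Vc) (l : ι → Vc) : ℝ := 1 - Mc c l

theorem Mc_nonneg (c : Vc) {l : ι → Vc} (hl : ∀ t, NN (l t)) : 0 ≤ Mc c l :=
  Finset.sum_nonneg fun t _ => monoC_nonneg c (hl t)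

theorem Mc_le_one {c : Vc} (hc : IsExp c) {l : ι → Vc} (hl : WS l) : Mc c l ≤ 1 := by
  unfold Mc
  refine (Finset.sum_le_sum fun t _ => monoC_le hc (hl.nonneg t)).trans (le_of_eq ?_)
  rw [Finset.sum_add_distrib, Finset.sum_add_distrib, ← Finset.mul_sum, ← Finset.mul_sum, ← Finset.mul_sum,
    hl.tot, hl.tot, hl.tot]
  linarith [hc.sum]

/-- Exact multiplicativity over products. -/
theorem Mc_prodS (c : Vc) {l : ι → Vc} {m : κ → Vc} (hl : ∀ t, NN (l t)) (hm : ∀ t, NN (m t)) :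
    Mc c (prodS l m) = Mc c l * Mc c m := by
  unfold Mc
  rw [Fintype.sum_prod_type, Finset.sum_mul_sum]
  refine Finset.sum_congr rfl fun t _ => Finset.sum_congr rfl fun t' _ => ?_
  exact monoC_mul c (hl t) (hm t')

/-- Powers. -/
theorem Mc_powS (c : Vc) {l : ι → Vc} (hl : ∀ t, NN (l t)) (k : ℕ) : Mc c (powS k l) = Mc c l ^ k := by
  classical
  unfold Mc
  have e : ∀ τ : Fin k → ι, monoC c (powS k l τ) = ∏ j, monoC c (l (τ j)) := by
    intro τ
    have : powS k l τ = ∏ j, l (τ j) := by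
      funext i
      rw [Finset.prod_apply]
      rfl
    rw [this, monoC_prod c _ fun j _ => hl (τ j)]
  simp only [e]
  have := Finset.prod_univ_sum (fun _ : Fin k => (Finset.univ : Finset ι)) (fun _ t => monoC c (l t))
  rw [Fintype.piFinset_univ] at this
  rw [← this]
  simp

/-- Dependent products. -/
theorem Mc_piS {k : ℕ} {ι : Fin k → Type} [∀ j, Fintype (ι j)] (c : Vc) {l : ∀ j, ι j → Vc}
    (hl : ∀ j t, NN (l j t)) : Mc c (piS l) = ∏ j, Mc c (l j) := by
  classical
  unfold Mc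
  have e : ∀ τ : ∀ j, ι j, monoC c (piS l τ) = ∏ j, monoC c (l j (τ j)) := by
    intro τ
    rw [piS_apply, monoC_prod c _ fun j _ => hl j (τ j)]
  simp only [e]
  have := Finset.prod_univ_sum (fun j : Fin k => (Finset.univ : Finset (ι j))) (fun j t => monoC c (l j t))
  rw [Fintype.piFinset_univ] at this
  exact this.symm

end functional

/-! ### Normalisation -/

/-- The mean of a vector. -/
def NV (v : Vc) : ℝ := (v 0 + v 1 + v 2) / 3

/-- The normalised vector, with mean one. -/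
def nrm (v : Vc) : Vc := fun i => v i / NV v

/-- The simplex of vectors with mean one. -/
def InS (a : Vc) : Prop := NN a ∧ a 0 + a 1 + a 2 = 3

theorem NV_nonneg {v : Vc} (hv : NN v) : 0 ≤ NV v := by
  unfold NV
  have h0 := hv 0
  have h1 := hv 1
  have h2 := hv 2
  positivity

theorem eq_zero_of_NV {v : Vc} (hv : NN v) (h : NV v = 0) : v = 0 := by
  unfold NV at h
  have h0 := hv 0
  have h1 := hv 1
  have h2 := hv 2
  funext i
  fin_cases i
  · simp only [Pi.zero_apply, Fin.zero_eta]; linarith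
  · simp only [Pi.zero_apply, Fin.mk_one]; linarith
  · simp only [Pi.zero_apply, Fin.reduceFinMk]; linarith

theorem smul_nrm {v : Vc} (h : NV v ≠ 0) : NV v • nrm v = v := by
  funext i
  simp only [nrm, Pi.smul_apply, smul_eq_mul]
  field_simp

theorem nrm_inS {v : Vc} (hv : NN v) (h : 0 < NV v) : InS (nrm v) := by
  refine ⟨fun i => div_nonneg (hv i) h.le, ?_⟩
  simp only [nrm]
  have : NV v ≠ 0 := h.ne'
  field_simp
  unfold NV
  ring

theorem NV_of_inS {a : Vc} (h : InS a) : NV a = 1 := by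
  unfold NV
  rw [h.2]
  norm_num

theorem nrm_of_inS {a : Vc} (h : InS a) : nrm a = a := by
  funext i
  simp [nrm, NV_of_inS h]

theorem one_inS : InS (1 : Vc) := by
  refine ⟨NN.one, ?_⟩
  simp only [Pi.one_apply]
  norm_num

theorem InS.comp {a : Vc} (h : InS a) (σ : Equiv.Perm (Fin 3)) : InS (a ∘ σ) := by
  refine ⟨h.1.comp σ, ?_⟩
  have := Equiv.sum_comp σ (fun j => a j)
  simp only [Fin.sum_univ_three] at this
  simp only [Function.comp]
  rw [this]
  exact h.2

theorem NV_comp (v : Vc) (σ : Equiv.Perm (Fin 3)) : NV (v ∘ σ) = NV v := by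
  unfold NV
  have := Equiv.sum_comp σ (fun j => v j)
  simp only [Fin.sum_univ_three] at this
  simp only [Function.comp]
  rw [this]

theorem nrm_comp (v : Vc) (σ : Equiv.Perm (Fin 3)) : nrm (v ∘ σ) = nrm v ∘ σ := by
  funext i
  simp only [nrm, Function.comp, NV_comp]

theorem entry_bound {a : Vc} (h : InS a) (i : Fin 3) : 0 ≤ a i ∧ a i ≤ 3 := by
  refine ⟨h.1 i, ?_⟩
  have h0 := h.1 0
  have h1 := h.1 1
  have h2 := h.1 2
  have hs := h.2
  fin_cases i
  · simp only [Fin.zero_eta]; linarith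
  · simp only [Fin.mk_one]; linarith
  · simp only [Fin.reduceFinMk]; linarith

theorem monoC_eq_NV {c : Vc} (hc : IsExp c) {v : Vc} (hv : NN v) : monoC c v = NV v * monoC c (nrm v) := by
  by_cases h : NV v = 0
  · have e : v = (0 : ℝ) • v := by
      rw [eq_zero_of_NV hv h]
      simp
    rw [h, e, monoC_smul hc le_rfl (hv)]
    simp
  · conv_lhs => rw [← smul_nrm h]
    exact monoC_smul hc (NV_nonneg hv) (fun i => div_nonneg (hv i) (NV_nonneg hv))

/-! ### Expectations over the normalised vectors -/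

section EFdef
variable {ι : Type*} [Fintype ι]

/-- The expectation of a function on the simplex over a signal. -/
def EF (g : Vc → ℝ) (l : ι → Vc) : ℝ := ∑ t, NV (l t) * g (nrm (l t))

theorem sum_NV {l : ι → Vc} (hl : WS l) : ∑ t, NV (l t) = 1 := by
  unfold NV
  rw [← Finset.sum_div, Finset.sum_add_distrib, Finset.sum_add_distrib, hl.tot, hl.tot, hl.tot]
  norm_num

theorem EF_one {l : ι → Vc} (hl : WS l) : EF (fun _ => 1) l = 1 := by
  unfold EF
  simp only [mul_one]
  exact sum_NV hl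

theorem EF_add (g h : Vc → ℝ) (l : ι → Vc) : EF (fun a => g a + h a) l = EF g l + EF h l := by
  unfold EF
  rw [← Finset.sum_add_distrib]
  exact Finset.sum_congr rfl fun t _ => by ring

theorem EF_const_mul (k : ℝ) (g : Vc → ℝ) (l : ι → Vc) : EF (fun a => k * g a) l = k * EF g l := by
  unfold EF
  rw [Finset.mul_sum]
  exact Finset.sum_congr rfl fun t _ => by ring

theorem EF_mono {g h : Vc → ℝ} {l : ι → Vc} (hl : WS l) (hgh : ∀ a, InS a → g a ≤ h a) : EF g l ≤ EF h l := by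
  refine Finset.sum_le_sum fun t _ => ?_
  rcases (NV_nonneg (hl.nonneg t)).eq_or_lt with h0 | hpos
  · rw [← h0]
    simp
  · exact mul_le_mul_of_nonneg_left (hgh _ (nrm_inS (hl.nonneg t) hpos)) hpos.le

theorem EF_sym (g : Vc → ℝ) {l : ι → Vc} (hl : WS l) (σ : Equiv.Perm (Fin 3)) :
    EF (fun a => g (a ∘ σ)) l = EF g l := by
  unfold EF
  have h := hl.sum_comp σ (fun v => NV v * g (nrm v))
  rw [← h]
  refine Finset.sum_congr rfl fun t _ => ?_
  rw [NV_comp, nrm_comp]

/-- The symmetrised monomial on the simplex. -/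
def fhat (c a : Vc) : ℝ :=
  (1 / 6) * (a 0 ^ c 0 * a 1 ^ c 1 * a 2 ^ c 2 + a 1 ^ c 0 * a 2 ^ c 1 * a 0 ^ c 2
    + a 2 ^ c 0 * a 0 ^ c 1 * a 1 ^ c 2 + a 0 ^ c 0 * a 2 ^ c 1 * a 1 ^ c 2
    + a 2 ^ c 0 * a 1 ^ c 1 * a 0 ^ c 2 + a 1 ^ c 0 * a 0 ^ c 1 * a 2 ^ c 2)

theorem Mc_comp (c : Vc) {l : ι → Vc} (hl : WS l) (σ : Equiv.Perm (Fin 3)) :
    ∑ t, monoC c (l t ∘ σ) = Mc c l :=
  hl.sum_comp σ (monoC c)

/-- On symmetric signals the Mellin functional is the expectation of the symmetrised monomial. -/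
theorem EF_fhat {c : Vc} (hc : IsExp c) {l : ι → Vc} (hl : WS l) : EF (fhat c) l = Mc c l := by
  have e1 : Mc c l = EF (monoC c) l := by
    unfold Mc EF
    exact Finset.sum_congr rfl fun t _ => monoC_eq_NV hc (hl.nonneg t)
  have eσ : ∀ σ : Equiv.Perm (Fin 3), EF (fun a => monoC c (a ∘ σ)) l = Mc c l := by
    intro σ
    rw [EF_sym (monoC c) hl σ, e1]
  have hsum : EF (fhat c) l = (1 / 6) * (EF (monoC c) l + EF (fun a => monoC c (a ∘ permR)) l
      + EF (fun a => monoC c (a ∘ permR2)) l + EF (fun a => monoC c (a ∘ permS0)) l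
      + EF (fun a => monoC c (a ∘ permS1)) l + EF (fun a => monoC c (a ∘ permS2)) l) := by
    unfold EF
    rw [← Finset.sum_add_distrib, ← Finset.sum_add_distrib, ← Finset.sum_add_distrib, ← Finset.sum_add_distrib,
      ← Finset.sum_add_distrib, Finset.mul_sum]
    refine Finset.sum_congr rfl fun t _ => ?_
    unfold fhat monoC
    simp only [Function.comp]
    change _ = 1 / 6 * (_ + NV (l t) * (nrm (l t) 1 ^ c 0 * nrm (l t) 2 ^ c 1 * nrm (l t) 0 ^ c 2)
      + NV (l t) * (nrm (l t) 2 ^ c 0 * nrm (l t) 0 ^ c 1 * nrm (l t) 1 ^ c 2)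
      + NV (l t) * (nrm (l t) 0 ^ c 0 * nrm (l t) 2 ^ c 1 * nrm (l t) 1 ^ c 2)
      + NV (l t) * (nrm (l t) 2 ^ c 0 * nrm (l t) 1 ^ c 1 * nrm (l t) 0 ^ c 2)
      + NV (l t) * (nrm (l t) 1 ^ c 0 * nrm (l t) 0 ^ c 1 * nrm (l t) 2 ^ c 2))
    ring
  rw [hsum, eσ, eσ, eσ, eσ, eσ, ← e1]
  ring

end EFdef

/-! ### The channel -/

/-- The channel on the simplex. -/
def Ch (lam : ℝ) (a : Vc) : Vc := fun i => lam * a i + (1 - lam)

theorem Ch_Ch (r s : ℝ) (a : Vc) : Ch r (Ch s a) = Ch (r * s) a := by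
  funext i
  simp only [Ch]
  ring

theorem Ch_comp (lam : ℝ) (a : Vc) (σ : Equiv.Perm (Fin 3)) : Ch lam (a ∘ σ) = Ch lam a ∘ σ := rfl

theorem Ch_inS {lam : ℝ} (h0 : -(1 / 2) ≤ lam) (h1 : lam ≤ 1) {a : Vc} (ha : InS a) : InS (Ch lam a) := by
  constructor
  · intro i
    obtain ⟨h2, h3⟩ := entry_bound ha i
    simp only [Ch]
    rcases le_total 0 lam with hl | hl
    · have := mul_nonneg hl h2
      linarith
    · nlinarith
  · simp only [Ch]
    have := ha.2
    nlinarith

theorem NV_chV (lam : ℝ) (v : Vc) : NV (chV lam v) = NV v := by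
  unfold NV chV
  ring

theorem nrm_chV (lam : ℝ) {v : Vc} (h : NV v ≠ 0) : nrm (chV lam v) = Ch lam (nrm v) := by
  funext i
  simp only [nrm, NV_chV, Ch, chV]
  field_simp
  unfold NV
  ring

section chanEF
variable {ι : Type*} [Fintype ι]

theorem EF_chan (g : Vc → ℝ) (lam : ℝ) (l : ι → Vc) : EF g (chan lam l) = EF (fun a => g (Ch lam a)) l := by
  unfold EF
  refine Finset.sum_congr rfl fun t _ => ?_
  rw [chan_eq, NV_chV]
  by_cases h : NV (l t) = 0
  · rw [h]
    simp
  · rw [nrm_chV lam h]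

end chanEF

/-! ### Moments -/

/-- The second moment on the simplex. -/
def sF (a : Vc) : ℝ := ((a 0 - 1) ^ 2 + (a 1 - 1) ^ 2 + (a 2 - 1) ^ 2) / 3

/-- The third moment on the simplex. -/
def yF (a : Vc) : ℝ := ((a 0 - 1) ^ 3 + (a 1 - 1) ^ 3 + (a 2 - 1) ^ 3) / 3

/-- The pointwise advantage on the simplex. -/
def advF (a : Vc) : ℝ := (1 / 6) * (|a 0 - 1| + |a 1 - 1| + |a 2 - 1|)

theorem sF_nonneg (a : Vc) : 0 ≤ sF a := by
  unfold sF
  positivity

theorem advF_nonneg (a : Vc) : 0 ≤ advF a := by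
  unfold advF
  positivity

theorem advF_sq_le (a : Vc) : advF a ^ 2 ≤ sF a / 4 := by
  unfold advF sF
  have e0 := sq_abs (a 0 - 1)
  have e1 := sq_abs (a 1 - 1)
  have e2 := sq_abs (a 2 - 1)
  rw [← e0, ← e1, ← e2]
  set x := |a 0 - 1|
  set y := |a 1 - 1|
  set z := |a 2 - 1|
  nlinarith [sq_nonneg (x - y), sq_nonneg (y - z), sq_nonneg (x - z)]

theorem sF_Ch (lam : ℝ) (a : Vc) : sF (Ch lam a) = lam ^ 2 * sF a := by
  unfold sF Ch
  ring

theorem yF_Ch (lam : ℝ) (a : Vc) : yF (Ch lam a) = lam ^ 3 * yF a := by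
  unfold yF Ch
  ring

section relX
variable {ι : Type*} [Fintype ι]

theorem term_sF (v : Vc) (hv : NN v) : NV v * sF (nrm v) = F3 (v 0) (v 1) (v 2) - NV v := by
  by_cases h : NV v = 0
  · rw [eq_zero_of_NV hv h]
    simp [NV, F3]
  · have hs : v 0 + v 1 + v 2 ≠ 0 := by
      intro h2
      apply h
      unfold NV
      rw [h2]
      norm_num
    have hn : NV v = (v 0 + v 1 + v 2) / 3 := rfl
    unfold sF F3
    simp only [nrm]
    rw [hn]
    field_simp
    ring

/-- The second moment and the chi-square functional. -/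
theorem EF_sF {l : ι → Vc} (hl : WS l) : EF sF l = 3 * xx l := by
  unfold EF xx sumF
  rw [Finset.sum_congr rfl fun t _ => term_sF (l t) (hl.nonneg t), Finset.sum_sub_distrib, sum_NV hl]
  ring

end relX

end Vale.Agent.Lib.P154.Mellin
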