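import Vale.Agent.Lib.P154.Mellin

/-!
Abstract expectations on the simplex of normalised likelihood vectors: the class `IsEx`, its closure under the
channel, mixtures and mixing with the flat signal, Jensen, and the control of the advantage.
-/

noncomputable section

open Finset Filter Topology

namespace Vale.Agent.Lib.P154.Mellin

open Vale.Agent.Lib.P154 Vale.Agent.Lib.P154P

/-! ### Bounded functions on the simplex -/

/-- Functions bounded on the simplex. -/
def BddS (g : Vc → ℝ) : Prop := ∃ C : ℝ, ∀ a, InS a → |g a| ≤ C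

namespace BddS

variable {g h : Vc → ℝ}

theorem of_Icc {l u : ℝ} (hb : ∀ a, InS a → l ≤ g a ∧ g a ≤ u) : BddS g := by
  refine ⟨|l| + |u|, fun a ha => ?_⟩
  obtain ⟨h1, h2⟩ := hb a ha
  rw [abs_le]
  constructor
  · linarith [neg_abs_le l, abs_nonneg u]
  · linarith [le_abs_self u, abs_nonneg l]

theorem const (k : ℝ) : BddS (fun _ => k) := ⟨|k|, fun _ _ => le_rfl⟩

theorem coord (i : Fin 3) : BddS (fun a => a i) := by
  refine of_Icc (l := 0) (u := 3) fun a ha => entry_bound ha i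

theorem add (hg : BddS g) (hh : BddS h) : BddS (fun a => g a + h a) := by
  obtain ⟨C, hC⟩ := hg
  obtain ⟨D, hD⟩ := hh
  exact ⟨C + D, fun a ha => (abs_add_le _ _).trans (add_le_add (hC a ha) (hD a ha))⟩

theorem neg (hg : BddS g) : BddS (fun a => - g a) := by
  obtain ⟨C, hC⟩ := hg
  exact ⟨C, fun a ha => by rw [abs_neg]; exact hC a ha⟩

theorem sub (hg : BddS g) (hh : BddS h) : BddS (fun a => g a - h a) := by
  have := hg.add hh.neg
  simpa only [sub_eq_add_neg] using this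

theorem mul (hg : BddS g) (hh : BddS h) : BddS (fun a => g a * h a) := by
  obtain ⟨C, hC⟩ := hg
  obtain ⟨D, hD⟩ := hh
  refine ⟨C * D, fun a ha => ?_⟩
  rw [abs_mul]
  exact mul_le_mul (hC a ha) (hD a ha) (abs_nonneg _) ((abs_nonneg _).trans (hC a ha))

theorem const_mul (k : ℝ) (hg : BddS g) : BddS (fun a => k * g a) := (const k).mul hg

theorem div_const (k : ℝ) (hg : BddS g) : BddS (fun a => g a / k) := by
  have := hg.mul (const k⁻¹)
  simpa only [div_eq_mul_inv] using this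

theorem pow (hg : BddS g) (m : ℕ) : BddS (fun a => g a ^ m) := by
  induction m with
  | zero => simpa using const 1
  | succ m ih =>
    have := ih.mul hg
    simpa only [pow_succ] using this

theorem sum {κ : Type*} (s : Finset κ) {f : κ → Vc → ℝ} (hf : ∀ j ∈ s, BddS (f j)) :
    BddS (fun a => ∑ j ∈ s, f j a) := by
  classical
  induction s using Finset.induction_on with
  | empty => simpa using const 0
  | insert x s hx ih =>
    simp only [Finset.sum_insert hx]
    exact (hf x (Finset.mem_insert_self _ _)).add (ih fun j hj => hf j (Finset.mem_insert_of_mem hj))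

theorem comp_Ch {lam : ℝ} (h0 : -(1 / 2) ≤ lam) (h1 : lam ≤ 1) (hg : BddS g) : BddS (fun a => g (Ch lam a)) := by
  obtain ⟨C, hC⟩ := hg
  exact ⟨C, fun a ha => hC _ (Ch_inS h0 h1 ha)⟩

theorem comp_perm (hg : BddS g) (σ : Equiv.Perm (Fin 3)) : BddS (fun a => g (a ∘ σ)) := by
  obtain ⟨C, hC⟩ := hg
  exact ⟨C, fun a ha => hC _ (ha.comp σ)⟩

theorem congr (hg : BddS g) (e : ∀ a, InS a → g a = h a) : BddS h := by
  obtain ⟨C, hC⟩ := hg
  exact ⟨C, fun a ha => by rw [← e a ha]; exact hC a ha⟩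

theorem eval_one_le {C : ℝ} (hC : ∀ a, InS a → |g a| ≤ C) : |g 1| ≤ C := hC 1 one_inS

end BddS

theorem bdd_sF : BddS sF := by
  have h : ∀ i : Fin 3, BddS (fun a : Vc => (a i - 1) ^ 2) := fun i =>
    ((BddS.coord i).sub (BddS.const 1)).pow 2
  exact (((h 0).add (h 1)).add (h 2)).div_const 3

theorem bdd_yF : BddS yF := by
  have h : ∀ i : Fin 3, BddS (fun a : Vc => (a i - 1) ^ 3) := fun i =>
    ((BddS.coord i).sub (BddS.const 1)).pow 3
  exact (((h 0).add (h 1)).add (h 2)).div_const 3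

theorem sF_le_two {a : Vc} (ha : InS a) : sF a ≤ 2 := by
  unfold sF
  have h0 := ha.1 0
  have h1 := ha.1 1
  have h2 := ha.1 2
  have hs := ha.2
  have h3 : a 2 = 3 - a 0 - a 1 := by linarith
  rw [h3] at h2 ⊢
  nlinarith [mul_nonneg h0 h1, mul_nonneg h0 h2, mul_nonneg h1 h2]

theorem advF_le_one {a : Vc} (ha : InS a) : advF a ≤ 1 := by
  unfold advF
  have h : ∀ i : Fin 3, |a i - 1| ≤ 2 := fun i => by
    obtain ⟨h0, h1⟩ := entry_bound ha i
    rw [abs_le]
    constructor <;> linarith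
  have h0 := h 0
  have h1 := h 1
  have h2 := h 2
  linarith

theorem bdd_advF : BddS advF := BddS.of_Icc (l := 0) (u := 1) fun a ha => ⟨advF_nonneg a, advF_le_one ha⟩

theorem monoC_comp_bounds {c : Vc} (hc : IsExp c) {a : Vc} (ha : NN a) :
    0 ≤ fhat c a ∧ fhat c a ≤ (a 0 + a 1 + a 2) / 3 := by
  have hm : ∀ σ : Equiv.Perm (Fin 3), monoC c (a ∘ σ) ≤ c 0 * a (σ 0) + c 1 * a (σ 1) + c 2 * a (σ 2) := fun σ =>
    monoC_le hc (ha.comp σ)
  have p0 := Real.rpow_nonneg (ha 0) (c 0)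
  have p1 := Real.rpow_nonneg (ha 0) (c 1)
  have p2 := Real.rpow_nonneg (ha 0) (c 2)
  have q0 := Real.rpow_nonneg (ha 1) (c 0)
  have q1 := Real.rpow_nonneg (ha 1) (c 1)
  have q2 := Real.rpow_nonneg (ha 1) (c 2)
  have r0 := Real.rpow_nonneg (ha 2) (c 0)
  have r1 := Real.rpow_nonneg (ha 2) (c 1)
  have r2 := Real.rpow_nonneg (ha 2) (c 2)
  constructor
  · unfold fhat
    positivity
  · have m0 := monoC_le hc ha
    have m1 := hm permR
    have m2 := hm permR2
    have m3 := hm permS0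
    have m4 := hm permS1
    have m5 := hm permS2
    change a 1 ^ c 0 * a 2 ^ c 1 * a 0 ^ c 2 ≤ c 0 * a 1 + c 1 * a 2 + c 2 * a 0 at m1
    change a 2 ^ c 0 * a 0 ^ c 1 * a 1 ^ c 2 ≤ c 0 * a 2 + c 1 * a 0 + c 2 * a 1 at m2
    change a 0 ^ c 0 * a 2 ^ c 1 * a 1 ^ c 2 ≤ c 0 * a 0 + c 1 * a 2 + c 2 * a 1 at m3
    change a 2 ^ c 0 * a 1 ^ c 1 * a 0 ^ c 2 ≤ c 0 * a 2 + c 1 * a 1 + c 2 * a 0 at m4
    change a 1 ^ c 0 * a 0 ^ c 1 * a 2 ^ c 2 ≤ c 0 * a 1 + c 1 * a 0 + c 2 * a 2 at m5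
    unfold monoC at m0
    unfold fhat
    have e : (c 0 * a 0 + c 1 * a 1 + c 2 * a 2) + (c 0 * a 1 + c 1 * a 2 + c 2 * a 0)
        + (c 0 * a 2 + c 1 * a 0 + c 2 * a 1) + (c 0 * a 0 + c 1 * a 2 + c 2 * a 1)
        + (c 0 * a 2 + c 1 * a 1 + c 2 * a 0) + (c 0 * a 1 + c 1 * a 0 + c 2 * a 2)
        = 2 * (a 0 + a 1 + a 2) * (c 0 + c 1 + c 2) := by ring
    rw [hc.sum] at e
    linarith

theorem fhat_nonneg {c : Vc} (hc : IsExp c) {a : Vc} (ha : InS a) : 0 ≤ fhat c a :=
  (monoC_comp_bounds hc ha.1).1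

theorem fhat_le_one {c : Vc} (hc : IsExp c) {a : Vc} (ha : InS a) : fhat c a ≤ 1 := by
  have := (monoC_comp_bounds hc ha.1).2
  rw [ha.2] at this
  linarith

theorem bdd_fhat {c : Vc} (hc : IsExp c) : BddS (fhat c) :=
  BddS.of_Icc (l := 0) (u := 1) fun _ ha => ⟨fhat_nonneg hc ha, fhat_le_one hc ha⟩

theorem fhat_one {c : Vc} (hc : IsExp c) : fhat c 1 = 1 := by
  have h := hc.sum
  simp only [fhat, Pi.one_apply, Real.one_rpow]
  norm_num

theorem Ch_one (lam : ℝ) : Ch lam 1 = 1 := by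
  funext i
  simp [Ch]

/-! ### Abstract expectations -/

/-- Expectations over a law on the simplex, seen through bounded functions. -/
structure IsEx (E : (Vc → ℝ) → ℝ) : Prop where
  add : ∀ g h, BddS g → BddS h → E (fun a => g a + h a) = E g + E h
  const_mul : ∀ (k : ℝ) (g), BddS g → E (fun a => k * g a) = k * E g
  mono : ∀ g h, BddS g → BddS h → (∀ a, InS a → g a ≤ h a) → E g ≤ E h
  one : E (fun _ => 1) = 1
  sym : ∀ (σ : Equiv.Perm (Fin 3)) (g), BddS g → E (fun a => g (a ∘ σ)) = E g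

namespace IsEx

variable {E : (Vc → ℝ) → ℝ} {g h : Vc → ℝ}

theorem congr (hE : IsEx E) (hg : BddS g) (e : ∀ a, InS a → g a = h a) : E g = E h :=
  le_antisymm (hE.mono _ _ hg (hg.congr e) fun a ha => (e a ha).le)
    (hE.mono _ _ (hg.congr e) hg fun a ha => (e a ha).ge)

theorem const (hE : IsEx E) (k : ℝ) : E (fun _ => k) = k := by
  have := hE.const_mul k (fun _ => 1) (BddS.const 1)
  simp only [mul_one] at this
  rw [this, hE.one, mul_one]

theorem sub (hE : IsEx E) (hg : BddS g) (hh : BddS h) : E (fun a => g a - h a) = E g - E h := by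
  have e := hE.add g (fun a => (-1) * h a) hg ((BddS.const (-1)).mul hh)
  rw [hE.const_mul _ _ hh] at e
  have e2 : (fun a => g a + (-1) * h a) = fun a => g a - h a := by
    funext a
    ring
  rw [e2] at e
  rw [e]
  ring

theorem sum (hE : IsEx E) {κ : Type*} (s : Finset κ) {f : κ → Vc → ℝ} (hf : ∀ j ∈ s, BddS (f j)) :
    E (fun a => ∑ j ∈ s, f j a) = ∑ j ∈ s, E (f j) := by
  classical
  induction s using Finset.induction_on with
  | empty =>
    simpa using hE.const 0
  | insert x s hx ih =>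
    simp only [Finset.sum_insert hx]
    rw [hE.add _ _ (hf x (Finset.mem_insert_self _ _))
      (BddS.sum s fun j hj => hf j (Finset.mem_insert_of_mem hj)),
      ih fun j hj => hf j (Finset.mem_insert_of_mem hj)]

theorem nonneg (hE : IsEx E) (hg : BddS g) (h0 : ∀ a, InS a → 0 ≤ g a) : 0 ≤ E g := by
  have := hE.mono _ _ (BddS.const 0) hg h0
  rwa [hE.const] at this

theorem le_const (hE : IsEx E) (hg : BddS g) {k : ℝ} (h0 : ∀ a, InS a → g a ≤ k) : E g ≤ k := by
  have := hE.mono _ _ hg (BddS.const k) h0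
  rwa [hE.const] at this

theorem const_le (hE : IsEx E) (hg : BddS g) {k : ℝ} (h0 : ∀ a, InS a → k ≤ g a) : k ≤ E g := by
  have := hE.mono _ _ (BddS.const k) hg h0
  rwa [hE.const] at this

theorem abs_le_of (hE : IsEx E) (hg : BddS g) {C : ℝ} (hC : ∀ a, InS a → |g a| ≤ C) : |E g| ≤ C := by
  rw [abs_le]
  constructor
  · exact hE.const_le hg fun a ha => (abs_le.1 (hC a ha)).1
  · exact hE.le_const hg fun a ha => (abs_le.1 (hC a ha)).2

/-- Jensen for the square. -/
theorem sq_le (hE : IsEx E) (hg : BddS g) : E g ^ 2 ≤ E (fun a => g a ^ 2) := by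
  set m := E g with hm
  have h1 : BddS (fun a => (g a - m) ^ 2) := (hg.sub (BddS.const m)).pow 2
  have h2 : 0 ≤ E (fun a => (g a - m) ^ 2) := hE.nonneg h1 fun a _ => sq_nonneg _
  have e : (fun a => (g a - m) ^ 2) = fun a => (g a ^ 2 + (-2 * m) * g a) + m ^ 2 := by
    funext a
    ring
  rw [e, hE.add _ _ ((hg.pow 2).add ((BddS.const _).mul hg)) (BddS.const _),
    hE.add _ _ (hg.pow 2) ((BddS.const _).mul hg), hE.const_mul _ _ hg, hE.const, ← hm] at h2
  nlinarith

/-- The symmetrised monomial has the same mean as the monomial. -/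
theorem fhat_bounds (hE : IsEx E) {c : Vc} (hc : IsExp c) : 0 ≤ E (fhat c) ∧ E (fhat c) ≤ 1 :=
  ⟨hE.nonneg (bdd_fhat hc) fun _ ha => fhat_nonneg hc ha, hE.le_const (bdd_fhat hc) fun _ ha => fhat_le_one hc ha⟩

/-- The channel acting on an expectation. -/
theorem chan (hE : IsEx E) {lam : ℝ} (h0 : -(1 / 2) ≤ lam) (h1 : lam ≤ 1) :
    IsEx (fun g => E (fun a => g (Ch lam a))) where
  add := fun g h hg hh => hE.add _ _ (hg.comp_Ch h0 h1) (hh.comp_Ch h0 h1)
  const_mul := fun k g hg => hE.const_mul k _ (hg.comp_Ch h0 h1)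
  mono := fun g h hg hh hgh =>
    hE.mono _ _ (hg.comp_Ch h0 h1) (hh.comp_Ch h0 h1) fun a ha => hgh _ (Ch_inS h0 h1 ha)
  one := hE.one
  sym := fun σ g hg => by
    have := hE.sym σ _ (hg.comp_Ch h0 h1)
    simpa only [Ch_comp] using this

/-- Mixing with the flat signal. -/
theorem flat (hE : IsEx E) {ξ : ℝ} (h0 : 0 ≤ ξ) (h1 : ξ ≤ 1) :
    IsEx (fun g => ξ * E g + (1 - ξ) * g 1) where
  add := fun g h hg hh => by
    rw [hE.add _ _ hg hh]
    ring
  const_mul := fun k g hg => by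
    rw [hE.const_mul _ _ hg]
    ring
  mono := fun g h hg hh hgh => by
    have a1 := mul_le_mul_of_nonneg_left (hE.mono _ _ hg hh hgh) h0
    have a2 := mul_le_mul_of_nonneg_left (hgh 1 one_inS) (by linarith : 0 ≤ 1 - ξ)
    linarith
  one := by
    rw [hE.one]
    ring
  sym := fun σ g hg => by
    rw [hE.sym σ g hg]
    congr 2

end IsEx

/-! ### Signals and mixtures -/

/-- A symmetric signal defines an expectation. -/
theorem EF_isEx {ι : Type*} [Fintype ι] {l : ι → Vc} (hl : WS l) : IsEx (fun g => EF g l) where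
  add := fun g h _ _ => EF_add g h l
  const_mul := fun k g _ => EF_const_mul k g l
  mono := fun _ _ _ _ hgh => EF_mono hl hgh
  one := EF_one hl
  sym := fun σ g _ => EF_sym g hl σ

/-- A mixture of expectations is an expectation. -/
theorem mix_isEx {X : Type} {w : X → ℝ} (hw : WProb w) {E : X → (Vc → ℝ) → ℝ} (hE : ∀ x, IsEx (E x)) :
    IsEx (fun g => Ew w (fun x => E x g)) := by
  have bd : ∀ g, BddS g → BddF (fun x => E x g) := by
    intro g hg
    obtain ⟨C, hC⟩ := hg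
    exact ⟨C, fun x => (hE x).abs_le_of ⟨C, hC⟩ hC⟩
  refine ⟨fun g h hg hh => ?_, fun k g hg => ?_, fun g h hg hh hgh => ?_, ?_, fun σ g hg => ?_⟩
  · simp only [(hE _).add g h hg hh]
    exact Ew_add hw (bd g hg) (bd h hh)
  · simp only [(hE _).const_mul k g hg]
    exact Ew_const_mul k _
  · exact Ew_mono hw (bd g hg) (bd h hh) fun x => (hE x).mono g h hg hh hgh
  · simp only [(hE _).one]
    exact Ew_const hw 1
  · simp only [(hE _).sym σ g hg]

/-- The control of the advantage by the fourth moment of the normalised vector. -/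
theorem IsEx.adv_pow_le {E : (Vc → ℝ) → ℝ} (hE : IsEx E) : E advF ^ 4 ≤ E (fun a => sF a ^ 2) / 16 := by
  have h1 := hE.sq_le bdd_advF
  have h2 : E (fun a => advF a ^ 2) ≤ E (fun a => (1 / 4) * sF a) :=
    hE.mono _ _ (bdd_advF.pow 2) ((BddS.const _).mul bdd_sF) fun a _ => by
      have := advF_sq_le a
      linarith
  rw [hE.const_mul _ _ bdd_sF] at h2
  have h3 := hE.sq_le bdd_sF
  have h4 : 0 ≤ E advF := hE.nonneg bdd_advF fun a _ => advF_nonneg a
  have h5 : 0 ≤ E sF := hE.nonneg bdd_sF fun a _ => sF_nonneg a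
  have h6 : E advF ^ 2 ≤ 1 / 4 * E sF := h1.trans h2
  have h7 : (E advF ^ 2) ^ 2 ≤ (1 / 4 * E sF) ^ 2 := pow_le_pow_left₀ (sq_nonneg _) h6 2
  nlinarith

theorem tendsto_of_pow4 {x t : ℕ → ℝ} (hx : ∀ n, 0 ≤ x n) (h : ∀ n, x n ^ 4 ≤ t n)
    (ht : Tendsto t atTop (𝓝 0)) : Tendsto x atTop (𝓝 0) := by
  rw [Metric.tendsto_atTop]
  intro ε hε
  have hev := (tendsto_order.1 ht).2 (ε ^ 4) (by positivity)
  obtain ⟨N, hN⟩ := Filter.eventually_atTop.1 hev
  refine ⟨N, fun n hn => ?_⟩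
  rw [Real.dist_eq, sub_zero, abs_of_nonneg (hx n)]
  exact lt_of_pow_lt_pow_left₀ 4 hε.le ((h n).trans_lt (hN n hn))

/-! ### Advantage as an expectation -/

theorem adv_term (v : Vc) :
    NV v * ((1 / 2) * (|(1 / 3) * v 0 / NV v - 1 / 3| + |(1 / 3) * v 1 / NV v - 1 / 3|
        + |(1 / 3) * v 2 / NV v - 1 / 3|))
      = NV v * advF (nrm v) := by
  have e : ∀ x : ℝ, |(1 / 3) * x / NV v - 1 / 3| = (1 / 3) * |x / NV v - 1| := by
    intro x
    have : (1 / 3) * x / NV v - 1 / 3 = (1 / 3) * (x / NV v - 1) := by ring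
    rw [this, abs_mul, abs_of_pos (by norm_num : (0 : ℝ) < 1 / 3)]
  rw [e, e, e]
  unfold advF nrm
  ring

section dary
variable {d : ℕ} {lam : ℝ}

theorem WS.powS {ι : Type*} [Fintype ι] {l : ι → Vc} (h : WS l) (k : ℕ) : WS (powS k l) where
  nonneg := fun τ i => Finset.prod_nonneg fun c _ => h.nonneg _ _
  tot := fun i => by
    unfold P154.powS
    have := Finset.prod_univ_sum (fun _ : Fin k => (Finset.univ : Finset ι)) (fun _ t => l t i)
    rw [Fintype.piFinset_univ] at this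
    rw [← this]
    simp [h.tot]
  sym := fun σ => by
    obtain ⟨π, hπ⟩ := h.sym σ
    refine ⟨Equiv.arrowCongr (Equiv.refl _) π, fun τ => ?_⟩
    funext i
    unfold P154.powS
    refine Finset.prod_congr rfl fun c _ => ?_
    simp only [Equiv.arrowCongr_apply, Equiv.coe_refl, Function.comp, id, Equiv.refl_symm, hπ]

theorem lev_ws (h0 : -(1 / 2) ≤ lam) (h1 : lam ≤ 1) : ∀ n, WS (lev d lam n)
  | 0 => by
    have hW := lev_zero_wsig d lam
    exact ⟨fun t i => hW.nonneg t i, hW.tot, fun σ => by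
      obtain ⟨π, hπ⟩ := hW.sym σ
      exact ⟨π, fun t => funext fun i => hπ t i⟩⟩
  | n + 1 => by
    rw [lev_succ]
    exact WS.powS ((lev_ws h0 h1 n).chan h0 h1) d

/-- The expectation at level `n` of the regular tree. -/
def Elev (d : ℕ) (lam : ℝ) (n : ℕ) (g : Vc → ℝ) : ℝ := EF g (lev d lam n)

theorem Elev_isEx (h0 : -(1 / 2) ≤ lam) (h1 : lam ≤ 1) (n : ℕ) : IsEx (Elev d lam n) :=
  EF_isEx (lev_ws h0 h1 n)

/-- The advantage on the regular tree is an expectation. -/
theorem advantage_eq_Elev (n : ℕ) : advantage d 3 lam n = Elev d lam n advF := by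
  unfold advantage Elev EF
  refine Finset.sum_congr rfl fun τ _ => ?_
  have e1 : leafProb d 3 lam n τ = NV (lev d lam n τ) := by
    unfold leafProb NV lev
    rw [Fin.sum_univ_three]
    push_cast
    ring
  have e2 : ∀ i : Fin 3, rootPost d 3 lam n i τ = (1 / 3) * lev d lam n τ i / NV (lev d lam n τ) := by
    intro i
    unfold rootPost
    rw [e1]
    push_cast
    rfl
  rw [e1, Fin.sum_univ_three]
  simp only [e2]
  push_cast
  exact adv_term _

end dary

section gw
variable {p : ℕ → ℝ} {lam : ℝ}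

/-- The expectation at level `n` of a Galton-Watson tree. -/
def Ex (p : ℕ → ℝ) (lam : ℝ) (n : ℕ) (g : Vc → ℝ) : ℝ := Ew (gwWeight p n) (fun T => EF g (glev lam n T))

theorem Ex_isEx (hp : WProb p) (h0 : -(1 / 2) ≤ lam) (h1 : lam ≤ 1) (n : ℕ) : IsEx (Ex p lam n) :=
  mix_isEx (gwWeight_wprob hp n) fun T => EF_isEx (glev_ws h0 h1 n T)

theorem gwTreeAdvantage_eq_EF (n : ℕ) (T : GWTree n) : gwTreeAdvantage 3 lam n T = EF advF (glev lam n T) := by
  unfold gwTreeAdvantage EF
  refine Finset.sum_congr rfl fun τ _ => ?_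
  have e1 : gwProb 3 lam n T τ = NV (glev lam n T τ) := by
    unfold gwProb NV glev
    rw [Fin.sum_univ_three]
    push_cast
    ring
  have e2 : ∀ i : Fin 3, gwPost 3 lam n T i τ = (1 / 3) * glev lam n T τ i / NV (glev lam n T τ) := by
    intro i
    unfold gwPost
    rw [e1]
    push_cast
    rfl
  rw [e1, Fin.sum_univ_three]
  simp only [e2]
  push_cast
  exact adv_term _

/-- The advantage on a Galton-Watson tree is an expectation. -/
theorem gwAdvantage_eq_Ex (n : ℕ) : gwAdvantage p 3 lam n = Ex p lam n advF := by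
  unfold gwAdvantage Ex Ew
  congr 1
  funext T
  rw [gwTreeAdvantage_eq_EF]

theorem summable_gwAdv (hp : WProb p) (h0 : -(1 / 2) ≤ lam) (h1 : lam ≤ 1) (n : ℕ) :
    Summable (fun T : GWTree n => gwWeight p n T * gwTreeAdvantage 3 lam n T) := by
  have hb : BddF (fun T : GWTree n => gwTreeAdvantage 3 lam n T) := by
    refine ⟨1, fun T => ?_⟩
    change |gwTreeAdvantage 3 lam n T| ≤ 1
    rw [gwTreeAdvantage_eq_EF]
    exact (EF_isEx (glev_ws h0 h1 n T)).abs_le_of bdd_advF fun a ha => by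
      rw [abs_of_nonneg (advF_nonneg a)]
      exact advF_le_one ha
  exact (gwWeight_wprob hp n).summable_mul hb

end gw

end Vale.Agent.Lib.P154.Mellin
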