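import Vale.Agent.Lib.P154.MellinEx

/-!
The exact recursion of the Mellin functionals on regular and Galton-Watson trees, and the Lyapunov criteria.
-/

noncomputable section

open Finset Filter Topology

namespace Vale.Agent.Lib.P154.Mellin

open Vale.Agent.Lib.P154 Vale.Agent.Lib.P154P

/-! ### The abstract Lyapunov principle -/

/-- A Lyapunov sequence bounded below with drift `κ T` forces `T → 0`. -/
theorem tendsto_zero_of_drift {L T : ℕ → ℝ} {κ B : ℝ} (N : ℕ) (hκ : 0 < κ) (hT : ∀ n, 0 ≤ T n)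
    (hL : ∀ n, -B ≤ L n) (hstep : ∀ n, N ≤ n → L (n + 1) ≤ L n - κ * T n) : Tendsto T atTop (𝓝 0) := by
  have hsum : ∀ m, κ * ∑ i ∈ Finset.range m, T (i + N) ≤ L N - L (m + N) := by
    intro m
    induction m with
    | zero => simp
    | succ m ih =>
      rw [Finset.sum_range_succ, mul_add]
      have := hstep (m + N) (by omega)
      have e : m + 1 + N = m + N + 1 := by omega
      rw [e]
      linarith
  have hbd : ∀ m, ∑ i ∈ Finset.range m, T (i + N) ≤ (L N + B) / κ := by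
    intro m
    rw [le_div_iff₀ hκ, mul_comm]
    have := hsum m
    have h2 := hL (m + N)
    linarith
  have hs : Summable (fun i => T (i + N)) := summable_of_sum_range_le (fun i => hT _) hbd
  have := hs.tendsto_atTop_zero
  exact (tendsto_add_atTop_iff_nat N).1 this

section core
variable {J : Type*} [Fintype J] {c : J → Vc} {γ : J → ℝ}

/-- The Lyapunov value of an expectation. -/
def lyapE (c : J → Vc) (γ : J → ℝ) (E : (Vc → ℝ) → ℝ) : ℝ := ∑ j, γ j * (1 - E (fhat (c j)))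

theorem lyapE_lower (hc : ∀ j, IsExp (c j)) {E : (Vc → ℝ) → ℝ} (hE : IsEx E) :
    -(∑ j, |γ j|) ≤ lyapE c γ E := by
  unfold lyapE
  rw [← Finset.sum_neg_distrib]
  refine Finset.sum_le_sum fun j _ => ?_
  obtain ⟨h0, h1⟩ := hE.fhat_bounds (hc j)
  have h2 : 0 ≤ 1 - E (fhat (c j)) := by linarith
  have h3 : 1 - E (fhat (c j)) ≤ 1 := by linarith
  rcases le_total 0 (γ j) with h | h
  · rw [abs_of_nonneg h]
    have := mul_nonneg h h2
    linarith
  · rw [abs_of_nonpos h]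
    nlinarith

/-- The Lyapunov principle for a sequence of expectations. -/
theorem lyap_core {E : ℕ → (Vc → ℝ) → ℝ} (hE : ∀ n, IsEx (E n)) (hc : ∀ j, IsExp (c j)) {κ : ℝ} (hκ : 0 < κ)
    (N : ℕ) (hstep : ∀ n, N ≤ n → lyapE c γ (E (n + 1)) ≤ lyapE c γ (E n) - κ * E n (fun a => sF a ^ 2)) :
    Tendsto (fun n => E n (fun a => sF a ^ 2)) atTop (𝓝 0) ∧ Tendsto (fun n => E n advF) atTop (𝓝 0) := by
  have hT : Tendsto (fun n => E n (fun a => sF a ^ 2)) atTop (𝓝 0) :=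
    tendsto_zero_of_drift (L := fun n => lyapE c γ (E n)) (B := ∑ j, |γ j|) N hκ
      (fun n => (hE n).nonneg (bdd_sF.pow 2) fun a _ => sq_nonneg _)
      (fun n => lyapE_lower hc (hE n)) hstep
  refine ⟨hT, tendsto_of_pow4 (t := fun n => E n (fun a => sF a ^ 2) / 16)
    (fun n => (hE n).nonneg bdd_advF fun a _ => advF_nonneg a) (fun n => (hE n).adv_pow_le) ?_⟩
  have := hT.div_const 16
  simpa using this

end core

/-! ### Regular trees -/

section dary
variable {d : ℕ} {lam : ℝ}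

/-- The channel at the level of expectations. -/
theorem Elev_chan (n : ℕ) (g : Vc → ℝ) : EF g (chan lam (lev d lam n)) = Elev d lam n (fun a => g (Ch lam a)) :=
  EF_chan g lam _

theorem Elev_fhat (h0 : -(1 / 2) ≤ lam) (h1 : lam ≤ 1) {c : Vc} (hc : IsExp c) (n : ℕ) :
    Elev d lam n (fhat c) = Mc c (lev d lam n) :=
  EF_fhat hc (lev_ws h0 h1 n)

theorem Elev_fhat_chan (h0 : -(1 / 2) ≤ lam) (h1 : lam ≤ 1) {c : Vc} (hc : IsExp c) (n : ℕ) :
    Elev d lam n (fun a => fhat c (Ch lam a)) = Mc c (chan lam (lev d lam n)) := by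
  rw [← Elev_chan]
  exact EF_fhat hc ((lev_ws h0 h1 n).chan h0 h1)

/-- The exact recursion on the regular tree. -/
theorem Mc_lev_succ (h0 : -(1 / 2) ≤ lam) (h1 : lam ≤ 1) (c : Vc) (n : ℕ) :
    Mc c (lev d lam (n + 1)) = Mc c (chan lam (lev d lam n)) ^ d := by
  rw [lev_succ]
  exact Mc_powS c ((lev_ws h0 h1 n).chan h0 h1).nonneg d

theorem PhiC_lev_succ (h0 : -(1 / 2) ≤ lam) (h1 : lam ≤ 1) (c : Vc) (n : ℕ) :
    PhiC c (lev d lam (n + 1)) = 1 - (1 - PhiC c (chan lam (lev d lam n))) ^ d := by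
  unfold PhiC
  rw [Mc_lev_succ h0 h1]
  ring

/-- The exact recursion on the regular tree, in terms of the expectations. -/
theorem Elev_succ (h0 : -(1 / 2) ≤ lam) (h1 : lam ≤ 1) {c : Vc} (hc : IsExp c) (n : ℕ) :
    Elev d lam (n + 1) (fhat c) = Elev d lam n (fun a => fhat c (Ch lam a)) ^ d := by
  rw [Elev_fhat h0 h1 hc, Elev_fhat_chan h0 h1 hc, Mc_lev_succ h0 h1]

/-- The Lyapunov criterion on the regular tree.  The hypothesis involves only the numbers `E_n (fhat c_j ∘ Ch)`,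
`E_n (fhat c_j)` and `E_n (sF ^ 2)`, and only from some level on. -/
theorem reg_of_lyap {J : Type*} [Fintype J] {c : J → Vc} (hc : ∀ j, IsExp (c j)) (γ : J → ℝ)
    (h0 : -(1 / 2) ≤ lam) (h1 : lam ≤ 1) {κ : ℝ} (hκ : 0 < κ) (N : ℕ)
    (hstep : ∀ n, N ≤ n →
      ∑ j, γ j * (1 - Elev d lam n (fun a => fhat (c j) (Ch lam a)) ^ d)
        ≤ ∑ j, γ j * (1 - Elev d lam n (fhat (c j))) - κ * Elev d lam n (fun a => sF a ^ 2)) :
    Tendsto (fun n => Elev d lam n (fun a => sF a ^ 2)) atTop (𝓝 0)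
      ∧ Tendsto (advantage d 3 lam) atTop (𝓝 0) := by
  obtain ⟨h2, h3⟩ := lyap_core (c := c) (γ := γ) (E := Elev d lam) (fun n => Elev_isEx h0 h1 n) hc hκ N (by
    intro n hn
    unfold lyapE
    simp only [Elev_succ h0 h1 (hc _)]
    exact hstep n hn)
  refine ⟨h2, ?_⟩
  have e : advantage d 3 lam = fun n => Elev d lam n advF := by
    funext n
    exact advantage_eq_Elev n
  rw [e]
  exact h3

end dary

/-! ### Galton-Watson trees -/

section mean
variable {X : Type} {w : X → ℝ}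

/-- Means of products over independent tuples. -/
theorem Ew_wPow_prod (hw : WProb w) {f : X → ℝ} (hf : BddF f) (k : ℕ) :
    Ew (wPow w k) (fun ts => ∏ c, f (ts c)) = Ew w f ^ k := by
  induction k with
  | zero =>
    have h : (fun ts : Fin 0 → X => ∏ c, f (ts c)) = fun _ => 1 := by
      funext ts
      simp
    rw [h, Ew_const (hw.pow 0)]
    simp
  | succ k ih =>
    rw [Ew_pow_succ]
    have e : (fun p : X × (Fin k → X) =>
        ∏ c, f ((Fin.consEquiv (fun _ : Fin (k + 1) => X) p) c)) = fun p => f p.1 * ∏ c, f (p.2 c) := by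
      funext p
      rw [Fin.prod_univ_succ]
      rfl
    rw [e]
    have hb : BddF (fun ts : Fin k → X => ∏ c, f (ts c)) := by
      obtain ⟨C, hC⟩ := hf
      refine ⟨|C| ^ k, fun ts => ?_⟩
      rw [Finset.abs_prod]
      have : ∀ c ∈ (Finset.univ : Finset (Fin k)), |f (ts c)| ≤ |C| := fun c _ => (hC _).trans (le_abs_self C)
      have h2 := Finset.prod_le_prod (fun c _ => abs_nonneg (f (ts c))) this
      simpa using h2
    rw [Ew_prod_mul hw (hw.pow k) hf hb, ih, pow_succ]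
    ring

end mean

/-- The probability generating function. -/
def gfun (p : ℕ → ℝ) (x : ℝ) : ℝ := ∑' k, p k * x ^ k

theorem gfun_poisson (d x : ℝ) : gfun (poissonLaw d) x = Real.exp (-d * (1 - x)) := by
  unfold gfun
  have h := NormedSpace.expSeries_div_hasSum_exp (𝔸 := ℝ) (d * x)
  rw [← Real.exp_eq_exp_ℝ] at h
  have h2 := h.mul_left (Real.exp (-d))
  have e : poissonLaw d = fun k => Real.exp (-d) * d ^ k / (k.factorial : ℝ) := rfl
  have e2 : (fun k : ℕ => poissonLaw d k * x ^ k) = fun k => Real.exp (-d) * ((d * x) ^ k / (k.factorial : ℝ)) := by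
    funext k
    rw [e, mul_pow]
    ring
  rw [e2, h2.tsum_eq, ← Real.exp_add]
  congr 1
  ring

section gw
variable {p : ℕ → ℝ} {lam : ℝ}

theorem Ex_fhat (h0 : -(1 / 2) ≤ lam) (h1 : lam ≤ 1) {c : Vc} (hc : IsExp c) (n : ℕ) :
    Ex p lam n (fhat c) = Ew (gwWeight p n) (fun T => Mc c (glev lam n T)) := by
  unfold Ex
  exact Ew_congr _ _ fun T => EF_fhat hc (glev_ws h0 h1 n T)

theorem Ex_chan (lam' : ℝ) (n : ℕ) (g : Vc → ℝ) :
    Ew (gwWeight p n) (fun T => EF g (chan lam' (glev lam n T))) = Ex p lam n (fun a => g (Ch lam' a)) := by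
  unfold Ex
  exact Ew_congr _ _ fun T => EF_chan g lam' _

theorem Ex_fhat_chan (h0 : -(1 / 2) ≤ lam) (h1 : lam ≤ 1) {c : Vc} (hc : IsExp c) (n : ℕ) :
    Ex p lam n (fun a => fhat c (Ch lam a)) = Ew (gwWeight p n) (fun T => Mc c (chan lam (glev lam n T))) := by
  rw [← Ex_chan]
  exact Ew_congr _ _ fun T => EF_fhat hc ((glev_ws h0 h1 n T).chan h0 h1)

theorem Mc_glev_succ (h0 : -(1 / 2) ≤ lam) (h1 : lam ≤ 1) (c : Vc) (n : ℕ) (T : GWTree (n + 1)) :
    Mc c (glev lam (n + 1) T) = ∏ j : Fin T.1, Mc c (chan lam (glev lam n (T.2 j))) := by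
  rw [glev_succ]
  exact Mc_piS c fun j t => ((glev_ws h0 h1 n (T.2 j)).chan h0 h1).nonneg t

/-- The exact recursion on a Galton-Watson tree. -/
theorem Ex_succ (hp : WProb p) (h0 : -(1 / 2) ≤ lam) (h1 : lam ≤ 1) {c : Vc} (hc : IsExp c) (n : ℕ) :
    Ex p lam (n + 1) (fhat c) = gfun p (Ex p lam n (fun a => fhat c (Ch lam a))) := by
  have hw := gwWeight_wprob hp n
  rw [Ex_fhat h0 h1 hc, Ex_fhat_chan h0 h1 hc]
  have hMcB : ∀ (m : ℕ) (T : GWTree m), |Mc c (chan lam (glev lam m T))| ≤ 1 := fun m T => by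
    have hW := (glev_ws h0 h1 m T).chan h0 h1
    rw [abs_of_nonneg (Mc_nonneg c hW.nonneg)]
    exact Mc_le_one hc hW
  have hf : BddF (fun T : GWTree n => Mc c (chan lam (glev lam n T))) := ⟨1, fun T => hMcB n T⟩
  have hF : BddF (fun T : GWTree (n + 1) => Mc c (glev lam (n + 1) T)) := by
    refine ⟨1, fun T => ?_⟩
    have hW := glev_ws h0 h1 (n + 1) T
    change |Mc c (glev lam (n + 1) T)| ≤ 1
    rw [abs_of_nonneg (Mc_nonneg c hW.nonneg)]
    exact Mc_le_one hc hW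
  have := Ew_mix hp hw (F := fun T : GWTree (n + 1) => Mc c (glev lam (n + 1) T)) hF
  refine Eq.trans this ?_
  unfold gfun
  congr 1
  funext k
  congr 1
  rw [← Ew_wPow_prod hw hf k]
  refine Ew_congr _ _ fun ts => ?_
  exact Mc_glev_succ h0 h1 c n ⟨k, ts⟩

/-- The Lyapunov criterion on a Galton-Watson tree. -/
theorem gw_of_lyap (hp : WProb p) {J : Type*} [Fintype J] {c : J → Vc} (hc : ∀ j, IsExp (c j)) (γ : J → ℝ)
    (h0 : -(1 / 2) ≤ lam) (h1 : lam ≤ 1) {κ : ℝ} (hκ : 0 < κ) (N : ℕ)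
    (hstep : ∀ n, N ≤ n →
      ∑ j, γ j * (1 - gfun p (Ex p lam n (fun a => fhat (c j) (Ch lam a))))
        ≤ ∑ j, γ j * (1 - Ex p lam n (fhat (c j))) - κ * Ex p lam n (fun a => sF a ^ 2)) :
    Tendsto (fun n => Ex p lam n (fun a => sF a ^ 2)) atTop (𝓝 0)
      ∧ (∀ n, Summable (fun T : GWTree n => gwWeight p n T * gwTreeAdvantage 3 lam n T))
      ∧ Tendsto (gwAdvantage p 3 lam) atTop (𝓝 0) := by
  obtain ⟨h2, h3⟩ := lyap_core (c := c) (γ := γ) (E := Ex p lam) (fun n => Ex_isEx hp h0 h1 n) hc hκ N (by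
    intro n hn
    unfold lyapE
    simp only [Ex_succ hp h0 h1 (hc _)]
    exact hstep n hn)
  refine ⟨h2, summable_gwAdv hp h0 h1, ?_⟩
  have e : gwAdvantage p 3 lam = fun n => Ex p lam n advF := by
    funext n
    exact gwAdvantage_eq_Ex n
  rw [e]
  exact h3

/-- The Lyapunov criterion on a Poisson tree. -/
theorem poisson_of_lyap {d : ℝ} (hd : 0 ≤ d) {J : Type*} [Fintype J] {c : J → Vc} (hc : ∀ j, IsExp (c j)) (γ : J → ℝ)
    (h0 : -(1 / 2) ≤ lam) (h1 : lam ≤ 1) {κ : ℝ} (hκ : 0 < κ) (N : ℕ)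
    (hstep : ∀ n, N ≤ n →
      ∑ j, γ j * (1 - Real.exp (-d * (1 - Ex (poissonLaw d) lam n (fun a => fhat (c j) (Ch lam a)))))
        ≤ ∑ j, γ j * (1 - Ex (poissonLaw d) lam n (fhat (c j))) - κ * Ex (poissonLaw d) lam n (fun a => sF a ^ 2)) :
    Tendsto (fun n => Ex (poissonLaw d) lam n (fun a => sF a ^ 2)) atTop (𝓝 0)
      ∧ (∀ n, Summable (fun T : GWTree n => gwWeight (poissonLaw d) n T * gwTreeAdvantage 3 lam n T))
      ∧ Tendsto (gwAdvantage (poissonLaw d) 3 lam) atTop (𝓝 0) := by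
  refine gw_of_lyap (poisson_wprob hd) hc γ h0 h1 hκ N fun n hn => ?_
  simp only [gfun_poisson]
  exact hstep n hn

/-- The second moment and the mean chi-square functional. -/
theorem Ex_sF (h0 : -(1 / 2) ≤ lam) (h1 : lam ≤ 1) (n : ℕ) : Ex p lam n sF = 3 * Xbar p lam n := by
  unfold Ex Xbar
  rw [← Ew_const_mul]
  exact Ew_congr _ _ fun T => EF_sF (glev_ws h0 h1 n T)

theorem Elev_sF {d : ℕ} (h0 : -(1 / 2) ≤ lam) (h1 : lam ≤ 1) (n : ℕ) : Elev d lam n sF = 3 * xx (lev d lam n) :=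
  EF_sF (lev_ws h0 h1 n)

end gw

end Vale.Agent.Lib.P154.Mellin
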