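import Vale.Agent.Lib.P154.NegTree

/-!
Instances of the recursion on the `d`-ary tree from coefficient checks, and the limit `λ = -1/2`.
-/

noncomputable section

open Finset Filter Topology

namespace Vale.Agent.Lib.P154

open Vale.Agent.Lib.Common.Kron

/-! ### Continuity in the eigenvalue -/

theorem potts_continuous (i j : Fin 3) : Continuous fun lam : ℝ => potts 3 lam i j := by
  unfold potts
  fun_prop

theorem leafLik_continuous (d : ℕ) : ∀ (n : ℕ) (i : Fin 3) (τ : LeafSpins d 3 n),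
    Continuous fun lam : ℝ => leafLik d 3 lam n i τ
  | 0, _, _ => continuous_const
  | n + 1, i, τ => by
    have e : (fun lam : ℝ => leafLik d 3 lam (n + 1) i τ)
        = fun lam => ∏ c : Fin d, ∑ j : Fin 3, potts 3 lam i j * leafLik d 3 lam n j (τ c) := rfl
    rw [e]
    refine continuous_finsetProd _ fun c _ => continuous_finsetSum _ fun j _ => ?_
    exact (potts_continuous i j).mul (leafLik_continuous d n j (τ c))

theorem potts_nonneg {lam : ℝ} (h0 : -(1 / 2) ≤ lam) (h1 : lam ≤ 1) (i j : Fin 3) : 0 ≤ potts 3 lam i j := by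
  unfold potts
  by_cases h : i = j
  · simp [h]
    linarith
  · simp [h]
    linarith

theorem leafLik_nonneg (d : ℕ) {lam : ℝ} (h0 : -(1 / 2) ≤ lam) (h1 : lam ≤ 1) :
    ∀ (n : ℕ) (i : Fin 3) (τ : LeafSpins d 3 n), 0 ≤ leafLik d 3 lam n i τ
  | 0, i, τ => by
    change 0 ≤ (if i = spinAtZero τ then (1 : ℝ) else 0)
    split_ifs <;> norm_num
  | n + 1, i, τ => by
    change 0 ≤ ∏ c : Fin d, ∑ j : Fin 3, potts 3 lam i j * leafLik d 3 lam n j (τ c)
    refine Finset.prod_nonneg fun c _ => Finset.sum_nonneg fun j _ => ?_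
    exact mul_nonneg (potts_nonneg h0 h1 i j) (leafLik_nonneg d h0 h1 n j (τ c))

/-- The advantage as a continuous expression. -/
def advE (d : ℕ) (lam : ℝ) (n : ℕ) : ℝ :=
  ∑ τ : LeafSpins d 3 n, (1 / 2) * ∑ i : Fin 3, |(1 / 3) * leafLik d 3 lam n i τ - (1 / 3) * leafProb d 3 lam n τ|

theorem advE_continuous (d n : ℕ) : Continuous fun lam : ℝ => advE d lam n := by
  unfold advE leafProb
  refine continuous_finsetSum _ fun τ _ => continuous_const.mul (continuous_finsetSum _ fun i _ => ?_)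
  refine Continuous.abs ?_
  refine (continuous_const.mul (leafLik_continuous d n i τ)).sub (continuous_const.mul ?_)
  refine continuous_finsetSum _ fun j _ => continuous_const.mul (leafLik_continuous d n j τ)

theorem advantage_eq_advE (d : ℕ) {lam : ℝ} (h0 : -(1 / 2) ≤ lam) (h1 : lam ≤ 1) (n : ℕ) :
    advantage d 3 lam n = advE d lam n := by
  unfold advantage advE
  refine Finset.sum_congr rfl fun τ _ => ?_
  have hl := fun i => leafLik_nonneg d h0 h1 n i τ
  have hp : leafProb d 3 lam n τ = ∑ i : Fin 3, (1 / 3) * leafLik d 3 lam n i τ := by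
    unfold leafProb
    push_cast
    rfl
  have hP0 : 0 ≤ leafProb d 3 lam n τ := by
    rw [hp]
    exact Finset.sum_nonneg fun i _ => mul_nonneg (by norm_num) (hl i)
  rw [mul_left_comm, Finset.mul_sum]
  congr 1
  refine Finset.sum_congr rfl fun i _ => ?_
  rcases hP0.eq_or_lt with hz | hpos
  · -- zero total mass
    have hzero : ∀ j : Fin 3, leafLik d 3 lam n j τ = 0 := by
      intro j
      have h2 := hz
      rw [hp] at h2
      have := (Finset.sum_eq_zero_iff_of_nonneg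
        (fun k _ => mul_nonneg (by norm_num : (0 : ℝ) ≤ 1 / 3) (hl k))).1 h2.symm j (Finset.mem_univ j)
      linarith
    rw [← hz, hzero i]
    simp
  · unfold rootPost
    push_cast
    have e : (1 / 3) * leafLik d 3 lam n i τ - (1 / 3) * leafProb d 3 lam n τ
        = leafProb d 3 lam n τ * ((1 / 3) * leafLik d 3 lam n i τ / leafProb d 3 lam n τ - 1 / 3) := by
      field_simp
    rw [e, abs_mul, abs_of_pos hpos]

/-- Passing to the limit `λ = -1/2`. -/
theorem advantage_neg_half {d : ℕ} {B : ℕ → ℝ} (hB : Tendsto B atTop (𝓝 0))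
    (h : ∀ μ : ℝ, 0 < μ → μ < 1 / 2 → ∀ n, xx (lev d (-μ) n) ≤ B n) :
    Tendsto (advantage d 3 (-(1 / 2))) atTop (𝓝 0) := by
  have key : ∀ (n : ℕ) (δ : ℝ), 0 < δ → advantage d 3 (-(1 / 2)) n ≤ 3 * δ / 4 + B n / (4 * δ) := by
    intro n δ hδ
    rw [advantage_eq_advE d (by norm_num) (by norm_num)]
    have hc := (advE_continuous d n).tendsto (-(1 / 2))
    have hev : ∀ᶠ lam in nhdsWithin (-(1 / 2) : ℝ) (Set.Ioo (-(1 / 2)) 0),
        advE d lam n ≤ 3 * δ / 4 + B n / (4 * δ) := by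
      filter_upwards [self_mem_nhdsWithin] with lam hlam
      have hμ0 : 0 < -lam := by linarith [hlam.2]
      have hμ1 : -lam < 1 / 2 := by linarith [hlam.1]
      rw [← advantage_eq_advE d (by linarith [hlam.1]) (by linarith [hlam.2])]
      have hl : lam = - -lam := by ring
      have hW := lev_wsig' (d := d) (lam := lam) hlam.1 (by linarith [hlam.2]) n
      have h1 := advantage_le hW δ hδ
      have h2 := h (-lam) hμ0 hμ1 n
      rw [neg_neg] at h2
      have h3 : xx (lev d lam n) / (4 * δ) ≤ B n / (4 * δ) :=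
        div_le_div_of_nonneg_right h2 (by positivity)
      linarith
    have hne : (nhdsWithin (-(1 / 2) : ℝ) (Set.Ioo (-(1 / 2)) 0)).NeBot :=
      (mem_closure_iff_nhdsWithin_neBot.1 (by
        rw [closure_Ioo (by norm_num)]
        constructor <;> norm_num))
    exact le_of_tendsto (hc.mono_left nhdsWithin_le_nhds) hev
  have hnn : ∀ n, 0 ≤ advantage d 3 (-(1 / 2)) n := by
    intro n
    rw [advantage_eq_advE d (by norm_num) (by norm_num)]
    unfold advE
    exact Finset.sum_nonneg fun τ _ => mul_nonneg (by norm_num) (Finset.sum_nonneg fun i _ => abs_nonneg _)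
  rw [Metric.tendsto_atTop]
  intro ε hε
  have hev := (tendsto_order.1 hB).2 (ε ^ 2) (by positivity)
  obtain ⟨N, hN⟩ := Filter.eventually_atTop.1 hev
  refine ⟨N, fun n hn => ?_⟩
  have h1 := key n (ε / 2) (by positivity)
  have h4 := hN n hn
  have h5 : B n / (4 * (ε / 2)) < ε / 2 := by
    rw [div_lt_iff₀ (by positivity)]
    nlinarith
  rw [Real.dist_eq, sub_zero, abs_of_nonneg (hnn n)]
  nlinarith

/-! ### Instances -/

theorem muY_lt {μ μ₀ Y : ℝ} (h0 : 0 < μ) (h1 : μ ≤ μ₀) (hY : 2 / 3 * μ₀ ^ 2 < Y) : 2 / 3 * μ ^ 2 < Y := by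
  have : μ ^ 2 ≤ μ₀ ^ 2 := by nlinarith
  linarith

theorem muY_lt' {μ μ₀ Y : ℝ} (h0 : 0 < μ) (h1 : μ < μ₀) (hY : 2 / 3 * μ₀ ^ 2 ≤ Y) : 2 / 3 * μ ^ 2 < Y := by
  have : μ ^ 2 < μ₀ ^ 2 := by nlinarith
  linarith

/-- The data of a noncritical instance give the decay of the functional. -/
theorem reg_instance {d mn md bn bd tn td D1 D2 k1 yn yd a1 b1 D kn kd E k2 : ℕ} {rad1 rad2 : List ℕ}
    (hmd : 0 < md) (hbd : 0 < bd) (htd : 0 < td) (hD : 0 < D) (hkd : 0 < kd)
    (c1 : check (ePoint mn md bn bd tn td D1 D2) k1 rad1 = true)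
    (c2 : check (PE.eS a1 b1 D tn td kn kd d E) k2 rad2 = true)
    (hμ₀ : ((mn : ℝ) / md) ≤ 1 / 2)
    (ha : 1 - (a1 : ℝ) / D = 3 / 2 * ((bn : ℝ) / bd) * ((yn : ℝ) / yd))
    (hr : 1 - (b1 : ℝ) / D = 3 / (1 - (mn : ℝ) / md) * ((yn : ℝ) / yd))
    {μ : ℝ} (h0 : 0 < μ) (h1 : μ ≤ (mn : ℝ) / md) (h2 : μ < 1 / 2) (hY : 2 / 3 * μ ^ 2 < (yn : ℝ) / yd) (n : ℕ) :
    xx (lev d (-μ) n) ≤ 2 / 3 * (((mn : ℝ) / md) ^ 2 * ((kn : ℝ) / kd)) ^ n := by
  have hc := negCert_of_check hmd hbd htd c1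
  have hD' : (0 : ℝ) < D := by exact_mod_cast hD
  have hA1 : 0 ≤ (a1 : ℝ) / D := by positivity
  have hB1 : 0 ≤ (b1 : ℝ) / D := by positivity
  refine xx_lev_geom (β := (bn : ℝ) / bd) (θ := (tn : ℝ) / td) (Y := (yn : ℝ) / yd) h0 h1 hμ₀ h2 hc (by positivity) hY
    (by rw [← ha]; linarith) (by positivity) (by rw [← hr]; linarith) ?_ (by positivity) n
  intro t ht0 ht1
  have := Sq_le_of_check hD htd hkd c2 t ht0 ht1
  rw [ha, hr] at this
  exact this

/-- The limit of a geometric bound. -/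
theorem tendsto_geom_bound {ρ : ℝ} (h0 : 0 ≤ ρ) (h1 : ρ < 1) :
    Tendsto (fun n : ℕ => 2 / 3 * ρ ^ n) atTop (𝓝 0) := by
  have := (tendsto_pow_atTop_nhds_zero_of_lt_one h0 h1).const_mul (2 / 3 : ℝ)
  simpa using this

/-- Tendsto from a geometric bound. -/
theorem advantage_of_geom {d : ℕ} {μ ρ : ℝ} (h0 : 0 < μ) (h1 : μ < 1 / 2) (hρ0 : 0 ≤ ρ) (hρ1 : ρ < 1)
    (h : ∀ n, xx (lev d (-μ) n) ≤ 2 / 3 * ρ ^ n) :
    Tendsto (advantage d 3 (-μ)) atTop (𝓝 0) := by
  have hl1 : -(1 / 2) < -μ := by linarith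
  have hl2 : -μ < 1 := by linarith
  have hW := lev_wsig' (d := d) hl1 hl2
  apply advantage_tendsto_of_xx hW
  exact squeeze_zero (fun n => xx_nonneg (hW n)) h (tendsto_geom_bound hρ0 hρ1)

end Vale.Agent.Lib.P154
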