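import Vale.Agent.Lib.P154.NegMain

/-!
The recursion on Galton-Watson trees for a negative eigenvalue.
-/

noncomputable section

open Finset Filter Topology

namespace Vale.Agent.Lib.P154

section basic
variable {lam : ℝ}

theorem glev_wsig' (h0 : -(1 / 2) < lam) (h1 : lam < 1) : ∀ (n : ℕ) (T : GWTree n), WSig (glev lam n T)
  | 0, T => glev_zero_wsig lam T
  | n + 1, T => by
    rw [glev_succ]
    exact (piS_isSig fun c => chan_isSig' (glev_wsig' h0 h1 n _) h0 h1).toW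

theorem glev_succ_isSig' (h0 : -(1 / 2) < lam) (h1 : lam < 1) (n : ℕ) (T : GWTree (n + 1)) :
    IsSig (glev lam (n + 1) T) := by
  rw [glev_succ]
  exact piS_isSig fun c => chan_isSig' (glev_wsig' h0 h1 n _) h0 h1

theorem chan_glev_isSig' (h0 : -(1 / 2) < lam) (h1 : lam < 1) (n : ℕ) (T : GWTree n) :
    IsSig (chan lam (glev lam n T)) :=
  chan_isSig' (glev_wsig' h0 h1 n T) h0 h1

theorem sigK_isSig' (h0 : -(1 / 2) < lam) (h1 : lam < 1) (n k : ℕ) (ts : Fin k → GWTree n) :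
    IsSig (sigK lam n k ts) :=
  piS_isSig fun c => chan_isSig' (glev_wsig' h0 h1 n _) h0 h1

theorem bdd_xx_sigK' (h0 : -(1 / 2) < lam) (h1 : lam < 1) (n k : ℕ) :
    BddF (fun ts : Fin k → GWTree n => xx (sigK lam n k ts)) :=
  BddF.of_Icc (a := 0) (b := 2 / 3) fun ts =>
    ⟨xx_nonneg (sigK_isSig' h0 h1 n k ts).toW, xx_le_two_thirds (sigK_isSig' h0 h1 n k ts)⟩

theorem bdd_BB_sigK' (h0 : -(1 / 2) < lam) (h1 : lam < 1) (n k : ℕ) :
    BddF (fun ts : Fin k → GWTree n => BB (sigK lam n k ts)) :=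
  BddF.of_Icc (a := 0) (b := 1) fun ts =>
    ⟨BB_nonneg (sigK_isSig' h0 h1 n k ts), BB_le_one (sigK_isSig' h0 h1 n k ts).toW⟩

theorem bdd_cx' (h0 : -(1 / 2) < lam) (h1 : lam < 1) (n : ℕ) :
    BddF (fun T : GWTree n => xx (chan lam (glev lam n T))) :=
  BddF.of_Icc (a := 0) (b := 2 / 3) fun T =>
    ⟨xx_nonneg (chan_glev_isSig' h0 h1 n T).toW, xx_le_two_thirds (chan_glev_isSig' h0 h1 n T)⟩

theorem bdd_cB' (h0 : -(1 / 2) < lam) (h1 : lam < 1) (n : ℕ) :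
    BddF (fun T : GWTree n => BB (chan lam (glev lam n T))) :=
  BddF.of_Icc (a := 0) (b := 1) fun T =>
    ⟨BB_nonneg (chan_glev_isSig' h0 h1 n T), BB_le_one (chan_glev_isSig' h0 h1 n T).toW⟩

theorem bdd_xx_glev' (h0 : -(1 / 2) < lam) (h1 : lam < 1) (n : ℕ) :
    BddF (fun T : GWTree n => xx (glev lam n T)) :=
  BddF.of_Icc (a := 0) (b := 2 / 3) fun T =>
    ⟨xx_nonneg (glev_wsig' h0 h1 n T), xx_le_two_thirds' (glev_wsig' h0 h1 n T)⟩

end basic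

section bilinear
variable {X Y : Type} {w : X → ℝ} {v : Y → ℝ}

theorem BddF.mul_fun {Z : Type} {a b : Z → ℝ} (ha : BddF a) (hb : BddF b) : BddF (fun p => a p * b p) := by
  obtain ⟨C, hC⟩ := ha
  obtain ⟨D, hD⟩ := hb
  refine ⟨C * D, fun p => ?_⟩
  rw [abs_mul]
  exact mul_le_mul (hC p) (hD p) (abs_nonneg _) ((abs_nonneg _).trans (hC p))

/-- Mean of the bound for the chi-square functional. -/
theorem Ew_bilinN (hw : WProb w) (hv : WProb v) {g : X → ℝ} {f F : Y → ℝ} (hf : BddF f) (hF : BddF F)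
    (hg : BddF g) (a θ : ℝ) :
    Ew (fun p : X × Y => w p.1 * v p.2)
        (fun p => f p.2 + g p.1 - a * (f p.2 * g p.1) + θ * (g p.1 * F p.2))
      = Ew v f + Ew w g - a * (Ew v f * Ew w g) + θ * (Ew w g * Ew v F) := by
  have hu := hw.prod hv
  have bf : BddF (fun p : X × Y => f p.2) := by
    obtain ⟨C, hC⟩ := hf
    exact ⟨C, fun p => hC _⟩
  have bF : BddF (fun p : X × Y => F p.2) := by
    obtain ⟨C, hC⟩ := hF
    exact ⟨C, fun p => hC _⟩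
  have bg : BddF (fun p : X × Y => g p.1) := by
    obtain ⟨C, hC⟩ := hg
    exact ⟨C, fun p => hC _⟩
  have b1 := bf.mul_fun bg
  have b2 := bg.mul_fun bF
  rw [Ew_add hu ((bf.add bg).sub (b1.const_mul a)) (b2.const_mul θ),
    Ew_sub hu (bf.add bg) (b1.const_mul a), Ew_add hu bf bg, Ew_const_mul, Ew_const_mul,
    Ew_prod_snd hw hv hf, Ew_prod_fst hw hv hg, Ew_prod_mul hw hv hg hF]
  have e2 : Ew (fun p : X × Y => w p.1 * v p.2) (fun p => f p.2 * g p.1) = Ew w g * Ew v f := by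
    rw [← Ew_prod_mul hw hv hg hf]
    exact Ew_congr _ _ fun p => mul_comm _ _
  rw [e2]
  ring

end bilinear

section means
variable {μ μ₀ β θ : ℝ}

/-- Mean recursion for the chi-square functional. -/
theorem M_succ_neg (h0 : 0 < μ) (h1 : μ < 1 / 2) (hμ : μ ≤ μ₀) (hc : NegCert μ₀ β θ) {n : ℕ}
    {w : GWTree n → ℝ} (hw : WProb w) (k : ℕ) :
    Ew (wPow w (k + 1)) (fun ts => xx (sigK (-μ) n (k + 1) ts))
      ≤ Ew (wPow w k) (fun ts => xx (sigK (-μ) n k ts)) + Ew w (fun T => xx (chan (-μ) (glev (-μ) n T)))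
        - 3 / 2 * β * (Ew (wPow w k) (fun ts => xx (sigK (-μ) n k ts)) * Ew w (fun T => xx (chan (-μ) (glev (-μ) n T))))
        + θ * (Ew w (fun T => xx (chan (-μ) (glev (-μ) n T))) * Ew (wPow w k) (fun ts => BB (sigK (-μ) n k ts))) := by
  have hl0 : -(1 / 2) < -μ := by linarith
  have hl1 : -μ < 1 := by linarith
  have hμ₀ : 0 < μ₀ := by linarith
  have hk := hw.pow k
  have hle : ∀ ts : Fin (k + 1) → GWTree n, xx (sigK (-μ) n (k + 1) ts)
      ≤ xx (sigK (-μ) n k (fun c => ts c.succ)) + xx (chan (-μ) (glev (-μ) n (ts 0)))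
        - 3 / 2 * β * (xx (sigK (-μ) n k (fun c => ts c.succ)) * xx (chan (-μ) (glev (-μ) n (ts 0))))
        + θ * (xx (chan (-μ) (glev (-μ) n (ts 0))) * BB (sigK (-μ) n k (fun c => ts c.succ))) := by
    intro ts
    unfold sigK
    rw [xx_piS_succ, xx_prod_comm]
    have hS := chan_glev_isSig' hl0 hl1 n (ts 0)
    refine xx_prod_neg hμ₀ hc (sigK_isSig' hl0 hl1 n k (fun c => ts c.succ)) hS ?_
    refine (chan_capped (glev_wsig' hl0 hl1 n (ts 0)) h0.le).mono hμ fun t => ?_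
    have e0 := hS.pos t 0
    have e1 := hS.pos t 1
    have e2 := hS.pos t 2
    positivity
  have bx := bdd_cx' hl0 hl1 n
  have bM := bdd_xx_sigK' hl0 hl1 n k
  have bN := bdd_BB_sigK' hl0 hl1 n k
  have hbdd : BddF (fun ts : Fin (k + 1) → GWTree n =>
      xx (sigK (-μ) n k (fun c => ts c.succ)) + xx (chan (-μ) (glev (-μ) n (ts 0)))
        - 3 / 2 * β * (xx (sigK (-μ) n k (fun c => ts c.succ)) * xx (chan (-μ) (glev (-μ) n (ts 0))))
        + θ * (xx (chan (-μ) (glev (-μ) n (ts 0))) * BB (sigK (-μ) n k (fun c => ts c.succ)))) := by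
    have b1 : BddF (fun ts : Fin (k + 1) → GWTree n => xx (sigK (-μ) n k (fun c => ts c.succ))) := by
      obtain ⟨C, hC⟩ := bM
      exact ⟨C, fun ts => hC _⟩
    have b2 : BddF (fun ts : Fin (k + 1) → GWTree n => xx (chan (-μ) (glev (-μ) n (ts 0)))) := by
      obtain ⟨C, hC⟩ := bx
      exact ⟨C, fun ts => hC _⟩
    have b3 : BddF (fun ts : Fin (k + 1) → GWTree n => BB (sigK (-μ) n k (fun c => ts c.succ))) := by
      obtain ⟨C, hC⟩ := bN
      exact ⟨C, fun ts => hC _⟩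
    exact ((b1.add b2).sub ((b1.mul_fun b2).const_mul _)).add ((b2.mul_fun b3).const_mul _)
  have hm := Ew_mono (hw.pow (k + 1)) (bdd_xx_sigK' hl0 hl1 n (k + 1)) hbdd hle
  have hb := Ew_bilinN hw hk bM bN bx (3 / 2 * β) θ
  refine hm.trans ?_
  rw [Ew_pow_succ]
  exact le_of_eq hb

/-- Mean recursion for the third-moment functional. -/
theorem N_succ_neg (h0 : 0 < μ) (h1 : μ < 1 / 2) {n : ℕ} {w : GWTree n → ℝ} (hw : WProb w) (k : ℕ) :
    Ew (wPow w (k + 1)) (fun ts => BB (sigK (-μ) n (k + 1) ts))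
      ≤ Ew (wPow w k) (fun ts => BB (sigK (-μ) n k ts))
        + Ew w (fun T => BB (chan (-μ) (glev (-μ) n T)))
        - Ew (wPow w k) (fun ts => BB (sigK (-μ) n k ts)) * Ew w (fun T => BB (chan (-μ) (glev (-μ) n T))) := by
  have hl0 : -(1 / 2) < -μ := by linarith
  have hl1 : -μ < 1 := by linarith
  have hk := hw.pow k
  have hle : ∀ ts : Fin (k + 1) → GWTree n, BB (sigK (-μ) n (k + 1) ts)
      ≤ BB (chan (-μ) (glev (-μ) n (ts 0))) + BB (sigK (-μ) n k (fun c => ts c.succ))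
        - BB (chan (-μ) (glev (-μ) n (ts 0))) * BB (sigK (-μ) n k (fun c => ts c.succ)) := by
    intro ts
    unfold sigK
    rw [BB_piS_succ]
    exact BB_prod_le (chan_glev_isSig' hl0 hl1 n (ts 0)) (sigK_isSig' hl0 hl1 n k (fun c => ts c.succ))
  have hbdd : BddF (fun ts : Fin (k + 1) → GWTree n =>
      BB (chan (-μ) (glev (-μ) n (ts 0))) + BB (sigK (-μ) n k (fun c => ts c.succ))
        - BB (chan (-μ) (glev (-μ) n (ts 0))) * BB (sigK (-μ) n k (fun c => ts c.succ))) := by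
    refine BddF.of_Icc (a := -1) (b := 2) fun ts => ?_
    have a0 := BB_nonneg (chan_glev_isSig' hl0 hl1 n (ts 0))
    have a1 := BB_le_one (chan_glev_isSig' hl0 hl1 n (ts 0)).toW
    have b0 := BB_nonneg (sigK_isSig' hl0 hl1 n k (fun c => ts c.succ))
    have b1 := BB_le_one (sigK_isSig' hl0 hl1 n k (fun c => ts c.succ)).toW
    constructor <;> nlinarith
  have hm := Ew_mono (hw.pow (k + 1)) (bdd_BB_sigK' hl0 hl1 n (k + 1)) hbdd hle
  have hb := Ew_bilin2 hw hk (bdd_cB' hl0 hl1 n) (bdd_BB_sigK' hl0 hl1 n k)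
  refine hm.trans ?_
  rw [Ew_pow_succ]
  refine (Eq.trans rfl hb).trans_le (le_of_eq ?_)
  ring

theorem X_succ_eq' {p : ℕ → ℝ} {lam : ℝ} (hp : WProb p) (h0 : -(1 / 2) < lam) (h1 : lam < 1) (n : ℕ) :
    Ew (gwWeight p (n + 1)) (fun T => xx (glev lam (n + 1) T))
      = ∑' k, p k * Ew (wPow (gwWeight p n) k) (fun ts => xx (sigK lam n k ts)) := by
  have hb : BddF (fun T : GWTree (n + 1) => xx (glev lam (n + 1) T)) :=
    BddF.of_Icc (a := 0) (b := 2 / 3) fun T =>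
      ⟨xx_nonneg (glev_succ_isSig' h0 h1 n T).toW, xx_le_two_thirds (glev_succ_isSig' h0 h1 n T)⟩
  have := Ew_mix hp (gwWeight_wprob hp n) (F := fun T : GWTree (n + 1) => xx (glev lam (n + 1) T)) hb
  refine Eq.trans this ?_
  congr 1
  funext k
  congr 1
  refine Ew_congr _ _ fun ts => ?_
  exact xx_glev_succ lam n ⟨k, ts⟩

/-- The child means in terms of the level mean. -/
theorem child_x {p : ℕ → ℝ} (hμ0 : 0 < μ) (hμ1 : μ < 1 / 2) (n : ℕ) :
    Ew (gwWeight p n) (fun T => xx (chan (-μ) (glev (-μ) n T))) = μ ^ 2 * Xbar p (-μ) n := by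
  have hl0 : -(1 / 2) < -μ := by linarith
  have hl1 : -μ < 1 := by linarith
  unfold Xbar
  rw [← Ew_const_mul]
  refine Ew_congr _ _ fun T => ?_
  rw [xx_chan (glev_wsig' hl0 hl1 n T) (-μ)]
  ring

theorem child_b {p : ℕ → ℝ} (hp : WProb p) (hμ0 : 0 < μ) (hμ1 : μ < 1 / 2) (n : ℕ) :
    Ew (gwWeight p n) (fun T => BB (chan (-μ) (glev (-μ) n T))) ≤ 3 / (1 - μ) * (μ ^ 2 * Xbar p (-μ) n) := by
  have hl0 : -(1 / 2) < -μ := by linarith
  have hl1 : -μ < 1 := by linarith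
  have hw := gwWeight_wprob hp n
  rw [← child_x hμ0 hμ1 n, ← Ew_const_mul]
  refine Ew_mono hw (bdd_cB' hl0 hl1 n) ((bdd_cx' hl0 hl1 n).const_mul _) fun T => ?_
  exact BB_chan_neg (glev_wsig' hl0 hl1 n T) hμ0.le hμ1

theorem Xbar_nonneg {p : ℕ → ℝ} (hp : WProb p) (hμ0 : 0 < μ) (hμ1 : μ < 1 / 2) (n : ℕ) : 0 ≤ Xbar p (-μ) n := by
  have hl0 : -(1 / 2) < -μ := by linarith
  have hl1 : -μ < 1 := by linarith
  exact Ew_nonneg (gwWeight_wprob hp n) fun T => xx_nonneg (glev_wsig' hl0 hl1 n T)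

theorem Xbar_le {p : ℕ → ℝ} (hp : WProb p) (hμ0 : 0 < μ) (hμ1 : μ < 1 / 2) (n : ℕ) : Xbar p (-μ) n ≤ 2 / 3 := by
  have hl0 : -(1 / 2) < -μ := by linarith
  have hl1 : -μ < 1 := by linarith
  exact Ew_le_of_le (gwWeight_wprob hp n) (bdd_xx_glev' hl0 hl1 n) fun T => xx_le_two_thirds' (glev_wsig' hl0 hl1 n T)

/-- The critical step on a Galton-Watson tree. -/
theorem Xbar_step_crit {p : ℕ → ℝ} {d g : ℝ} (hp : WProb p) (hmean : HasSum (fun k : ℕ => (k : ℝ) * p k) d)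
    (hμ0 : 0 < μ) (hμ1 : μ < 1 / 2) (hμ : μ ≤ μ₀) (hμ₀1 : μ₀ ≤ 1 / 2) (hc : NegCert μ₀ β θ) (hθ : 0 ≤ θ) (hβ0 : 0 ≤ β)
    (hA : 3 / 2 * β * (2 / 3 * μ₀ ^ 2) ≤ 1) (hg : 0 ≤ g) (hβ : θ * (3 / (1 - μ₀)) + g ≤ 3 / 2 * β) (n : ℕ) :
    Xbar p (-μ) (n + 1) ≤ d * (μ ^ 2 * Xbar p (-μ) n) - (1 - p 0 - p 1) * (g * (μ ^ 2 * Xbar p (-μ) n) ^ 2) := by
  have hl0 : -(1 / 2) < -μ := by linarith
  have hl1 : -μ < 1 := by linarith
  have hw := gwWeight_wprob hp n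
  set X := Xbar p (-μ) n with hX
  have hX0 : 0 ≤ X := Xbar_nonneg hp hμ0 hμ1 n
  have hX1 : X ≤ 2 / 3 := Xbar_le hp hμ0 hμ1 n
  set y := Ew (gwWeight p n) (fun T => xx (chan (-μ) (glev (-μ) n T))) with hy
  have hye : y = μ ^ 2 * X := child_x hμ0 hμ1 n
  have hy0 : 0 ≤ y := by rw [hye]; positivity
  have hμ2 : μ ^ 2 ≤ μ₀ ^ 2 := by nlinarith
  have hy1 : y ≤ 2 / 3 * μ₀ ^ 2 := by
    have : μ ^ 2 * X ≤ μ₀ ^ 2 * (2 / 3) := mul_le_mul hμ2 hX1 hX0 (by positivity)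
    rw [hye]
    linarith
  have hu : 0 < 1 - μ₀ := by linarith
  have hb0 : 0 ≤ Ew (gwWeight p n) (fun T => BB (chan (-μ) (glev (-μ) n T))) :=
    Ew_nonneg hw fun T => BB_nonneg (chan_glev_isSig' hl0 hl1 n T)
  have hb' : Ew (gwWeight p n) (fun T => BB (chan (-μ) (glev (-μ) n T))) ≤ 3 / (1 - μ₀) * y := by
    have h2 := child_b hp hμ0 hμ1 n
    rw [← hX, ← hye] at h2
    refine h2.trans (mul_le_mul_of_nonneg_right ?_ hy0)
    exact div_le_div_of_nonneg_left (by norm_num) hu (by linarith)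
  have hat : 0 ≤ 1 - 3 / 2 * β * y := by
    have : 3 / 2 * β * y ≤ 3 / 2 * β * (2 / 3 * μ₀ ^ 2) := mul_le_mul_of_nonneg_left hy1 (by positivity)
    linarith
  have key : ∀ k : ℕ, Ew (wPow (gwWeight p n) k) (fun ts => xx (sigK (-μ) n k ts))
      ≤ k * y - if 2 ≤ k then g * y ^ 2 else 0 := fun k =>
    kfold_crit (M := fun k => Ew (wPow (gwWeight p n) k) (fun ts => xx (sigK (-μ) n k ts)))
      (N := fun k => Ew (wPow (gwWeight p n) k) (fun ts => BB (sigK (-μ) n k ts)))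
      (y := y) (b := Ew (gwWeight p n) (fun T => BB (chan (-μ) (glev (-μ) n T))))
      (a := 3 / 2 * β) (θ := θ) (c := 3 / (1 - μ₀)) (g := g)
      (le_of_eq (M_zero hw)) (le_of_eq (N_zero hw))
      (fun k => Ew_nonneg (hw.pow k) fun ts => BB_nonneg (sigK_isSig' hl0 hl1 n k ts))
      (fun k => by
        have := M_succ_neg hμ0 hμ1 hμ hc hw k
        simpa only [mul_assoc] using this)
      (fun k => N_succ_neg hμ0 hμ1 hw k) hb0 hb' hy0 hθ hat hβ hg k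
  have hbdM : ∃ C : ℝ, ∀ k, |Ew (wPow (gwWeight p n) k) (fun ts => xx (sigK (-μ) n k ts))| ≤ C := by
    refine ⟨2 / 3, fun k => ?_⟩
    rw [abs_le]
    constructor
    · have := Ew_nonneg (w := wPow (gwWeight p n) k) (f := fun ts => xx (sigK (-μ) n k ts)) (hw.pow k)
        fun ts => xx_nonneg (sigK_isSig' hl0 hl1 n k ts).toW
      linarith
    · exact Ew_le_of_le (hw.pow k) (bdd_xx_sigK' hl0 hl1 n k) fun ts => xx_le_two_thirds (sigK_isSig' hl0 hl1 n k ts)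
  unfold Xbar
  rw [X_succ_eq' hp hl0 hl1 n]
  have := mix_bound hp hmean hbdM (A := y) (B := g * y ^ 2) key
  rw [hye] at this
  exact this

/-- Critical nonreconstruction: functional. -/
theorem Xbar_tendsto_crit {p : ℕ → ℝ} {d g : ℝ} (hp : WProb p) (hmean : HasSum (fun k : ℕ => (k : ℝ) * p k) d)
    (hp2 : 0 < 1 - p 0 - p 1) (hμ0 : 0 < μ) (hμ1 : μ < 1 / 2) (hμ : μ ≤ μ₀) (hμ₀1 : μ₀ ≤ 1 / 2)
    (hc : NegCert μ₀ β θ) (hθ : 0 ≤ θ) (hβ0 : 0 ≤ β)
    (hA : 3 / 2 * β * (2 / 3 * μ₀ ^ 2) ≤ 1) (hg : 0 < g) (hβ : θ * (3 / (1 - μ₀)) + g ≤ 3 / 2 * β)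
    (hKS : d * μ ^ 2 ≤ 1) :
    Tendsto (Xbar p (-μ)) atTop (𝓝 0) := by
  have hcc : 0 < (1 - p 0 - p 1) * g * μ ^ 4 := by positivity
  refine tendsto_of_quad hcc (fun n => Xbar_nonneg hp hμ0 hμ1 n) (fun n => ?_)
  have h1 := Xbar_step_crit hp hmean hμ0 hμ1 hμ hμ₀1 hc hθ hβ0 hA hg.le hβ n
  have hX0 := Xbar_nonneg hp hμ0 hμ1 n
  have h2 := mul_le_mul_of_nonneg_right hKS hX0
  nlinarith

end means

/-! ### From the functional to the advantage -/

theorem bdd_adv' {lam : ℝ} (h0 : -(1 / 2) < lam) (h1 : lam < 1) (n : ℕ) :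
    BddF (fun T : GWTree n => gwTreeAdvantage 3 lam n T) := by
  refine BddF.of_Icc (a := 0) (b := 3 / 4 + (2 / 3) / 4) fun T => ⟨gwTreeAdvantage_nonneg (glev_wsig' h0 h1 n T), ?_⟩
  have := gwTreeAdvantage_le (glev_wsig' h0 h1 n T) 1 one_pos
  have h2 := xx_le_two_thirds' (glev_wsig' h0 h1 n T)
  norm_num at this ⊢
  linarith

theorem gwAdvantage_le' {p : ℕ → ℝ} {lam : ℝ} (hp : WProb p) (h0 : -(1 / 2) < lam) (h1 : lam < 1) (n : ℕ)
    (δ : ℝ) (hδ : 0 < δ) :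
    gwAdvantage p 3 lam n ≤ 3 * δ / 4 + Xbar p lam n / (4 * δ) := by
  have hw := gwWeight_wprob hp n
  have hbd : BddF (fun T : GWTree n => 3 * δ / 4 + (1 / (4 * δ)) * xx (glev lam n T)) :=
    (BddF.of_Icc (a := 3 * δ / 4) (b := 3 * δ / 4) fun _ => ⟨le_rfl, le_rfl⟩).add
      ((bdd_xx_glev' h0 h1 n).const_mul _)
  have := Ew_mono hw (bdd_adv' h0 h1 n) hbd (fun T => by
    have := gwTreeAdvantage_le (glev_wsig' h0 h1 n T) δ hδ
    refine this.trans_eq ?_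
    ring)
  rw [Ew_add hw (BddF.of_Icc (a := 3 * δ / 4) (b := 3 * δ / 4) fun _ => ⟨le_rfl, le_rfl⟩)
    ((bdd_xx_glev' h0 h1 n).const_mul _), Ew_const hw, Ew_const_mul] at this
  unfold Xbar
  refine le_trans this (le_of_eq ?_)
  ring

/-- From the functional to the advantage. -/
theorem gwAdvantage_of_Xbar {p : ℕ → ℝ} {lam : ℝ} (hp : WProb p) (h0 : -(1 / 2) < lam) (h1 : lam < 1)
    (hX : Tendsto (Xbar p lam) atTop (𝓝 0)) :
    (∀ n, Summable (fun T : GWTree n => gwWeight p n T * gwTreeAdvantage 3 lam n T))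
      ∧ Tendsto (gwAdvantage p 3 lam) atTop (𝓝 0) := by
  refine ⟨fun n => (gwWeight_wprob hp n).summable_mul (bdd_adv' h0 h1 n), ?_⟩
  rw [Metric.tendsto_atTop]
  intro ε hε
  have hev := (tendsto_order.1 hX).2 (ε ^ 2) (by positivity)
  obtain ⟨N, hN⟩ := Filter.eventually_atTop.1 hev
  refine ⟨N, fun n hn => ?_⟩
  have h4 := hN n hn
  have h5 := gwAdvantage_le' hp h0 h1 n (ε / 2) (by positivity)
  have h2 : 0 ≤ gwAdvantage p 3 lam n := by
    unfold gwAdvantage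
    exact tsum_nonneg fun T => mul_nonneg ((gwWeight_wprob hp n).nonneg T)
      (gwTreeAdvantage_nonneg (glev_wsig' h0 h1 n T))
  have h6 : Xbar p lam n / (4 * (ε / 2)) < ε / 2 := by
    rw [div_lt_iff₀ (by positivity)]
    nlinarith
  rw [Real.dist_eq, sub_zero, abs_of_nonneg h2]
  nlinarith

/-- The critical theorem on Galton-Watson trees. -/
theorem gw_crit {p : ℕ → ℝ} {d μ : ℝ} (hp : WProb p) (hmean : HasSum (fun k : ℕ => (k : ℝ) * p k) d)
    (hp2 : 0 < 1 - p 0 - p 1) (hμ0 : 0 < μ) (hμ : μ ≤ 9 / 50) (hKS : d * μ ^ 2 ≤ 1) :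
    (∀ n, Summable (fun T : GWTree n => gwWeight p n T * gwTreeAdvantage 3 (-μ) n T))
      ∧ Tendsto (gwAdvantage p 3 (-μ)) atTop (𝓝 0) := by
  have hl0 : -(1 / 2) < -μ := by linarith
  have hl1 : -μ < 1 := by linarith
  apply gwAdvantage_of_Xbar hp hl0 hl1
  exact Xbar_tendsto_crit (μ₀ := ((9 : ℕ) : ℝ) / (50 : ℕ)) (β := ((1661 : ℕ) : ℝ) / (1000 : ℕ))
    (θ := ((17 : ℕ) : ℝ) / (25 : ℕ)) (g := 3 / 1000) hp hmean hp2 hμ0 (by linarith) (by norm_num; linarith) (by norm_num)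
    negCert_crit (by positivity) (by positivity) (by norm_num) (by norm_num) (by norm_num) hKS

end Vale.Agent.Lib.P154
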