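import Vale.Agent.Lib.P154.NegRegCerts

/-!
The main theorem on `d`-ary trees for a negative eigenvalue.
-/

noncomputable section

open Filter Topology

namespace Vale.Agent.Lib.P154

open Vale.Agent.Lib.Common.Kron

theorem negCert_crit : NegCert ((9 : ℕ) / (50 : ℕ)) ((1661 : ℕ) / (1000 : ℕ)) ((17 : ℕ) / (25 : ℕ)) :=
  negCert_of_check (mn := 9) (md := 50) (bn := 1661) (bd := 1000) (tn := 17) (td := 25) (D1 := 6) (D2 := 8)
    (k := 145) (rad := [14, 14, 14, 14]) (by norm_num) (by norm_num) (by norm_num) (by decide +kernel)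

/-- Exact Kesten-Stigum bound for `d ≥ 31`. -/
theorem reg_crit {d : ℕ} (hd : 2 ≤ d) {μ : ℝ} (h0 : 0 < μ) (h1 : μ ≤ 9 / 50) (hKS : (d : ℝ) * μ ^ 2 ≤ 1) :
    Tendsto (advantage d 3 (-μ)) atTop (𝓝 0) := by
  have hc := negCert_crit
  refine advantage_tendsto_crit (μ₀ := ((9 : ℕ) : ℝ) / (50 : ℕ)) (β := ((1661 : ℕ) : ℝ) / (1000 : ℕ))
    (θ := ((17 : ℕ) : ℝ) / (25 : ℕ)) (g := 3 / 1000) hd h0 (by norm_num; linarith) (by norm_num) hc (by positivity)
    (by norm_num) (by positivity) (by norm_num) (by norm_num) hKS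

theorem reg_le {a b : ℝ} {μ : ℝ} (h0 : 0 < μ) (hb : 0 ≤ b) (ha : 0 < a)
    (h : a * μ ^ 2 ≤ 1 - 3 / a ^ 2) (hab : 1 - 3 / a ^ 2 ≤ a * b ^ 2) : μ ≤ b := by
  by_contra hlt
  push Not at hlt
  have : b ^ 2 < μ ^ 2 := by nlinarith
  have := mul_lt_mul_of_pos_left this ha
  linarith

/-- Main theorem on the `d`-ary tree for `λ < 0`. -/
theorem reg_main (d : ℕ) (hd : 2 ≤ d) (lam : ℝ) (h0 : -(1 / 2) ≤ lam) (h1 : lam < 0)
    (hc : d ≤ 3 ∨ (d : ℝ) * lam ^ 2 ≤ 1 - 3 / (d : ℝ) ^ 2 ∨ (31 ≤ d ∧ (d : ℝ) * lam ^ 2 ≤ 1)) :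
    Tendsto (advantage d 3 lam) atTop (𝓝 0) := by
  obtain ⟨μ, rfl⟩ : ∃ μ, lam = -μ := ⟨-lam, by ring⟩
  have hμ0 : 0 < μ := by linarith
  have hμ1 : μ ≤ 1 / 2 := by linarith
  have hsq : (-μ) ^ 2 = μ ^ 2 := by ring
  rw [hsq] at hc
  -- the case of small `d`
  by_cases hd3 : d ≤ 3
  · have hdc : d = 2 ∨ d = 3 := by omega
    rcases hμ1.eq_or_lt with hhalf | hlt
    · rw [hhalf]
      rcases hdc with rfl | rfl
      · refine advantage_neg_half (B := fun n => 2 / 3 * ((((1 : ℕ) : ℝ) / (2 : ℕ)) ^ 2 * (((16 : ℕ) : ℝ) / (5 : ℕ))) ^ n)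
          (tendsto_geom_bound (by positivity) (by norm_num)) ?_
        intro ν hν0 hν1 n
        exact reg_2_geom hν0 (by norm_num; linarith) hν1 n
      · refine advantage_neg_half (B := fun n => 2 / 3 * ((((1 : ℕ) : ℝ) / (2 : ℕ)) ^ 2 * (((19 : ℕ) : ℝ) / (5 : ℕ))) ^ n)
          (tendsto_geom_bound (by positivity) (by norm_num)) ?_
        intro ν hν0 hν1 n
        exact reg_3_geom hν0 (by norm_num; linarith) hν1 n
    · rcases hdc with rfl | rfl
      · exact reg_2 hμ0 (by norm_num; linarith) hlt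
      · exact reg_3 hμ0 (by norm_num; linarith) hlt
  · have hd4 : 4 ≤ d := by omega
    have hd4' : (4 : ℝ) ≤ d := by exact_mod_cast hd4
    by_cases hd31 : 31 ≤ d
    · -- exact Kesten-Stigum
      have hKS : (d : ℝ) * μ ^ 2 ≤ 1 := by
        rcases hc with hc | hc | hc
        · omega
        · have : 0 ≤ 3 / (d : ℝ) ^ 2 := by positivity
          linarith
        · exact hc.2
      have h31 : (31 : ℝ) ≤ d := by exact_mod_cast hd31
      have hμ2 : μ ≤ 9 / 50 := by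
        by_contra hlt
        push Not at hlt
        have h2 : (9 / 50 : ℝ) ^ 2 < μ ^ 2 := by nlinarith
        nlinarith
      exact reg_crit hd hμ0 hμ2 hKS
    · have hc2 : (d : ℝ) * μ ^ 2 ≤ 1 - 3 / (d : ℝ) ^ 2 := by
        rcases hc with hc | hc | hc
        · omega
        · exact hc
        · omega
      have hd30 : d ≤ 30 := by omega
      clear hc hd31 hd3
      interval_cases d
      · exact reg_4 hμ0 (reg_le (a := 4) hμ0 (by norm_num) (by norm_num) (by exact_mod_cast hc2) (by norm_num)) (by linarith [reg_le (a := 4) (b := ((4507 : ℕ) : ℝ) / (10000 : ℕ)) hμ0 (by norm_num) (by norm_num) (by exact_mod_cast hc2) (by norm_num), (by norm_num : ((4507 : ℕ) : ℝ) / (10000 : ℕ) < 1 / 2)])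
      · exact reg_5 hμ0 (reg_le (a := 5) hμ0 (by norm_num) (by norm_num) (by exact_mod_cast hc2) (by norm_num)) (by linarith [reg_le (a := 5) (b := ((1049 : ℕ) : ℝ) / (2500 : ℕ)) hμ0 (by norm_num) (by norm_num) (by exact_mod_cast hc2) (by norm_num), (by norm_num : ((1049 : ℕ) : ℝ) / (2500 : ℕ) < 1 / 2)])
      · exact reg_6 hμ0 (reg_le (a := 6) hμ0 (by norm_num) (by norm_num) (by exact_mod_cast hc2) (by norm_num)) (by linarith [reg_le (a := 6) (b := ((3909 : ℕ) : ℝ) / (10000 : ℕ)) hμ0 (by norm_num) (by norm_num) (by exact_mod_cast hc2) (by norm_num), (by norm_num : ((3909 : ℕ) : ℝ) / (10000 : ℕ) < 1 / 2)])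
      · exact reg_7 hμ0 (reg_le (a := 7) hμ0 (by norm_num) (by norm_num) (by exact_mod_cast hc2) (by norm_num)) (by linarith [reg_le (a := 7) (b := ((3663 : ℕ) : ℝ) / (10000 : ℕ)) hμ0 (by norm_num) (by norm_num) (by exact_mod_cast hc2) (by norm_num), (by norm_num : ((3663 : ℕ) : ℝ) / (10000 : ℕ) < 1 / 2)])
      · exact reg_8 hμ0 (reg_le (a := 8) hμ0 (by norm_num) (by norm_num) (by exact_mod_cast hc2) (by norm_num)) (by linarith [reg_le (a := 8) (b := ((863 : ℕ) : ℝ) / (2500 : ℕ)) hμ0 (by norm_num) (by norm_num) (by exact_mod_cast hc2) (by norm_num), (by norm_num : ((863 : ℕ) : ℝ) / (2500 : ℕ) < 1 / 2)])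
      · exact reg_9 hμ0 (reg_le (a := 9) hμ0 (by norm_num) (by norm_num) (by exact_mod_cast hc2) (by norm_num)) (by linarith [reg_le (a := 9) (b := ((409 : ℕ) : ℝ) / (1250 : ℕ)) hμ0 (by norm_num) (by norm_num) (by exact_mod_cast hc2) (by norm_num), (by norm_num : ((409 : ℕ) : ℝ) / (1250 : ℕ) < 1 / 2)])
      · exact reg_10 hμ0 (reg_le (a := 10) hμ0 (by norm_num) (by norm_num) (by exact_mod_cast hc2) (by norm_num)) (by linarith [reg_le (a := 10) (b := ((623 : ℕ) : ℝ) / (2000 : ℕ)) hμ0 (by norm_num) (by norm_num) (by exact_mod_cast hc2) (by norm_num), (by norm_num : ((623 : ℕ) : ℝ) / (2000 : ℕ) < 1 / 2)])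
      · exact reg_11 hμ0 (reg_le (a := 11) hμ0 (by norm_num) (by norm_num) (by exact_mod_cast hc2) (by norm_num)) (by linarith [reg_le (a := 11) (b := ((1489 : ℕ) : ℝ) / (5000 : ℕ)) hμ0 (by norm_num) (by norm_num) (by exact_mod_cast hc2) (by norm_num), (by norm_num : ((1489 : ℕ) : ℝ) / (5000 : ℕ) < 1 / 2)])
      · exact reg_12 hμ0 (reg_le (a := 12) hμ0 (by norm_num) (by norm_num) (by exact_mod_cast hc2) (by norm_num)) (by linarith [reg_le (a := 12) (b := ((2857 : ℕ) : ℝ) / (10000 : ℕ)) hμ0 (by norm_num) (by norm_num) (by exact_mod_cast hc2) (by norm_num), (by norm_num : ((2857 : ℕ) : ℝ) / (10000 : ℕ) < 1 / 2)])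
      · exact reg_13 hμ0 (reg_le (a := 13) hμ0 (by norm_num) (by norm_num) (by exact_mod_cast hc2) (by norm_num)) (by linarith [reg_le (a := 13) (b := ((2749 : ℕ) : ℝ) / (10000 : ℕ)) hμ0 (by norm_num) (by norm_num) (by exact_mod_cast hc2) (by norm_num), (by norm_num : ((2749 : ℕ) : ℝ) / (10000 : ℕ) < 1 / 2)])
      · exact reg_14 hμ0 (reg_le (a := 14) hμ0 (by norm_num) (by norm_num) (by exact_mod_cast hc2) (by norm_num)) (by linarith [reg_le (a := 14) (b := ((2653 : ℕ) : ℝ) / (10000 : ℕ)) hμ0 (by norm_num) (by norm_num) (by exact_mod_cast hc2) (by norm_num), (by norm_num : ((2653 : ℕ) : ℝ) / (10000 : ℕ) < 1 / 2)])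
      · exact reg_15 hμ0 (reg_le (a := 15) hμ0 (by norm_num) (by norm_num) (by exact_mod_cast hc2) (by norm_num)) (by linarith [reg_le (a := 15) (b := ((513 : ℕ) : ℝ) / (2000 : ℕ)) hμ0 (by norm_num) (by norm_num) (by exact_mod_cast hc2) (by norm_num), (by norm_num : ((513 : ℕ) : ℝ) / (2000 : ℕ) < 1 / 2)])
      · exact reg_16 hμ0 (reg_le (a := 16) hμ0 (by norm_num) (by norm_num) (by exact_mod_cast hc2) (by norm_num)) (by linarith [reg_le (a := 16) (b := ((1243 : ℕ) : ℝ) / (5000 : ℕ)) hμ0 (by norm_num) (by norm_num) (by exact_mod_cast hc2) (by norm_num), (by norm_num : ((1243 : ℕ) : ℝ) / (5000 : ℕ) < 1 / 2)])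
      · exact reg_17 hμ0 (reg_le (a := 17) hμ0 (by norm_num) (by norm_num) (by exact_mod_cast hc2) (by norm_num)) (by linarith [reg_le (a := 17) (b := ((2413 : ℕ) : ℝ) / (10000 : ℕ)) hμ0 (by norm_num) (by norm_num) (by exact_mod_cast hc2) (by norm_num), (by norm_num : ((2413 : ℕ) : ℝ) / (10000 : ℕ) < 1 / 2)])
      · exact reg_18 hμ0 (reg_le (a := 18) hμ0 (by norm_num) (by norm_num) (by exact_mod_cast hc2) (by norm_num)) (by linarith [reg_le (a := 18) (b := ((2347 : ℕ) : ℝ) / (10000 : ℕ)) hμ0 (by norm_num) (by norm_num) (by exact_mod_cast hc2) (by norm_num), (by norm_num : ((2347 : ℕ) : ℝ) / (10000 : ℕ) < 1 / 2)])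
      · exact reg_19 hμ0 (reg_le (a := 19) hμ0 (by norm_num) (by norm_num) (by exact_mod_cast hc2) (by norm_num)) (by linarith [reg_le (a := 19) (b := ((457 : ℕ) : ℝ) / (2000 : ℕ)) hμ0 (by norm_num) (by norm_num) (by exact_mod_cast hc2) (by norm_num), (by norm_num : ((457 : ℕ) : ℝ) / (2000 : ℕ) < 1 / 2)])
      · exact reg_20 hμ0 (reg_le (a := 20) hμ0 (by norm_num) (by norm_num) (by exact_mod_cast hc2) (by norm_num)) (by linarith [reg_le (a := 20) (b := ((557 : ℕ) : ℝ) / (2500 : ℕ)) hμ0 (by norm_num) (by norm_num) (by exact_mod_cast hc2) (by norm_num), (by norm_num : ((557 : ℕ) : ℝ) / (2500 : ℕ) < 1 / 2)])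
      · exact reg_21 hμ0 (reg_le (a := 21) hμ0 (by norm_num) (by norm_num) (by exact_mod_cast hc2) (by norm_num)) (by linarith [reg_le (a := 21) (b := ((87 : ℕ) : ℝ) / (400 : ℕ)) hμ0 (by norm_num) (by norm_num) (by exact_mod_cast hc2) (by norm_num), (by norm_num : ((87 : ℕ) : ℝ) / (400 : ℕ) < 1 / 2)])
      · exact reg_22 hμ0 (reg_le (a := 22) hμ0 (by norm_num) (by norm_num) (by exact_mod_cast hc2) (by norm_num)) (by linarith [reg_le (a := 22) (b := ((1063 : ℕ) : ℝ) / (5000 : ℕ)) hμ0 (by norm_num) (by norm_num) (by exact_mod_cast hc2) (by norm_num), (by norm_num : ((1063 : ℕ) : ℝ) / (5000 : ℕ) < 1 / 2)])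
      · exact reg_23 hμ0 (reg_le (a := 23) hμ0 (by norm_num) (by norm_num) (by exact_mod_cast hc2) (by norm_num)) (by linarith [reg_le (a := 23) (b := ((26 : ℕ) : ℝ) / (125 : ℕ)) hμ0 (by norm_num) (by norm_num) (by exact_mod_cast hc2) (by norm_num), (by norm_num : ((26 : ℕ) : ℝ) / (125 : ℕ) < 1 / 2)])
      · exact reg_24 hμ0 (reg_le (a := 24) hμ0 (by norm_num) (by norm_num) (by exact_mod_cast hc2) (by norm_num)) (by linarith [reg_le (a := 24) (b := ((509 : ℕ) : ℝ) / (2500 : ℕ)) hμ0 (by norm_num) (by norm_num) (by exact_mod_cast hc2) (by norm_num), (by norm_num : ((509 : ℕ) : ℝ) / (2500 : ℕ) < 1 / 2)])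
      · exact reg_25 hμ0 (reg_le (a := 25) hμ0 (by norm_num) (by norm_num) (by exact_mod_cast hc2) (by norm_num)) (by linarith [reg_le (a := 25) (b := ((499 : ℕ) : ℝ) / (2500 : ℕ)) hμ0 (by norm_num) (by norm_num) (by exact_mod_cast hc2) (by norm_num), (by norm_num : ((499 : ℕ) : ℝ) / (2500 : ℕ) < 1 / 2)])
      · exact reg_26 hμ0 (reg_le (a := 26) hμ0 (by norm_num) (by norm_num) (by exact_mod_cast hc2) (by norm_num)) (by linarith [reg_le (a := 26) (b := ((1957 : ℕ) : ℝ) / (10000 : ℕ)) hμ0 (by norm_num) (by norm_num) (by exact_mod_cast hc2) (by norm_num), (by norm_num : ((1957 : ℕ) : ℝ) / (10000 : ℕ) < 1 / 2)])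
      · exact reg_27 hμ0 (reg_le (a := 27) hμ0 (by norm_num) (by norm_num) (by exact_mod_cast hc2) (by norm_num)) (by linarith [reg_le (a := 27) (b := ((1921 : ℕ) : ℝ) / (10000 : ℕ)) hμ0 (by norm_num) (by norm_num) (by exact_mod_cast hc2) (by norm_num), (by norm_num : ((1921 : ℕ) : ℝ) / (10000 : ℕ) < 1 / 2)])
      · exact reg_28 hμ0 (reg_le (a := 28) hμ0 (by norm_num) (by norm_num) (by exact_mod_cast hc2) (by norm_num)) (by linarith [reg_le (a := 28) (b := ((1887 : ℕ) : ℝ) / (10000 : ℕ)) hμ0 (by norm_num) (by norm_num) (by exact_mod_cast hc2) (by norm_num), (by norm_num : ((1887 : ℕ) : ℝ) / (10000 : ℕ) < 1 / 2)])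
      · exact reg_29 hμ0 (reg_le (a := 29) hμ0 (by norm_num) (by norm_num) (by exact_mod_cast hc2) (by norm_num)) (by linarith [reg_le (a := 29) (b := ((927 : ℕ) : ℝ) / (5000 : ℕ)) hμ0 (by norm_num) (by norm_num) (by exact_mod_cast hc2) (by norm_num), (by norm_num : ((927 : ℕ) : ℝ) / (5000 : ℕ) < 1 / 2)])
      · exact reg_30 hμ0 (reg_le (a := 30) hμ0 (by norm_num) (by norm_num) (by exact_mod_cast hc2) (by norm_num)) (by linarith [reg_le (a := 30) (b := ((1823 : ℕ) : ℝ) / (10000 : ℕ)) hμ0 (by norm_num) (by norm_num) (by exact_mod_cast hc2) (by norm_num), (by norm_num : ((1823 : ℕ) : ℝ) / (10000 : ℕ) < 1 / 2)])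

end Vale.Agent.Lib.P154
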