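import Vale.Agent.Lib.P154.NegPoly

/-!
Pointwise and signal-level inequalities for the recursion with a negative eigenvalue.
-/

noncomputable section

open Finset

namespace Vale.Agent.Lib.P154

/-- A normalised point all of whose coordinates are at most `(1 + μ) / 3` lies in the
scaled inverted triangle. -/
theorem chamber_capped (p q r μ : ℝ) (hμ : 0 < μ) (hp : p ≤ (1 + μ) / 3) (hq : q ≤ (1 + μ) / 3)
    (hr : r ≤ (1 + μ) / 3) (hs : p + q + r = 1) :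
    ∃ s0 s1 s2 : ℝ, 0 ≤ s0 ∧ 0 ≤ s1 ∧ 0 ≤ s2 ∧ s0 + s1 + s2 = 1 ∧
      A3 p q r = μ ^ 2 * achi s1 s2 ∧ C3 p q r = -(μ ^ 3) * cchi s1 s2 := by
  set a := ((1 + μ) / 3 - p) / μ with ha
  set b := ((1 + μ) / 3 - q) / μ with hb
  set c := ((1 + μ) / 3 - r) / μ with hc
  have ha0 : 0 ≤ a := div_nonneg (by linarith) hμ.le
  have hb0 : 0 ≤ b := div_nonneg (by linarith) hμ.le
  have hc0 : 0 ≤ c := div_nonneg (by linarith) hμ.le
  have hsum : a + b + c = 1 := by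
    rw [ha, hb, hc]
    field_simp
    linarith
  have ep : p = -μ * a + (1 - -μ) / 3 * (a + b + c) := by
    rw [hsum, ha]
    field_simp
    ring
  have eq : q = -μ * b + (1 - -μ) / 3 * (a + b + c) := by
    rw [hsum, hb]
    field_simp
    ring
  have er : r = -μ * c + (1 - -μ) / 3 * (a + b + c) := by
    rw [hsum, hc]
    field_simp
    ring
  obtain ⟨s0, s1, s2, h0, h1, h2, hss, hA, hC⟩ := chamber a b c ha0 hb0 hc0 hsum
  refine ⟨s0, s1, s2, h0, h1, h2, hss, ?_, ?_⟩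
  · rw [ep, eq, er, A3_chan _ _ _ _ hsum, hA]
    ring
  · rw [ep, eq, er, C3_chan _ _ _ _ hsum, hC]
    ring

/-- The invariant `v` in terms of `Z`. -/
theorem coreN (a b c p q r μ β θ : ℝ) (hμ : 0 < μ) (hc : NegCert μ β θ) (ha : 0 < a) (hb : 0 < b) (hcc : 0 < c)
    (hp : 0 < p) (hq : 0 < q) (hr : 0 < r) (hs : a + b + c = 1) (hs' : p + q + r = 1)
    (hp1 : p ≤ (1 + μ) / 3) (hq1 : q ≤ (1 + μ) / 3) (hr1 : r ≤ (1 + μ) / 3) :
    six F3 a b c p q r ≤ 2 - (4 / 3) * (1 - A3 a b c - A3 p q r + β * A3 a b c * A3 p q r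
      - θ * A3 p q r * (1 - 9 * K3 a b c)) := by
  obtain ⟨t0, t1, t2, h0, h1, h2, hst, hA, hC⟩ := chamber a b c ha.le hb.le hcc.le hs
  obtain ⟨s0, s1, s2, k0, k1, k2, hss, hA', hC'⟩ := chamber_capped p q r μ hμ hp1 hq1 hr1 hs'
  have hR := hc t0 t1 t2 s0 s1 s2 h0 h1 h2 hst k0 k1 k2 hss
  rw [← hA, ← hC, ← hA', ← hC'] at hR
  have h1A : A3 a b c < 1 := A3_lt_one ha hb hcc
  have hpos : 0 < a * b + b * c + c * a := by positivity
  have hk := one_sub_nineK a b c hs hpos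
  rw [hk]
  apply core_norm a b c p q r _ ha hb hcc hp hq hr hs hs'
  set A1 := A3 a b c
  set C1 := C3 a b c
  set A2 := A3 p q r
  set C2 := C3 p q r
  have hu : 0 < 1 - A1 := by linarith
  unfold polyRn polyZn at hR
  have e : (1 - A1) * (1 - A1 - A2 + β * A1 * A2) - θ * A2 * (2 * A1 - C1)
      = (1 - A1) * (1 - A1 - A2 + β * A1 * A2 - θ * A2 * ((2 * A1 - C1) / (1 - A1))) := by
    field_simp
  rw [e] at hR
  have h3 : (1 - A1) * ((1 - A1 - A2 + β * A1 * A2 - θ * A2 * ((2 * A1 - C1) / (1 - A1))) * polyX A1 C1 A2 C2)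
      ≤ (1 - A1) * polyJ A1 C1 A2 C2 := by
    nlinarith [hR]
  exact le_of_mul_le_mul_left h3 hu

/-- Homogeneous form. -/
theorem homN (a b c p q r μ β θ : ℝ) (hμ : 0 < μ) (hc : NegCert μ β θ) (ha : 0 < a) (hb : 0 < b) (hcc : 0 < c)
    (hp : 0 < p) (hq : 0 < q) (hr : 0 < r)
    (hp1 : p ≤ (1 + μ) / 3 * (p + q + r)) (hq1 : q ≤ (1 + μ) / 3 * (p + q + r))
    (hr1 : r ≤ (1 + μ) / 3 * (p + q + r)) :
    six F3 a b c p q r
      ≤ 2 / 3 * (a + b + c) * (p + q + r) + 2 * (p + q + r) * fN a b c + 2 * (a + b + c) * fN p q r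
        - 3 * β * (fN a b c * fN p q r) + 2 * θ * (fN p q r * ((a + b + c) - 9 * K3 a b c)) := by
  obtain ⟨N, a', b', c', hN0, hNe, ha', hb', hc', hs, rfl, rfl, rfl⟩ := norm_coord a b c ha hb hcc
  obtain ⟨M, p', q', r', hM, hMe, hp', hq', hr', hs', hpe, hqe, hre⟩ := norm_coord p q r hp hq hr
  subst hpe hqe hre
  have e1 : N * a' + N * b' + N * c' = N := by rw [← mul_add, ← mul_add, hs, mul_one]
  have e2 : M * p' + M * q' + M * r' = M := by rw [← mul_add, ← mul_add, hs', mul_one]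
  rw [e2] at hp1 hq1 hr1
  have hp1' : p' ≤ (1 + μ) / 3 := by
    have : M * p' ≤ M * ((1 + μ) / 3) := by linarith
    exact le_of_mul_le_mul_left this hM
  have hq1' : q' ≤ (1 + μ) / 3 := by
    have : M * q' ≤ M * ((1 + μ) / 3) := by linarith
    exact le_of_mul_le_mul_left this hM
  have hr1' : r' ≤ (1 + μ) / 3 := by
    have : M * r' ≤ M * ((1 + μ) / 3) := by linarith
    exact le_of_mul_le_mul_left this hM
  have hcore := coreN a' b' c' p' q' r' μ β θ hμ hc ha' hb' hc' hp' hq' hr' hs hs' hp1' hq1' hr1'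
  rw [six_smul F3 (fun k x y z hk => F3_smul k x y z hk) N M _ _ _ _ _ _ hN0.ne' hM.ne']
  have hN1 : fN (N * a') (N * b') (N * c') = N * ((2 / 3) * A3 a' b' c') := by
    unfold fN
    rw [F3_smul N _ _ _ hN0.ne', e1, F3_eq_of_sum _ _ _ hs]; ring
  have hN2 : fN (M * p') (M * q') (M * r') = M * ((2 / 3) * A3 p' q' r') := by
    unfold fN
    rw [F3_smul M _ _ _ hM.ne', e2, F3_eq_of_sum _ _ _ hs']; ring
  rw [hN1, hN2, K3_smul N _ _ _ hN0.ne', e1, e2]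
  have hNM : 0 < N * M := mul_pos hN0 hM
  have := mul_le_mul_of_nonneg_left hcore hNM.le
  nlinarith [this]

/-- A signal whose rows are in the scaled inverted triangle. -/
def Capped {ι : Type*} (μ : ℝ) (l : ι → Fin 3 → ℝ) : Prop :=
  ∀ t i, l t i ≤ (1 + μ) / 3 * (l t 0 + l t 1 + l t 2)

section
variable {ι κ : Type*} [Fintype ι] [Fintype κ]

theorem sum_bilinN (n f K : ι → ℝ) (m g : κ → ℝ) (β θ : ℝ) :
    ∑ t, ∑ t', (2 / 3 * n t * m t' + 2 * m t' * f t + 2 * n t * g t' - 3 * β * (f t * g t')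
        + 2 * θ * (g t' * (n t - 9 * K t)))
      = 2 / 3 * (∑ t, n t) * (∑ t', m t') + 2 * (∑ t', m t') * (∑ t, f t)
        + 2 * (∑ t, n t) * (∑ t', g t') - 3 * β * ((∑ t, f t) * (∑ t', g t'))
        + 2 * θ * ((∑ t', g t') * ((∑ t, n t) - 9 * ∑ t, K t)) := by
  simp only [Finset.sum_sub_distrib, Finset.sum_add_distrib, ← Finset.mul_sum, ← Finset.sum_mul]

/-- The chi-square bound for a product of an arbitrary signal and a capped signal. -/
theorem xx_prod_neg {l : ι → Fin 3 → ℝ} {l' : κ → Fin 3 → ℝ} {μ β θ : ℝ} (hμ : 0 < μ) (hc : NegCert μ β θ)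
    (h : IsSig l) (h' : IsSig l') (hcap : Capped μ l') :
    xx (prodS l l') ≤ xx l + xx l' - 3 / 2 * β * (xx l * xx l') + θ * (xx l' * BB l) := by
  have e := six_sumF l h'.toW
  have b : ∑ t, ∑ t', six F3 (l t 0) (l t 1) (l t 2) (l' t' 0) (l' t' 1) (l' t' 2)
      ≤ ∑ t, ∑ t', (2 / 3 * (l t 0 + l t 1 + l t 2) * (l' t' 0 + l' t' 1 + l' t' 2)
        + 2 * (l' t' 0 + l' t' 1 + l' t' 2) * fN (l t 0) (l t 1) (l t 2)
        + 2 * (l t 0 + l t 1 + l t 2) * fN (l' t' 0) (l' t' 1) (l' t' 2)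
        - 3 * β * (fN (l t 0) (l t 1) (l t 2) * fN (l' t' 0) (l' t' 1) (l' t' 2))
        + 2 * θ * (fN (l' t' 0) (l' t' 1) (l' t' 2)
            * ((l t 0 + l t 1 + l t 2) - 9 * K3 (l t 0) (l t 1) (l t 2)))) := by
    refine Finset.sum_le_sum fun t _ => Finset.sum_le_sum fun t' _ => ?_
    exact homN _ _ _ _ _ _ μ β θ hμ hc (h.pos t 0) (h.pos t 1) (h.pos t 2)
      (h'.pos t' 0) (h'.pos t' 1) (h'.pos t' 2) (hcap t' 0) (hcap t' 1) (hcap t' 2)
  rw [sum_bilinN (fun t => l t 0 + l t 1 + l t 2) (fun t => fN (l t 0) (l t 1) (l t 2))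
    (fun t => K3 (l t 0) (l t 1) (l t 2)) (fun t' => l' t' 0 + l' t' 1 + l' t' 2)
    (fun t' => fN (l' t' 0) (l' t' 1) (l' t' 2)) β θ,
    sum_N h.tot, sum_N h'.tot, sum_f h.tot, sum_f h'.tot, ← e] at b
  have e2 : sumF (prodS l l') = 3 * xx (prodS l l') + 1 := by unfold xx; ring
  rw [e2] at b
  unfold BB sumK
  nlinarith [b]

end

/-! ### The channel with a negative eigenvalue -/

section
variable {ι : Type*} [Fintype ι]

theorem chan_isSig' {l : ι → Fin 3 → ℝ} (h : WSig l) {lam : ℝ} (h0 : -(1 / 2) < lam) (h1 : lam < 1) :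
    IsSig (chan lam l) where
  pos := fun t i => by
    unfold chan
    have hN := h.Npos t
    have hi : l t i ≤ l t 0 + l t 1 + l t 2 := by
      have h00 := h.nonneg t 0
      have h01 := h.nonneg t 1
      have h02 := h.nonneg t 2
      fin_cases i <;> simp <;> linarith
    rcases le_total 0 lam with hl | hl
    · have h2 : 0 ≤ lam * l t i := mul_nonneg hl (h.nonneg t i)
      have h3 : 0 < (1 - lam) / 3 * (l t 0 + l t 1 + l t 2) := mul_pos (by linarith) hN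
      linarith
    · have h2 : lam * (l t 0 + l t 1 + l t 2) ≤ lam * l t i := mul_le_mul_of_nonpos_left hi hl
      have h3 : 0 < (1 + 2 * lam) / 3 * (l t 0 + l t 1 + l t 2) := mul_pos (by linarith) hN
      nlinarith
  tot := fun i => by
    unfold chan
    rw [Finset.sum_add_distrib, ← Finset.mul_sum, ← Finset.mul_sum, h.tot, sum_N h.tot]
    ring
  sym := fun σ => by
    obtain ⟨π, hπ⟩ := h.sym σ
    refine ⟨π, fun t i => ?_⟩
    unfold chan
    rw [hπ, hπ, hπ, hπ]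
    have : l t (σ 0) + l t (σ 1) + l t (σ 2) = l t 0 + l t 1 + l t 2 := by
      have := Equiv.sum_comp σ (fun j => l t j)
      simpa only [Fin.sum_univ_three] using this
    rw [this]

theorem chan_capped {l : ι → Fin 3 → ℝ} (h : WSig l) {μ : ℝ} (hμ : 0 ≤ μ) : Capped μ (chan (-μ) l) := by
  intro t i
  have e := chan_sum (-μ) (l t 0) (l t 1) (l t 2)
  unfold chan
  rw [e]
  have h2 : 0 ≤ μ * l t i := mul_nonneg hμ (h.nonneg t i)
  have e3 : (1 - -μ) / 3 = (1 + μ) / 3 := by ring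
  rw [e3]
  linarith

omit [Fintype ι] in
theorem Capped.mono {l : ι → Fin 3 → ℝ} {μ μ' : ℝ} (h : Capped μ l) (hμ : μ ≤ μ') (hN : ∀ t, 0 ≤ l t 0 + l t 1 + l t 2) :
    Capped μ' l := by
  intro t i
  have h1 := h t i
  have := mul_le_mul_of_nonneg_right (show (1 + μ) / 3 ≤ (1 + μ') / 3 by linarith) (hN t)
  linarith

/-- The abstract inequality behind the bound on `BB` after the channel. -/
theorem chan_abs_neg (μ A C : ℝ) (h0 : 0 ≤ μ) (h1 : μ < 1) (hA0 : 0 ≤ A) (hA1 : A ≤ 1)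
    (hC : C ≤ A + A ^ 2) :
    (2 * (μ ^ 2 * A) + μ ^ 3 * C) / (1 - μ ^ 2 * A) ≤ 2 / (1 - μ) * (μ ^ 2 * A) := by
  have hu : 0 < 1 - μ := by linarith
  have hμ2 : μ ^ 2 < 1 := by nlinarith
  have hv : 0 < 1 - μ ^ 2 * A := by nlinarith [sq_nonneg μ]
  rw [div_le_iff₀ hv, div_mul_eq_mul_div, div_mul_eq_mul_div, le_div_iff₀ hu]
  have h3 : μ ^ 3 * C ≤ μ ^ 3 * (A + A ^ 2) := mul_le_mul_of_nonneg_left hC (by positivity)
  have key : 2 * (μ ^ 2 * A) * (1 - μ ^ 2 * A) - (2 * (μ ^ 2 * A) + μ ^ 3 * (A + A ^ 2)) * (1 - μ)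
      = μ ^ 3 * A * (1 - A) * (1 + μ) := by ring
  have h4 : 0 ≤ μ ^ 3 * A * (1 - A) * (1 + μ) := by
    apply mul_nonneg (mul_nonneg (mul_nonneg (by positivity) hA0) (by linarith)) (by linarith)
  have h5 : (2 * (μ ^ 2 * A) + μ ^ 3 * C) * (1 - μ) ≤ (2 * (μ ^ 2 * A) + μ ^ 3 * (A + A ^ 2)) * (1 - μ) :=
    mul_le_mul_of_nonneg_right (by linarith) hu.le
  nlinarith

/-- `1 - A ≥ 0` on the simplex. -/
theorem A3_le_one {a b c : ℝ} (ha : 0 ≤ a) (hb : 0 ≤ b) (hc : 0 ≤ c) : A3 a b c ≤ 1 := by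
  unfold A3
  have : 0 ≤ a * b + b * c + c * a := by positivity
  linarith

/-- Pointwise bound after the channel with negative eigenvalue. -/
theorem chan_K_neg (μ a b c : ℝ) (h0 : 0 ≤ μ) (h1 : μ < 1 / 2) (ha : 0 ≤ a) (hb : 0 ≤ b) (hc : 0 ≤ c)
    (hN : 0 < a + b + c) :
    (a + b + c) - 9 * K3 (-μ * a + (1 - -μ) / 3 * (a + b + c)) (-μ * b + (1 - -μ) / 3 * (a + b + c))
      (-μ * c + (1 - -μ) / 3 * (a + b + c))
      ≤ 3 / (1 - μ) * fN (-μ * a + (1 - -μ) / 3 * (a + b + c)) (-μ * b + (1 - -μ) / 3 * (a + b + c))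
        (-μ * c + (1 - -μ) / 3 * (a + b + c)) := by
  rw [chan_F _ _ _ _ hN]
  set N := a + b + c with hNe
  set a' := a / N with ha'
  set b' := b / N with hb'
  set c' := c / N with hc'
  have hae : a = N * a' := by rw [ha']; field_simp
  have hbe : b = N * b' := by rw [hb']; field_simp
  have hce : c = N * c' := by rw [hc']; field_simp
  have ha'0 : 0 ≤ a' := by positivity
  have hb'0 : 0 ≤ b' := by positivity
  have hc'0 : 0 ≤ c' := by positivity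
  have hs : a' + b' + c' = 1 := by
    rw [ha', hb', hc', ← add_div, ← add_div, ← hNe]
    exact div_self hN.ne'
  have n1 : -μ * a + (1 - -μ) / 3 * N = N * (-μ * a' + (1 - -μ) / 3 * (a' + b' + c')) := by
    rw [hs, hae]; ring
  have n2 : -μ * b + (1 - -μ) / 3 * N = N * (-μ * b' + (1 - -μ) / 3 * (a' + b' + c')) := by
    rw [hs, hbe]; ring
  have n3 : -μ * c + (1 - -μ) / 3 * N = N * (-μ * c' + (1 - -μ) / 3 * (a' + b' + c')) := by
    rw [hs, hce]; ring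
  rw [n1, n2, n3, K3_smul N _ _ _ hN.ne']
  have hf : fN a b c = N * ((2 / 3) * A3 a' b' c') := by
    unfold fN
    rw [hae, hbe, hce, F3_smul N _ _ _ hN.ne']
    have e1 : N * a' + N * b' + N * c' = N := by rw [← mul_add, ← mul_add, hs, mul_one]
    rw [e1, F3_eq_of_sum _ _ _ hs]; ring
  rw [hf]
  set a2 := -μ * a' + (1 - -μ) / 3 * (a' + b' + c') with ha2
  set b2 := -μ * b' + (1 - -μ) / 3 * (a' + b' + c') with hb2
  set c2 := -μ * c' + (1 - -μ) / 3 * (a' + b' + c') with hc2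
  have hs2 : a2 + b2 + c2 = 1 := by rw [ha2, hb2, hc2, chan_sum, hs]
  have hle : ∀ x : ℝ, 0 ≤ x → x ≤ 1 → 0 < -μ * x + (1 - -μ) / 3 * (a' + b' + c') := by
    intro x hx0 hx1
    rw [hs]
    have : μ * x ≤ μ * 1 := mul_le_mul_of_nonneg_left hx1 h0
    nlinarith
  have hpa : 0 < a2 := hle _ ha'0 (by linarith)
  have hpb : 0 < b2 := hle _ hb'0 (by linarith)
  have hpc : 0 < c2 := hle _ hc'0 (by linarith)
  have hpos2 : 0 < a2 * b2 + b2 * c2 + c2 * a2 := by positivity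
  have hk2 := one_sub_nineK a2 b2 c2 hs2 hpos2
  have hA := A3_chan (-μ) a' b' c' hs
  have hC := C3_chan (-μ) a' b' c' hs
  rw [← ha2, ← hb2, ← hc2] at hA hC
  rw [hA, hC] at hk2
  have hab := chan_abs_neg μ (A3 a' b' c') (C3 a' b' c') h0 (by linarith) (A3_nonneg _ _ _ hs)
    (A3_le_one ha'0 hb'0 hc'0) (C3_le _ _ _ hs)
  have e4 : (-μ) ^ 2 = μ ^ 2 := by ring
  have e5 : (-μ) ^ 3 = -(μ ^ 3) := by ring
  rw [e4, e5] at hk2
  have e6 : (2 * (μ ^ 2 * A3 a' b' c') - -(μ ^ 3) * C3 a' b' c') = 2 * (μ ^ 2 * A3 a' b' c') + μ ^ 3 * C3 a' b' c' := by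
    ring
  rw [e6] at hk2
  rw [← hk2] at hab
  have := mul_le_mul_of_nonneg_left hab hN.le
  have hu : 0 < 1 - μ := by linarith
  have e7 : N * (2 / (1 - μ) * (μ ^ 2 * A3 a' b' c'))
      = 3 / (1 - μ) * ((-μ) ^ 2 * (N * (2 / 3 * A3 a' b' c'))) := by
    field_simp
  rw [e7] at this
  have e8 : N - 9 * (N * K3 a2 b2 c2) = N * (1 - 9 * K3 a2 b2 c2) := by ring
  rw [e8]
  exact this

/-- The functional `BB` after the channel is at most a multiple of `xx`. -/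
theorem BB_chan_neg {l : ι → Fin 3 → ℝ} (h : WSig l) {μ : ℝ} (h0 : 0 ≤ μ) (h1 : μ < 1 / 2) :
    BB (chan (-μ) l) ≤ 3 / (1 - μ) * xx (chan (-μ) l) := by
  have hS := chan_isSig' h (lam := -μ) (by linarith) (by linarith)
  have key : ∑ t, ((l t 0 + l t 1 + l t 2) - 9 * K3 (chan (-μ) l t 0) (chan (-μ) l t 1) (chan (-μ) l t 2))
      ≤ ∑ t, (3 / (1 - μ) * fN (chan (-μ) l t 0) (chan (-μ) l t 1) (chan (-μ) l t 2)) :=
    Finset.sum_le_sum fun t _ => chan_K_neg μ _ _ _ h0 h1 (h.nonneg t 0) (h.nonneg t 1) (h.nonneg t 2) (h.Npos t)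
  rw [Finset.sum_sub_distrib, ← Finset.mul_sum, ← Finset.mul_sum, sum_N h.tot, sum_f hS.tot] at key
  unfold BB sumK
  linarith [key]

theorem xx_le_two_thirds' {l : ι → Fin 3 → ℝ} (h : WSig l) : xx l ≤ 2 / 3 := by
  unfold xx sumF
  have : ∑ t, F3 (l t 0) (l t 1) (l t 2) ≤ ∑ t, (l t 0 + l t 1 + l t 2) :=
    Finset.sum_le_sum fun t _ => F3_mul_le (h.nonneg t 0) (h.nonneg t 1) (h.nonneg t 2) (h.Npos t)
  rw [sum_N h.tot] at this
  linarith

end

end Vale.Agent.Lib.P154
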