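import Mathlib
import Vale.Agent.Lib.P154.Means

/-!
Real-number lemmas for the mean recursion.
-/

noncomputable section

open Filter Topology

namespace Vale.Agent.Lib.P154

theorem step_scalar {u y M x N b : ℝ} (hu : u ≤ 2 / 3) (hy : y ≤ 2 / 3) (hM0 : 0 ≤ M) (hMu : M ≤ u)
    (hx0 : 0 ≤ x) (hxy : x ≤ y) (hN0 : 0 ≤ N) (hNu : N ≤ 3 * u) (hb0 : 0 ≤ b) (hby : b ≤ 3 * y) :
    M + x - 3 * (M * x) + (x * N + M * b) / 2 ≤ u + y := by
  have t1 : x * N ≤ x * (3 * u) := mul_le_mul_of_nonneg_left hNu hx0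
  have t2 : M * b ≤ M * (3 * y) := mul_le_mul_of_nonneg_left hby hM0
  have t3 : 0 ≤ (u - M) * (1 - 3 / 2 * y) := mul_nonneg (by linarith) (by linarith)
  have t4 : 0 ≤ (y - x) * (1 - 3 / 2 * M) := mul_nonneg (by linarith) (by linarith)
  have t5 : 0 ≤ (y - x) * M := mul_nonneg (by linarith) hM0
  nlinarith [t1, t2, t3, t4, t5]

theorem gain_scalar {y w x b M N : ℝ} (hx0 : 0 ≤ x) (hxy : x ≤ y) (hb0 : 0 ≤ b)
    (hby : b ≤ 3 * (y - w)) (hw : 0 ≤ w) (hyw : y + w ≤ 2 / 3) (hM0 : 0 ≤ M) (hMx : M ≤ x)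
    (hN : N ≤ b) :
    M + x - 3 * (M * x) + (x * N + M * b) / 2 ≤ 2 * y - 3 * (y * w) := by
  have t1 : x * N ≤ x * b := mul_le_mul_of_nonneg_left hN hx0
  have hy0 : 0 ≤ y := hx0.trans hxy
  -- reduce to the bound in `M`
  have key : M + x - 3 * (M * x) + (x * b + M * b) / 2 ≤ 2 * y - 3 * (y * w) := by
    by_cases hc : 0 ≤ 1 - 3 * x + b / 2
    · have t2 : M * (1 - 3 * x + b / 2) ≤ x * (1 - 3 * x + b / 2) := mul_le_mul_of_nonneg_right hMx hc
      have t3 : x * b ≤ x * (3 * (y - w)) := mul_le_mul_of_nonneg_left hby hx0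
      have t4 : 0 ≤ (y - x) * (2 - 3 * y - 3 * x - 3 * w + 3 * y) := by
        apply mul_nonneg (by linarith)
        nlinarith
      nlinarith [t2, t3, t4]
    · push Not at hc
      have t2 : M * (1 - 3 * x + b / 2) ≤ 0 := mul_nonpos_of_nonneg_of_nonpos hM0 hc.le
      have t3 : x * b ≤ y * (3 * (y - w)) := mul_le_mul hxy hby hb0 hy0
      have t4 : 0 ≤ y * (2 / 3 - y - w) := mul_nonneg hy0 (by linarith)
      nlinarith [t2, t3, t4]
  linarith

/-- The `k`-fold estimates. -/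
theorem kfold_bound {M N : ℕ → ℝ} {x b y w : ℝ} (hM0 : ∀ k, 0 ≤ M k) (hM1 : ∀ k, M k ≤ 2 / 3)
    (hN0 : ∀ k, 0 ≤ N k) (hN1 : ∀ k, N k ≤ 1) (hMz : M 0 = 0) (hNz : N 0 = 0)
    (hMs : ∀ k, M (k + 1) ≤ M k + x - 3 * (M k * x) + (x * N k + M k * b) / 2)
    (hNs : ∀ k, N (k + 1) ≤ N k + b - N k * b)
    (hx0 : 0 ≤ x) (hxy : x ≤ y) (hb0 : 0 ≤ b) (hb1 : b ≤ 1) (hby : b ≤ 3 * (y - w)) (hw : 0 ≤ w)
    (hyw : y + w ≤ 2 / 3) :
    (∀ k, M k ≤ k * y - if 2 ≤ k then 3 * (y * w) else 0) ∧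
      (∀ k, N k ≤ k * b - if 2 ≤ k then b ^ 2 else 0) := by
  have hy0 : 0 ≤ y := hx0.trans hxy
  have hy23 : y ≤ 2 / 3 := by linarith
  -- the estimates on `N`
  have hN1' : N 1 ≤ b := by
    have := hNs 0
    rw [hNz] at this
    simpa using this
  have hNb : ∀ k, N (k + 1) ≤ N k + b := fun k => by
    have := hNs k
    have h2 := mul_nonneg (hN0 k) hb0
    linarith
  have hNk : ∀ k, N k ≤ k * b - if 2 ≤ k then b ^ 2 else 0 := by
    intro k
    induction k with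
    | zero => simp [hNz]
    | succ k ih =>
      rcases k with _ | k
      · simpa using hN1'
      · rcases k with _ | k
        · have := hNs 1
          have h3 : N 1 * b ≤ b * b := mul_le_mul_of_nonneg_right hN1' hb0
          have h4 : 0 ≤ (b - N 1) * (1 - b) := mul_nonneg (by linarith) (by linarith)
          simp only [Nat.reduceAdd]
          norm_num
          nlinarith
        · have h5 := hNb (k + 2)
          have c1 : 2 ≤ k + 2 := by omega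
          have c2 : 2 ≤ k + 2 + 1 := by omega
          rw [if_pos c1] at ih
          rw [if_pos c2]
          push_cast at ih ⊢
          linarith
  -- linear bound on `N`
  have hNlin : ∀ k, N k ≤ k * (3 * (y - w)) := by
    intro k
    have h1 := hNk k
    have h2 : (0 : ℝ) ≤ if 2 ≤ k then b ^ 2 else 0 := by
      split_ifs
      · positivity
      · exact le_rfl
    have h3 : (k : ℝ) * b ≤ k * (3 * (y - w)) := mul_le_mul_of_nonneg_left hby (Nat.cast_nonneg k)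
    linarith
  refine ⟨?_, hNk⟩
  -- the estimates on `M`
  have hM1' : M 1 ≤ x := by
    have := hMs 0
    rw [hMz, hNz] at this
    simpa using this
  have hM2 : M 2 ≤ 2 * y - 3 * (y * w) :=
    (hMs 1).trans (gain_scalar hx0 hxy hb0 hby hw hyw (hM0 1) hM1' hN1')
  have hMk : ∀ k, M (k + 2) ≤ (k + 2 : ℝ) * y - 3 * (y * w) := by
    intro k
    induction k with
    | zero => simpa using hM2
    | succ k ih =>
      -- cap at `2 / 3`
      set u := min (2 / 3) ((k + 2 : ℝ) * y - 3 * (y * w)) with hu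
      have hu1 : u ≤ 2 / 3 := min_le_left _ _
      have hu2 : u ≤ (k + 2 : ℝ) * y - 3 * (y * w) := min_le_right _ _
      have hMu : M (k + 2) ≤ u := le_min (hM1 _) ih
      have hNu : N (k + 2) ≤ 3 * u := by
        rw [hu]
        rcases min_cases (2 / 3 : ℝ) ((k + 2 : ℝ) * y - 3 * (y * w)) with h | h
        · rw [h.1]
          have := hN1 (k + 2)
          linarith
        · rw [h.1]
          have h2 := hNlin (k + 2)
          push_cast at h2
          have hk : (0 : ℝ) ≤ k := Nat.cast_nonneg k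
          have h3 : 0 ≤ (k : ℝ) * w := mul_nonneg hk hw
          have h4 : y * w ≤ 2 / 3 * w := mul_le_mul_of_nonneg_right hy23 hw
          nlinarith
      have := step_scalar hu1 hy23 (hM0 _) hMu hx0 hxy (hN0 _) hNu hb0 (by linarith)
      have h5 := hMs (k + 2)
      push_cast
      nlinarith
  intro k
  rcases k with _ | k
  · simp [hMz]
  · rcases k with _ | k
    · simp
      linarith
    · have c : 2 ≤ k + 1 + 1 := by omega
      rw [if_pos c]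
      have := hMk k
      push_cast
      linarith

/-- Mixing the `k`-fold estimates over an offspring law. -/
theorem mix_bound {p : ℕ → ℝ} {d : ℝ} (hp : WProb p) (hmean : HasSum (fun k : ℕ => (k : ℝ) * p k) d)
    {a : ℕ → ℝ} {A B : ℝ} (ha : ∃ C : ℝ, ∀ k, |a k| ≤ C)
    (h : ∀ k : ℕ, a k ≤ k * A - if 2 ≤ k then B else 0) :
    ∑' k, p k * a k ≤ d * A - (1 - p 0 - p 1) * B := by
  have h0 : HasSum (fun k : ℕ => (if k = 0 then p 0 else 0)) (p 0) := hasSum_ite_eq 0 (p 0)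
  have h1 : HasSum (fun k : ℕ => (if k = 1 then p 1 else 0)) (p 1) := hasSum_ite_eq 1 (p 1)
  have h2 : HasSum (fun k : ℕ => p k - (if k = 0 then p 0 else 0) - (if k = 1 then p 1 else 0))
      (1 - p 0 - p 1) := (hp.hasSum.sub h0).sub h1
  have h3 : HasSum (fun k : ℕ => (k : ℝ) * p k * A
      - (p k - (if k = 0 then p 0 else 0) - (if k = 1 then p 1 else 0)) * B)
      (d * A - (1 - p 0 - p 1) * B) := (hmean.mul_right A).sub (h2.mul_right B)
  refine tsum_mix_le hp ha (b := fun k => k * A - if 2 ≤ k then B else 0) ?_ h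
  convert h3 using 2 with k
  rcases k with _ | k
  · simp
  · rcases k with _ | k
    · simp
    · have c : 2 ≤ k + 1 + 1 := by omega
      rw [if_pos c]
      simp
      ring

/-- The recursion for the Lyapunov sequence. -/
def yRec (d lam c p2 : ℝ) : ℕ → ℝ
  | 0 => 2 / 3
  | n + 1 => d * (lam ^ 2 * yRec d lam c p2 n)
      - 3 * ((lam ^ 2 * yRec d lam c p2 n) * (lam ^ 3 * c * yRec d lam c p2 n ^ 2)) * p2

theorem yRec_bounds {d lam c p2 : ℝ} (h0 : 0 ≤ lam) (h1 : lam < 1) (hp0 : 0 ≤ p2) (hp1 : p2 ≤ 1)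
    (hd : 2 * p2 ≤ d) (hKS : d * lam ^ 2 ≤ 1) (hc0 : 0 ≤ c) (hc1 : c ≤ p2 * lam ^ 4 / 9) (n : ℕ) :
    0 ≤ yRec d lam c p2 n ∧ yRec d lam c p2 n ≤ 2 / 3 := by
  have hl2 : lam ^ 2 ≤ 1 := by nlinarith
  have hl2' : 0 ≤ lam ^ 2 := sq_nonneg lam
  induction n with
  | zero => constructor <;> norm_num [yRec]
  | succ n ih =>
    obtain ⟨hy0, hy1⟩ := ih
    change 0 ≤ d * (lam ^ 2 * yRec d lam c p2 n)
      - 3 * ((lam ^ 2 * yRec d lam c p2 n) * (lam ^ 3 * c * yRec d lam c p2 n ^ 2)) * p2 ∧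
      d * (lam ^ 2 * yRec d lam c p2 n)
      - 3 * ((lam ^ 2 * yRec d lam c p2 n) * (lam ^ 3 * c * yRec d lam c p2 n ^ 2)) * p2 ≤ 2 / 3
    set y := yRec d lam c p2 n
    have hl3 : lam ^ 3 ≤ 1 := pow_le_one₀ h0 h1.le
    have hl30 : 0 ≤ lam ^ 3 := by positivity
    have hz : 0 ≤ lam ^ 2 * y := mul_nonneg hl2' hy0
    -- the subtracted term is at most `d λ² y`
    have hc1' : c ≤ p2 / 9 := by
      have : lam ^ 4 ≤ 1 := pow_le_one₀ h0 h1.le
      nlinarith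
    have hw : lam ^ 3 * c * y ^ 2 ≤ 1 * (p2 / 9) * (2 / 3) ^ 2 := by
      have hy2 : y ^ 2 ≤ (2 / 3) ^ 2 := by nlinarith
      have : lam ^ 3 * c ≤ 1 * (p2 / 9) := mul_le_mul hl3 hc1' hc0 (by norm_num)
      exact mul_le_mul this hy2 (sq_nonneg y) (by positivity)
    have hw0 : 0 ≤ lam ^ 3 * c * y ^ 2 := by positivity
    have hsub : 3 * ((lam ^ 2 * y) * (lam ^ 3 * c * y ^ 2)) * p2 ≤ d * (lam ^ 2 * y) := by
      have h3 : (lam ^ 3 * c * y ^ 2) * p2 ≤ (1 * (p2 / 9) * (2 / 3) ^ 2) * 1 :=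
        mul_le_mul hw hp1 hp0 (by positivity)
      have h4 : 3 * ((lam ^ 3 * c * y ^ 2) * p2) ≤ d := by nlinarith
      calc 3 * ((lam ^ 2 * y) * (lam ^ 3 * c * y ^ 2)) * p2
          = (lam ^ 2 * y) * (3 * ((lam ^ 3 * c * y ^ 2) * p2)) := by ring
        _ ≤ (lam ^ 2 * y) * d := mul_le_mul_of_nonneg_left h4 hz
        _ = d * (lam ^ 2 * y) := by ring
    have hle : d * (lam ^ 2 * y) ≤ y := by
      have := mul_le_mul_of_nonneg_right hKS hy0
      nlinarith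
    have hsub0 : 0 ≤ 3 * ((lam ^ 2 * y) * (lam ^ 3 * c * y ^ 2)) * p2 := by positivity
    constructor <;> linarith

theorem yRec_succ_le {d lam c p2 : ℝ} (h0 : 0 ≤ lam) (h1 : lam < 1) (hp0 : 0 ≤ p2) (hp1 : p2 ≤ 1)
    (hd : 2 * p2 ≤ d) (hKS : d * lam ^ 2 ≤ 1) (hc0 : 0 ≤ c) (hc1 : c ≤ p2 * lam ^ 4 / 9) (n : ℕ) :
    yRec d lam c p2 (n + 1) ≤ yRec d lam c p2 n - 3 * lam ^ 5 * c * p2 * yRec d lam c p2 n ^ 3 := by
  obtain ⟨hy0, hy1⟩ := yRec_bounds h0 h1 hp0 hp1 hd hKS hc0 hc1 n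
  change d * (lam ^ 2 * yRec d lam c p2 n)
      - 3 * ((lam ^ 2 * yRec d lam c p2 n) * (lam ^ 3 * c * yRec d lam c p2 n ^ 2)) * p2 ≤ _
  have := mul_le_mul_of_nonneg_right hKS hy0
  nlinarith

theorem yRec_tendsto {d lam c p2 : ℝ} (h0 : 0 ≤ lam) (h1 : lam < 1) (hp0 : 0 < p2) (hp1 : p2 ≤ 1)
    (hd : 2 * p2 ≤ d) (hKS : d * lam ^ 2 ≤ 1) (hc0 : 0 ≤ c) (hc1 : c ≤ p2 * lam ^ 4 / 9)
    (hcpos : 0 < lam → 0 < c) :
    Tendsto (yRec d lam c p2) atTop (𝓝 0) := by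
  rcases h0.eq_or_lt with rfl | hpos
  · have : ∀ n, yRec d 0 c p2 (n + 1) = 0 := by
      intro n
      change d * ((0 : ℝ) ^ 2 * yRec d 0 c p2 n)
        - 3 * (((0 : ℝ) ^ 2 * yRec d 0 c p2 n) * ((0 : ℝ) ^ 3 * c * yRec d 0 c p2 n ^ 2)) * p2 = 0
      ring
    rw [← tendsto_add_atTop_iff_nat 1]
    simp only [this]
    exact tendsto_const_nhds
  · have hc := hcpos hpos
    have hb := yRec_bounds h0 h1 hp0.le hp1 hd hKS hc0 hc1
    have hle := yRec_succ_le h0 h1 hp0.le hp1 hd hKS hc0 hc1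
    have hk : 0 < 3 * lam ^ 5 * c * p2 := by positivity
    have hanti : Antitone (yRec d lam c p2) := by
      apply antitone_nat_of_succ_le
      intro n
      have h2 := hle n
      have h3 : 0 ≤ 3 * lam ^ 5 * c * p2 * yRec d lam c p2 n ^ 3 :=
        mul_nonneg hk.le (pow_nonneg (hb n).1 3)
      linarith
    have hbdd : BddBelow (Set.range (yRec d lam c p2)) := by
      refine ⟨0, ?_⟩
      rintro _ ⟨n, rfl⟩
      exact (hb n).1
    have hlim := tendsto_atTop_ciInf hanti hbdd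
    set L := ⨅ i, yRec d lam c p2 i with hL
    have hlim1 : Tendsto (fun n => yRec d lam c p2 (n + 1)) atTop (𝓝 L) :=
      (tendsto_add_atTop_iff_nat 1).2 hlim
    have hlim2 : Tendsto (fun n => yRec d lam c p2 n - 3 * lam ^ 5 * c * p2 * yRec d lam c p2 n ^ 3) atTop
        (𝓝 (L - 3 * lam ^ 5 * c * p2 * L ^ 3)) :=
      hlim.sub ((hlim.pow 3).const_mul _)
    have hle' : L ≤ L - 3 * lam ^ 5 * c * p2 * L ^ 3 :=
      le_of_tendsto_of_tendsto' hlim1 hlim2 hle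
    have hL0 : 0 ≤ L := ge_of_tendsto' hlim fun n => (hb n).1
    have hL3 : L ^ 3 ≤ 0 := by
      by_contra hneg
      push Not at hneg
      have : 0 < 3 * lam ^ 5 * c * p2 * L ^ 3 := mul_pos hk hneg
      linarith
    have hLz : L = 0 := by
      have h3 : L ^ 3 = 0 := le_antisymm hL3 (pow_nonneg hL0 3)
      exact pow_eq_zero_iff (by norm_num) |>.1 h3
    rw [hLz] at hlim
    exact hlim

/-- The third-moment bound is preserved. -/
theorem B_step {d lam c p2 y b : ℝ} (h0 : 0 ≤ lam) (h1 : lam < 1) (hp0 : 0 ≤ p2) (hp1 : p2 ≤ 1)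
    (hd : 2 * p2 ≤ d) (hc0 : 0 ≤ c) (hc1 : c ≤ p2 * lam ^ 4 / 9)
    (hy0 : 0 ≤ y) (hy1 : y ≤ 2 / 3) (hb0 : 0 ≤ b) (hb1 : b ≤ 1)
    (hby : b ≤ 3 * (lam ^ 2 * y - lam ^ 3 * c * y ^ 2))
    {y' : ℝ} (hy'0 : 0 ≤ y') (hy'1 : y' ≤ y)
    (hy' : y' = d * (lam ^ 2 * y) - 3 * ((lam ^ 2 * y) * (lam ^ 3 * c * y ^ 2)) * p2) :
    d * b - p2 * b ^ 2 ≤ 3 * (y' - c * y' ^ 2) := by
  have hl2 : lam ^ 2 ≤ 1 := by nlinarith
  have hl20 : 0 ≤ lam ^ 2 := sq_nonneg lam
  set z := lam ^ 2 * y with hz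
  have hz0 : 0 ≤ z := mul_nonneg hl20 hy0
  have hz1 : z ≤ 2 / 3 := by nlinarith
  have hdpos : 0 ≤ d := by linarith
  -- first step: `d b - p2 b² ≤ 3 d z - p2 z²`
  have s1 : d * b - p2 * b ^ 2 ≤ 3 * d * z - p2 * z ^ 2 := by
    have hw0 : 0 ≤ lam ^ 3 * c * y ^ 2 := by positivity
    by_cases hc : z ≤ b
    · have t1 : d * b ≤ d * (3 * z) := mul_le_mul_of_nonneg_left (by linarith) hdpos
      have t2 : z ^ 2 ≤ b ^ 2 := by nlinarith
      have t3 : p2 * z ^ 2 ≤ p2 * b ^ 2 := mul_le_mul_of_nonneg_left t2 hp0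
      linarith
    · push Not at hc
      have t1 : d * (z - b) ≥ 0 := mul_nonneg hdpos (by linarith)
      have t2 : p2 * ((z - b) * (z + b)) ≤ d / 2 * ((z - b) * (4 / 3)) := by
        apply mul_le_mul (by linarith) _ _ (by linarith)
        · apply mul_le_mul_of_nonneg_left (by linarith) (by linarith)
        · apply mul_nonneg (by linarith) (by linarith)
      have t3 : d * z ≥ 0 := mul_nonneg hdpos hz0
      nlinarith
  -- second step
  have s2 : 3 * d * z - p2 * z ^ 2 ≤ 3 * (y' - c * y' ^ 2) := by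
    rw [hy']
    set y'' := d * z - 3 * (z * (lam ^ 3 * c * y ^ 2)) * p2 with hy''
    have hy2 : y'' ^ 2 ≤ y ^ 2 := by
      have : y'' = y' := hy'.symm
      rw [this]
      nlinarith
    have t1 : c * y'' ^ 2 ≤ c * y ^ 2 := mul_le_mul_of_nonneg_left hy2 hc0
    have t2 : 9 * c ≤ p2 * lam ^ 4 := by linarith
    have hl4 : lam ^ 5 ≤ 1 := pow_le_one₀ h0 h1.le
    have hl50 : 0 ≤ lam ^ 5 := by positivity
    have t3 : 9 * lam ^ 5 * p2 * y ≤ 6 := by
      have : lam ^ 5 * p2 ≤ 1 * 1 := mul_le_mul hl4 hp1 hp0 (by norm_num)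
      nlinarith
    have t4 : 9 * lam ^ 5 * p2 * y * c ≤ 6 * c := mul_le_mul_of_nonneg_right t3 hc0
    have hy20 : 0 ≤ y ^ 2 := sq_nonneg y
    have t5 : (9 * lam ^ 5 * p2 * y * c + 3 * c) * y ^ 2 ≤ (p2 * lam ^ 4) * y ^ 2 :=
      mul_le_mul_of_nonneg_right (by linarith) hy20
    have e1 : 3 * (z * (lam ^ 3 * c * y ^ 2)) * p2 * 3 = 9 * lam ^ 5 * p2 * y * c * y ^ 2 := by
      rw [hz]; ring
    have e2 : p2 * z ^ 2 = p2 * lam ^ 4 * y ^ 2 := by
      rw [hz]; ring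
    rw [hy'']
    nlinarith
  linarith

end Vale.Agent.Lib.P154
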