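import Vale.Agent.Lib.P154.Signal
import Vale.Agent.Lib.P154.Cert3

/-!
The pointwise inequality on the whole simplex, and dependent products of signals.
-/

noncomputable section

open Finset

namespace Vale.Agent.Lib.P154

theorem polyR_nonneg_all (a b c p q r : ℝ) (ha : 0 ≤ a) (hb : 0 ≤ b) (hc : 0 ≤ c) (hs : a + b + c = 1)
    (hp : 0 ≤ p) (hq : 0 ≤ q) (hr : 0 ≤ r) (hs' : p + q + r = 1) :
    0 ≤ polyR (A3 a b c) (C3 a b c) (A3 p q r) (C3 p q r) := by
  obtain ⟨t0, t1, t2, h0, h1, h2, hst, hA, hC⟩ := chamber a b c ha hb hc hs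
  obtain ⟨s0, s1, s2, k0, k1, k2, hss, hA', hC'⟩ := chamber p q r hp hq hr hs'
  have := Cert3.nonneg t0 t1 t2 s0 s1 s2 h0 h1 h2 hst k0 k1 k2 hss
  rw [hA, hC, hA', hC']
  simpa only [one_mul] using this

theorem core_all (a b c p q r : ℝ) (ha : 0 < a) (hb : 0 < b) (hc : 0 < c)
    (hp : 0 < p) (hq : 0 < q) (hr : 0 < r) (hs : a + b + c = 1) (hs' : p + q + r = 1) :
    six F3 a b c p q r
      ≤ 2 - (4 / 3) * YY (A3 a b c) (C3 a b c) (A3 p q r) (C3 p q r) := by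
  have hR := polyR_nonneg_all a b c p q r ha.le hb.le hc.le hs hp.le hq.le hr.le hs'
  have h1 := A3_lt_one ha hb hc
  have h2 := A3_lt_one hp hq hr
  exact core_norm a b c p q r _ ha hb hc hp hq hr hs hs' (YY_mul_le _ _ _ _ h1 h2 hR)

theorem hom_all (a b c p q r : ℝ) (ha : 0 < a) (hb : 0 < b) (hc : 0 < c)
    (hp : 0 < p) (hq : 0 < q) (hr : 0 < r) :
    six F3 a b c p q r
      ≤ 2 / 3 * (a + b + c) * (p + q + r) + 2 * (p + q + r) * fN a b c + 2 * (a + b + c) * fN p q r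
        - fN p q r * hN a b c - fN a b c * hN p q r := by
  obtain ⟨N, a', b', c', hN0, hNe, ha', hb', hc', hs, rfl, rfl, rfl⟩ := norm_coord a b c ha hb hc
  obtain ⟨M, p', q', r', hM, hMe, hp', hq', hr', hs', hpe, hqe, hre⟩ := norm_coord p q r hp hq hr
  subst hpe hqe hre
  have e1 : N * a' + N * b' + N * c' = N := by rw [← mul_add, ← mul_add, hs, mul_one]
  have e2 : M * p' + M * q' + M * r' = M := by rw [← mul_add, ← mul_add, hs', mul_one]
  have hcore := core_all a' b' c' p' q' r' ha' hb' hc' hp' hq' hr' hs hs'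
  rw [six_smul F3 (fun k x y z hk => F3_smul k x y z hk) N M _ _ _ _ _ _ hN0.ne' hM.ne']
  have hN1 : fN (N * a') (N * b') (N * c') = N * ((2 / 3) * A3 a' b' c') := by
    unfold fN
    rw [F3_smul N _ _ _ hN0.ne', e1, F3_eq_of_sum _ _ _ hs]; ring
  have hN2 : fN (M * p') (M * q') (M * r') = M * ((2 / 3) * A3 p' q' r') := by
    unfold fN
    rw [F3_smul M _ _ _ hM.ne', e2, F3_eq_of_sum _ _ _ hs']; ring
  have hh1 : hN (N * a') (N * b') (N * c') = N * gg (A3 a' b' c') (C3 a' b' c') := by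
    unfold hN
    rw [F3_smul N _ _ _ hN0.ne', K3_smul N _ _ _ hN0.ne', e1, ← h_eq_of_sum _ _ _ ha' hb' hc' hs]; ring
  have hh2 : hN (M * p') (M * q') (M * r') = M * gg (A3 p' q' r') (C3 p' q' r') := by
    unfold hN
    rw [F3_smul M _ _ _ hM.ne', K3_smul M _ _ _ hM.ne', e2, ← h_eq_of_sum _ _ _ hp' hq' hr' hs']; ring
  rw [hN1, hN2, hh1, hh2, e1, e2]
  have hNM : 0 < N * M := mul_pos hN0 hM
  have := mul_le_mul_of_nonneg_left hcore hNM.le
  unfold YY at this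
  nlinarith [this]

section
variable {ι κ : Type*} [Fintype ι] [Fintype κ]

/-- The chi-square bound for an arbitrary product. -/
theorem xx_prod_le_all {l : ι → Fin 3 → ℝ} {l' : κ → Fin 3 → ℝ} (h : IsSig l) (h' : IsSig l') :
    xx (prodS l l') ≤ xx l + xx l' - 3 * (xx l * xx l') + (xx l' * BB l + xx l * BB l') / 2 := by
  have e := six_sumF l h'.toW
  have b : ∑ t, ∑ t', six F3 (l t 0) (l t 1) (l t 2) (l' t' 0) (l' t' 1) (l' t' 2)
      ≤ ∑ t, ∑ t', (2 / 3 * (l t 0 + l t 1 + l t 2) * (l' t' 0 + l' t' 1 + l' t' 2)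
        + 2 * (l' t' 0 + l' t' 1 + l' t' 2) * fN (l t 0) (l t 1) (l t 2)
        + 2 * (l t 0 + l t 1 + l t 2) * fN (l' t' 0) (l' t' 1) (l' t' 2)
        - fN (l' t' 0) (l' t' 1) (l' t' 2) * hN (l t 0) (l t 1) (l t 2)
        - fN (l t 0) (l t 1) (l t 2) * hN (l' t' 0) (l' t' 1) (l' t' 2)
        - 0 * (fN (l t 0) (l t 1) (l t 2) * fN (l' t' 0) (l' t' 1) (l' t' 2))) := by
    refine Finset.sum_le_sum fun t _ => Finset.sum_le_sum fun t' _ => ?_
    have := hom_all (l t 0) (l t 1) (l t 2) (l' t' 0) (l' t' 1) (l' t' 2) (h.pos t 0) (h.pos t 1) (h.pos t 2)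
      (h'.pos t' 0) (h'.pos t' 1) (h'.pos t' 2)
    linarith
  rw [sum_bilin (fun t => l t 0 + l t 1 + l t 2) (fun t => fN (l t 0) (l t 1) (l t 2))
    (fun t => hN (l t 0) (l t 1) (l t 2)) (fun t' => l' t' 0 + l' t' 1 + l' t' 2)
    (fun t' => fN (l' t' 0) (l' t' 1) (l' t' 2)) (fun t' => hN (l' t' 0) (l' t' 1) (l' t' 2)) 0,
    sum_N h.tot, sum_N h'.tot, sum_f h.tot, sum_f h'.tot, sum_h h.tot, sum_h h'.tot, ← e] at b
  have e2 : sumF (prodS l l') = 3 * xx (prodS l l') + 1 := by unfold xx; ring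
  rw [e2] at b
  nlinarith [b]

theorem xx_le_two_thirds {l : ι → Fin 3 → ℝ} (h : IsSig l) : xx l ≤ 2 / 3 := by
  unfold xx sumF
  have : ∑ t, F3 (l t 0) (l t 1) (l t 2) ≤ ∑ t, (l t 0 + l t 1 + l t 2) := by
    refine Finset.sum_le_sum fun t _ => F3_mul_le (h.pos t 0).le (h.pos t 1).le (h.pos t 2).le ?_
    have h0 := h.pos t 0
    have h1 := h.pos t 1
    have h2 := h.pos t 2
    positivity
  rw [sum_N h.tot] at this
  linarith

end

/-! ### Dependent products -/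

section
variable {k : ℕ}

/-- The product of a finite family of signals. -/
def piS {k : ℕ} {ι : Fin k → Type} (l : ∀ c, ι c → Fin 3 → ℝ) : (∀ c, ι c) → Fin 3 → ℝ :=
  fun τ i => ∏ c, l c (τ c) i

theorem piS_isSig {ι : Fin k → Type} [∀ c, Fintype (ι c)] {l : ∀ c, ι c → Fin 3 → ℝ}
    (h : ∀ c, IsSig (l c)) : IsSig (piS l) where
  pos := fun τ i => Finset.prod_pos fun c _ => (h c).pos _ _
  tot := fun i => by
    unfold piS
    have := Finset.prod_univ_sum (fun c : Fin k => (Finset.univ : Finset (ι c))) (fun c t => l c t i)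
    rw [Fintype.piFinset_univ] at this
    rw [← this]
    simp [(h _).tot]
  sym := fun σ => by
    choose π hπ using fun c => (h c).sym σ
    refine ⟨Equiv.piCongrRight π, fun τ i => ?_⟩
    unfold piS
    refine Finset.prod_congr rfl fun c _ => ?_
    exact hπ c (τ c) i

theorem sum_piS_succ {ι : Fin (k + 1) → Type} [∀ c, Fintype (ι c)] (G : ℝ → ℝ → ℝ → ℝ)
    (l : ∀ c, ι c → Fin 3 → ℝ) :
    ∑ τ, G (piS l τ 0) (piS l τ 1) (piS l τ 2)
      = ∑ p, G (prodS (l 0) (piS fun c : Fin k => l c.succ) p 0)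
          (prodS (l 0) (piS fun c : Fin k => l c.succ) p 1)
          (prodS (l 0) (piS fun c : Fin k => l c.succ) p 2) := by
  rw [← Equiv.sum_comp (Fin.consEquiv ι)]
  refine Finset.sum_congr rfl fun p _ => ?_
  have e : ∀ i, piS l (Fin.consEquiv ι p) i = prodS (l 0) (piS fun c : Fin k => l c.succ) p i := by
    intro i
    unfold piS prodS
    rw [Fin.prod_univ_succ]
    rfl
  rw [e, e, e]

theorem xx_piS_succ {ι : Fin (k + 1) → Type} [∀ c, Fintype (ι c)] (l : ∀ c, ι c → Fin 3 → ℝ) :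
    xx (piS l) = xx (prodS (l 0) (piS fun c : Fin k => l c.succ)) := by
  unfold xx sumF
  rw [sum_piS_succ F3]

theorem BB_piS_succ {ι : Fin (k + 1) → Type} [∀ c, Fintype (ι c)] (l : ∀ c, ι c → Fin 3 → ℝ) :
    BB (piS l) = BB (prodS (l 0) (piS fun c : Fin k => l c.succ)) := by
  unfold BB sumK
  rw [sum_piS_succ K3]

theorem xx_piS_zero {ι : Fin 0 → Type} [∀ c, Fintype (ι c)] (l : ∀ c, ι c → Fin 3 → ℝ) :
    xx (piS l) = 0 := by
  unfold xx sumF piS
  simp [F3]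
  norm_num

theorem BB_piS_zero {ι : Fin 0 → Type} [∀ c, Fintype (ι c)] (l : ∀ c, ι c → Fin 3 → ℝ) :
    BB (piS l) = 0 := by
  unfold BB sumK piS
  simp [K3]
  norm_num

end

end Vale.Agent.Lib.P154
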