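import Vale.Agent.Lib.P154.DefsGW
import Vale.Agent.Lib.P154.SignalGW
import Vale.Agent.Lib.P154.Scalar
import Vale.Agent.Lib.P154.Tree

/-!
Nonreconstruction for the ferromagnetic three-state Potts channel on Galton-Watson trees.
-/

noncomputable section

open Finset Filter Topology

namespace Vale.Agent.Lib.P154

/-- The likelihood family of a truncated tree. -/
def glev (lam : ℝ) (n : ℕ) (T : GWTree n) : GWSpins 3 n T → Fin 3 → ℝ :=
  fun τ i => gwLik 3 lam n T i τ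

theorem glev_succ (lam : ℝ) (n : ℕ) (T : GWTree (n + 1)) :
    glev lam (n + 1) T = piS (fun c : Fin T.1 => chan lam (glev lam n (T.2 c))) := by
  funext τ i
  unfold glev piS chan
  change ∏ c : Fin T.1, ∑ j : Fin 3, potts 3 lam i j * gwLik 3 lam n (T.2 c) j (τ c) = _
  refine Finset.prod_congr rfl fun c _ => ?_
  rw [sum_potts]

theorem glev_zero_wsig (lam : ℝ) (T : GWTree 0) : WSig (glev lam 0 T) where
  nonneg := fun t i => by
    change 0 ≤ (if i = gwSpinAtZero t then (1 : ℝ) else 0)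
    split_ifs <;> norm_num
  Npos := fun t => by
    change 0 < (if (0 : Fin 3) = gwSpinAtZero t then (1 : ℝ) else 0)
      + (if (1 : Fin 3) = gwSpinAtZero t then (1 : ℝ) else 0)
      + (if (2 : Fin 3) = gwSpinAtZero t then (1 : ℝ) else 0)
    have : ∀ t : Fin 3, 0 < (if (0 : Fin 3) = t then (1 : ℝ) else 0)
      + (if (1 : Fin 3) = t then (1 : ℝ) else 0)
      + (if (2 : Fin 3) = t then (1 : ℝ) else 0) := by
      intro t; fin_cases t <;> simp
    exact this (gwSpinAtZero t)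
  tot := fun i => by
    change ∑ t : Fin 3, (if i = t then (1 : ℝ) else 0) = 1
    simp
  sym := fun σ => by
    refine ⟨σ.symm, fun t i => ?_⟩
    change (if i = σ.symm (gwSpinAtZero t) then (1 : ℝ) else 0) = (if σ i = gwSpinAtZero t then (1 : ℝ) else 0)
    have : i = σ.symm (gwSpinAtZero t) ↔ σ i = gwSpinAtZero t := by
      rw [Equiv.eq_symm_apply]
    simp only [this]

theorem glev_wsig {lam : ℝ} (h0 : 0 ≤ lam) (h1 : lam < 1) : ∀ (n : ℕ) (T : GWTree n), WSig (glev lam n T)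
  | 0, T => glev_zero_wsig lam T
  | n + 1, T => by
    rw [glev_succ]
    exact (piS_isSig fun c => chan_isSig (glev_wsig h0 h1 n _) h0 h1).toW

theorem glev_succ_isSig {lam : ℝ} (h0 : 0 ≤ lam) (h1 : lam < 1) (n : ℕ) (T : GWTree (n + 1)) :
    IsSig (glev lam (n + 1) T) := by
  rw [glev_succ]
  exact piS_isSig fun c => chan_isSig (glev_wsig h0 h1 n _) h0 h1

theorem xx_glev_zero (lam : ℝ) (T : GWTree 0) : xx (glev lam 0 T) = 2 / 3 := by
  unfold xx sumF
  change 1 / 3 * ∑ t : Fin 3, F3 (if (0 : Fin 3) = t then (1 : ℝ) else 0)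
    (if (1 : Fin 3) = t then (1 : ℝ) else 0) (if (2 : Fin 3) = t then (1 : ℝ) else 0) - 1 / 3 = 2 / 3
  simp [Fin.sum_univ_three, F3]
  norm_num

theorem BB_glev_zero (lam : ℝ) (T : GWTree 0) : BB (glev lam 0 T) = 1 := by
  unfold BB sumK
  change 1 - 3 * ∑ t : Fin 3, K3 (if (0 : Fin 3) = t then (1 : ℝ) else 0)
    (if (1 : Fin 3) = t then (1 : ℝ) else 0) (if (2 : Fin 3) = t then (1 : ℝ) else 0) = 1
  simp [Fin.sum_univ_three, K3]

theorem BB_chan_glev {lam : ℝ} (h0 : 0 ≤ lam) (h1 : lam < 1) (n : ℕ) (T : GWTree n) :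
    BB (chan lam (glev lam n T))
      ≤ 3 * lam ^ 2 * (1 - lam) * xx (glev lam n T) + lam ^ 3 * BB (glev lam n T) := by
  rcases n with _ | n
  · rw [xx_glev_zero, BB_glev_zero]
    unfold BB sumK
    have e : ∑ t, K3 (chan lam (glev lam 0 T) t 0) (chan lam (glev lam 0 T) t 1) (chan lam (glev lam 0 T) t 2)
        = 3 * K3 (lam + (1 - lam) / 3) ((1 - lam) / 3) ((1 - lam) / 3) := by
      change ∑ t : Fin 3, K3
        (lam * (if (0 : Fin 3) = t then (1 : ℝ) else 0) + (1 - lam) / 3 * ((if (0 : Fin 3) = t then (1 : ℝ) else 0)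
          + (if (1 : Fin 3) = t then (1 : ℝ) else 0) + (if (2 : Fin 3) = t then (1 : ℝ) else 0)))
        (lam * (if (1 : Fin 3) = t then (1 : ℝ) else 0) + (1 - lam) / 3 * ((if (0 : Fin 3) = t then (1 : ℝ) else 0)
          + (if (1 : Fin 3) = t then (1 : ℝ) else 0) + (if (2 : Fin 3) = t then (1 : ℝ) else 0)))
        (lam * (if (2 : Fin 3) = t then (1 : ℝ) else 0) + (1 - lam) / 3 * ((if (0 : Fin 3) = t then (1 : ℝ) else 0)
          + (if (1 : Fin 3) = t then (1 : ℝ) else 0) + (if (2 : Fin 3) = t then (1 : ℝ) else 0))) = _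
      rw [Fin.sum_univ_three]
      simp only [Fin.isValue, if_true, if_false, Fin.reduceEq, mul_one, mul_zero, add_zero, zero_add]
      rw [(K3_perm1 (lam + (1 - lam) / 3) ((1 - lam) / 3) ((1 - lam) / 3)).symm,
        (K3_perm2 (lam + (1 - lam) / 3) ((1 - lam) / 3) ((1 - lam) / 3)).symm]
      ring
    rw [e, K3_vertex h0 h1]
    have h3 : 0 < 1 + lam := by linarith
    have h4 : 1 - 3 * (3 * ((1 + 2 * lam) * (1 - lam) / (9 * (1 + lam)))) = 2 * lam ^ 2 / (1 + lam) := by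
      field_simp
      ring
    rw [h4, div_le_iff₀ h3]
    nlinarith [mul_nonneg h0 (sq_nonneg lam), sq_nonneg lam, mul_nonneg (mul_nonneg h0 h0) (sub_nonneg.2 h1.le),
      mul_nonneg (mul_nonneg (mul_nonneg h0 h0) h0) (sub_nonneg.2 h1.le)]
  · exact BB_chan (glev_succ_isSig h0 h1 n T) h0 h1

theorem xx_glev_le {lam : ℝ} (h0 : 0 ≤ lam) (h1 : lam < 1) (n : ℕ) (T : GWTree n) :
    xx (glev lam n T) ≤ 2 / 3 := by
  rcases n with _ | n
  · rw [xx_glev_zero]
  · exact xx_le_two_thirds (glev_succ_isSig h0 h1 n T)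

/-! ### Weights -/

theorem gwWeight_wprob {p : ℕ → ℝ} (hp : WProb p) : ∀ n, WProb (gwWeight p n)
  | 0 => by
    refine ⟨fun _ => zero_le_one, ?_⟩
    have : HasSum (fun _ : Unit => (1 : ℝ)) 1 := by
      simpa using hasSum_unique (fun _ : Unit => (1 : ℝ))
    exact this
  | n + 1 => by
    have := hp.mix (gwWeight_wprob hp n)
    exact this

/-! ### The `k`-fold means -/

/-- The product of `k` children with given subtrees. -/
def sigK (lam : ℝ) (n k : ℕ) (ts : Fin k → GWTree n) :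
    ((c : Fin k) → GWSpins 3 n (ts c)) → Fin 3 → ℝ :=
  piS (fun c : Fin k => chan lam (glev lam n (ts c)))

theorem sigK_isSig {lam : ℝ} (h0 : 0 ≤ lam) (h1 : lam < 1) (n k : ℕ) (ts : Fin k → GWTree n) :
    IsSig (sigK lam n k ts) :=
  piS_isSig fun c => chan_isSig (glev_wsig h0 h1 n _) h0 h1

section means
variable {p : ℕ → ℝ} {lam : ℝ}

theorem bdd_xx_sigK (h0 : 0 ≤ lam) (h1 : lam < 1) (n k : ℕ) :
    BddF (fun ts : Fin k → GWTree n => xx (sigK lam n k ts)) :=
  BddF.of_Icc (a := 0) (b := 2 / 3) fun ts =>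
    ⟨xx_nonneg (sigK_isSig h0 h1 n k ts).toW, xx_le_two_thirds (sigK_isSig h0 h1 n k ts)⟩

theorem bdd_BB_sigK (h0 : 0 ≤ lam) (h1 : lam < 1) (n k : ℕ) :
    BddF (fun ts : Fin k → GWTree n => BB (sigK lam n k ts)) :=
  BddF.of_Icc (a := 0) (b := 1) fun ts =>
    ⟨BB_nonneg (sigK_isSig h0 h1 n k ts), BB_le_one (sigK_isSig h0 h1 n k ts).toW⟩

theorem chan_glev_isSig (h0 : 0 ≤ lam) (h1 : lam < 1) (n : ℕ) (T : GWTree n) :
    IsSig (chan lam (glev lam n T)) :=
  chan_isSig (glev_wsig h0 h1 n T) h0 h1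

theorem bdd_cx (h0 : 0 ≤ lam) (h1 : lam < 1) (n : ℕ) :
    BddF (fun T : GWTree n => xx (chan lam (glev lam n T))) :=
  BddF.of_Icc (a := 0) (b := 2 / 3) fun T =>
    ⟨xx_nonneg (chan_glev_isSig h0 h1 n T).toW, xx_le_two_thirds (chan_glev_isSig h0 h1 n T)⟩

theorem bdd_cB (h0 : 0 ≤ lam) (h1 : lam < 1) (n : ℕ) :
    BddF (fun T : GWTree n => BB (chan lam (glev lam n T))) :=
  BddF.of_Icc (a := 0) (b := 1) fun T =>
    ⟨BB_nonneg (chan_glev_isSig h0 h1 n T), BB_le_one (chan_glev_isSig h0 h1 n T).toW⟩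

theorem H_bounds {f g F G : ℝ} (hf0 : 0 ≤ f) (hf1 : f ≤ 2 / 3) (hg0 : 0 ≤ g) (hg1 : g ≤ 2 / 3)
    (hF0 : 0 ≤ F) (hF1 : F ≤ 1) (hG0 : 0 ≤ G) (hG1 : G ≤ 1) :
    -2 ≤ f + g - 3 * (f * g) + (g * F + f * G) / 2 ∧ f + g - 3 * (f * g) + (g * F + f * G) / 2 ≤ 3 := by
  have h1 : f * g ≤ 2 / 3 * (2 / 3) := mul_le_mul hf1 hg1 hg0 (by norm_num)
  have h2 : 0 ≤ f * g := mul_nonneg hf0 hg0
  have h3 : 0 ≤ g * F := mul_nonneg hg0 hF0
  have h4 : 0 ≤ f * G := mul_nonneg hf0 hG0
  have h5 : g * F ≤ 2 / 3 * 1 := mul_le_mul hg1 hF1 hF0 (by norm_num)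
  have h6 : f * G ≤ 2 / 3 * 1 := mul_le_mul hf1 hG1 hG0 (by norm_num)
  constructor <;> nlinarith

/-- Mean recursion for the chi-square functional. -/
theorem M_succ (h0 : 0 ≤ lam) (h1 : lam < 1) {n : ℕ} {w : GWTree n → ℝ} (hw : WProb w) (k : ℕ) :
    Ew (wPow w (k + 1)) (fun ts => xx (sigK lam n (k + 1) ts))
      ≤ Ew (wPow w k) (fun ts => xx (sigK lam n k ts))
        + Ew w (fun T => xx (chan lam (glev lam n T)))
        - 3 * (Ew (wPow w k) (fun ts => xx (sigK lam n k ts)) * Ew w (fun T => xx (chan lam (glev lam n T))))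
        + (Ew w (fun T => xx (chan lam (glev lam n T))) * Ew (wPow w k) (fun ts => BB (sigK lam n k ts))
          + Ew (wPow w k) (fun ts => xx (sigK lam n k ts)) * Ew w (fun T => BB (chan lam (glev lam n T)))) / 2 := by
  have hk := hw.pow k
  have hle : ∀ ts : Fin (k + 1) → GWTree n, xx (sigK lam n (k + 1) ts)
      ≤ xx (chan lam (glev lam n (ts 0))) + xx (sigK lam n k (fun c => ts c.succ))
        - 3 * (xx (chan lam (glev lam n (ts 0))) * xx (sigK lam n k (fun c => ts c.succ)))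
        + (xx (sigK lam n k (fun c => ts c.succ)) * BB (chan lam (glev lam n (ts 0)))
          + xx (chan lam (glev lam n (ts 0))) * BB (sigK lam n k (fun c => ts c.succ))) / 2 := by
    intro ts
    unfold sigK
    rw [xx_piS_succ]
    exact xx_prod_le_all (chan_glev_isSig h0 h1 n (ts 0)) (sigK_isSig h0 h1 n k (fun c => ts c.succ))
  have hbdd : BddF (fun ts : Fin (k + 1) → GWTree n =>
      xx (chan lam (glev lam n (ts 0))) + xx (sigK lam n k (fun c => ts c.succ))
        - 3 * (xx (chan lam (glev lam n (ts 0))) * xx (sigK lam n k (fun c => ts c.succ)))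
        + (xx (sigK lam n k (fun c => ts c.succ)) * BB (chan lam (glev lam n (ts 0)))
          + xx (chan lam (glev lam n (ts 0))) * BB (sigK lam n k (fun c => ts c.succ))) / 2) :=
    BddF.of_Icc (a := -2) (b := 3) fun ts =>
      H_bounds (xx_nonneg (chan_glev_isSig h0 h1 n (ts 0)).toW) (xx_le_two_thirds (chan_glev_isSig h0 h1 n (ts 0)))
        (xx_nonneg (sigK_isSig h0 h1 n k _).toW) (xx_le_two_thirds (sigK_isSig h0 h1 n k _))
        (BB_nonneg (chan_glev_isSig h0 h1 n (ts 0))) (BB_le_one (chan_glev_isSig h0 h1 n (ts 0)).toW)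
        (BB_nonneg (sigK_isSig h0 h1 n k _)) (BB_le_one (sigK_isSig h0 h1 n k _).toW)
  have hm := Ew_mono (hw.pow (k + 1)) (bdd_xx_sigK h0 h1 n (k + 1)) hbdd hle
  have hb := Ew_bilin hw hk (bdd_cx h0 h1 n) (bdd_cB h0 h1 n) (bdd_xx_sigK h0 h1 n k) (bdd_BB_sigK h0 h1 n k)
  refine hm.trans ?_
  rw [Ew_pow_succ]
  refine (Eq.trans rfl hb).trans_le (le_of_eq ?_)
  ring

/-- Mean recursion for the third-moment functional. -/
theorem N_succ (h0 : 0 ≤ lam) (h1 : lam < 1) {n : ℕ} {w : GWTree n → ℝ} (hw : WProb w) (k : ℕ) :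
    Ew (wPow w (k + 1)) (fun ts => BB (sigK lam n (k + 1) ts))
      ≤ Ew (wPow w k) (fun ts => BB (sigK lam n k ts))
        + Ew w (fun T => BB (chan lam (glev lam n T)))
        - Ew (wPow w k) (fun ts => BB (sigK lam n k ts)) * Ew w (fun T => BB (chan lam (glev lam n T))) := by
  have hk := hw.pow k
  have hle : ∀ ts : Fin (k + 1) → GWTree n, BB (sigK lam n (k + 1) ts)
      ≤ BB (chan lam (glev lam n (ts 0))) + BB (sigK lam n k (fun c => ts c.succ))
        - BB (chan lam (glev lam n (ts 0))) * BB (sigK lam n k (fun c => ts c.succ)) := by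
    intro ts
    unfold sigK
    rw [BB_piS_succ]
    exact BB_prod_le (chan_glev_isSig h0 h1 n (ts 0)) (sigK_isSig h0 h1 n k (fun c => ts c.succ))
  have hbdd : BddF (fun ts : Fin (k + 1) → GWTree n =>
      BB (chan lam (glev lam n (ts 0))) + BB (sigK lam n k (fun c => ts c.succ))
        - BB (chan lam (glev lam n (ts 0))) * BB (sigK lam n k (fun c => ts c.succ))) := by
    refine BddF.of_Icc (a := -1) (b := 2) fun ts => ?_
    have a0 := BB_nonneg (chan_glev_isSig h0 h1 n (ts 0))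
    have a1 := BB_le_one (chan_glev_isSig h0 h1 n (ts 0)).toW
    have b0 := BB_nonneg (sigK_isSig h0 h1 n k (fun c => ts c.succ))
    have b1 := BB_le_one (sigK_isSig h0 h1 n k (fun c => ts c.succ)).toW
    constructor <;> nlinarith
  have hbddBB : BddF (fun ts : Fin (k + 1) → GWTree n => BB (sigK lam n (k + 1) ts)) :=
    bdd_BB_sigK h0 h1 n (k + 1)
  have hm := Ew_mono (hw.pow (k + 1)) hbddBB hbdd hle
  have hb := Ew_bilin2 hw hk (bdd_cB h0 h1 n) (bdd_BB_sigK h0 h1 n k)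
  refine hm.trans ?_
  rw [Ew_pow_succ]
  refine (Eq.trans rfl hb).trans_le (le_of_eq ?_)
  ring

theorem M_zero {n : ℕ} {w : GWTree n → ℝ} (hw : WProb w) :
    Ew (wPow w 0) (fun ts => xx (sigK lam n 0 ts)) = 0 := by
  have : ∀ ts : Fin 0 → GWTree n, xx (sigK lam n 0 ts) = 0 := fun ts => by
    unfold sigK
    exact xx_piS_zero _
  rw [Ew_congr _ (fun _ => (0 : ℝ)) this, Ew_const (hw.pow 0)]

theorem N_zero {n : ℕ} {w : GWTree n → ℝ} (hw : WProb w) :
    Ew (wPow w 0) (fun ts => BB (sigK lam n 0 ts)) = 0 := by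
  have : ∀ ts : Fin 0 → GWTree n, BB (sigK lam n 0 ts) = 0 := fun ts => by
    unfold sigK
    exact BB_piS_zero _
  rw [Ew_congr _ (fun _ => (0 : ℝ)) this, Ew_const (hw.pow 0)]

theorem xx_glev_succ (lam : ℝ) (n : ℕ) (T : GWTree (n + 1)) :
    xx (glev lam (n + 1) T) = xx (sigK lam n T.1 T.2) := by
  rw [glev_succ]
  rfl

theorem BB_glev_succ (lam : ℝ) (n : ℕ) (T : GWTree (n + 1)) :
    BB (glev lam (n + 1) T) = BB (sigK lam n T.1 T.2) := by
  rw [glev_succ]
  rfl

/-- Mean over a tree of depth `n + 1` of the two functionals. -/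
theorem X_succ_eq (hp : WProb p) (h0 : 0 ≤ lam) (h1 : lam < 1) (n : ℕ) :
    Ew (gwWeight p (n + 1)) (fun T => xx (glev lam (n + 1) T))
      = ∑' k, p k * Ew (wPow (gwWeight p n) k) (fun ts => xx (sigK lam n k ts)) := by
  have hb : BddF (fun T : GWTree (n + 1) => xx (glev lam (n + 1) T)) :=
    BddF.of_Icc (a := 0) (b := 2 / 3) fun T =>
      ⟨xx_nonneg (glev_succ_isSig h0 h1 n T).toW, xx_le_two_thirds (glev_succ_isSig h0 h1 n T)⟩
  have := Ew_mix hp (gwWeight_wprob hp n) (F := fun T : GWTree (n + 1) => xx (glev lam (n + 1) T)) hb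
  refine Eq.trans this ?_
  congr 1
  funext k
  congr 1
  refine Ew_congr _ _ fun ts => ?_
  exact xx_glev_succ lam n ⟨k, ts⟩

theorem B_succ_eq (hp : WProb p) (h0 : 0 ≤ lam) (h1 : lam < 1) (n : ℕ) :
    Ew (gwWeight p (n + 1)) (fun T => BB (glev lam (n + 1) T))
      = ∑' k, p k * Ew (wPow (gwWeight p n) k) (fun ts => BB (sigK lam n k ts)) := by
  have hb : BddF (fun T : GWTree (n + 1) => BB (glev lam (n + 1) T)) :=
    BddF.of_Icc (a := 0) (b := 1) fun T =>
      ⟨BB_nonneg (glev_succ_isSig h0 h1 n T), BB_le_one (glev_succ_isSig h0 h1 n T).toW⟩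
  have := Ew_mix hp (gwWeight_wprob hp n) (F := fun T : GWTree (n + 1) => BB (glev lam (n + 1) T)) hb
  refine Eq.trans this ?_
  congr 1
  funext k
  congr 1
  refine Ew_congr _ _ fun ts => ?_
  exact BB_glev_succ lam n ⟨k, ts⟩

/-! ### The invariant -/

/-- Level-`n` means. -/
def Xbar (p : ℕ → ℝ) (lam : ℝ) (n : ℕ) : ℝ := Ew (gwWeight p n) (fun T => xx (glev lam n T))

def Bbar (p : ℕ → ℝ) (lam : ℝ) (n : ℕ) : ℝ := Ew (gwWeight p n) (fun T => BB (glev lam n T))

/-- Bound of the third-moment functional over any tree. -/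
theorem BB_glev_bounds {lam : ℝ} (h0 : 0 ≤ lam) (h1 : lam < 1) (n : ℕ) (T : GWTree n) :
    0 ≤ BB (glev lam n T) ∧ BB (glev lam n T) ≤ 1 := by
  rcases n with _ | n
  · rw [BB_glev_zero]
    norm_num
  · exact ⟨BB_nonneg (glev_succ_isSig h0 h1 n T), BB_le_one (glev_succ_isSig h0 h1 n T).toW⟩

theorem bdd_xx_glev (h0 : 0 ≤ lam) (h1 : lam < 1) (n : ℕ) :
    BddF (fun T : GWTree n => xx (glev lam n T)) :=
  BddF.of_Icc (a := 0) (b := 2 / 3) fun T =>
    ⟨xx_nonneg (glev_wsig h0 h1 n T), xx_glev_le h0 h1 n T⟩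

theorem bdd_BB_glev (h0 : 0 ≤ lam) (h1 : lam < 1) (n : ℕ) :
    BddF (fun T : GWTree n => BB (glev lam n T)) :=
  BddF.of_Icc (a := 0) (b := 1) fun T => BB_glev_bounds h0 h1 n T

theorem two_p2_le {p : ℕ → ℝ} {d : ℝ} (hp : WProb p) (hmean : HasSum (fun k : ℕ => (k : ℝ) * p k) d) :
    2 * (1 - p 0 - p 1) ≤ d := by
  have h0 : HasSum (fun k : ℕ => (if k = 0 then p 0 else 0)) (p 0) := hasSum_ite_eq 0 (p 0)
  have h1 : HasSum (fun k : ℕ => (if k = 1 then p 1 else 0)) (p 1) := hasSum_ite_eq 1 (p 1)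
  have h2 : HasSum (fun k : ℕ => 2 * (p k - (if k = 0 then p 0 else 0) - (if k = 1 then p 1 else 0)))
      (2 * (1 - p 0 - p 1)) := ((hp.hasSum.sub h0).sub h1).mul_left 2
  refine hasSum_le (fun k => ?_) h2 hmean
  rcases k with _ | k
  · simp
  · rcases k with _ | k
    · simpa using hp.nonneg 1
    · have hk : (2 : ℝ) ≤ ((k + 1 + 1 : ℕ) : ℝ) := by
        push_cast
        have : (0 : ℝ) ≤ k := Nat.cast_nonneg k
        linarith
      have := mul_le_mul_of_nonneg_right hk (hp.nonneg (k + 1 + 1))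
      simpa using this

/-- The invariant of the mean recursion. -/
theorem invariant {p : ℕ → ℝ} {d lam c : ℝ} (hp : WProb p) (hmean : HasSum (fun k : ℕ => (k : ℝ) * p k) d)
    (hp2 : 0 ≤ 1 - p 0 - p 1) (h0 : 0 ≤ lam) (h1 : lam < 1) (hKS : d * lam ^ 2 ≤ 1)
    (hc0 : 0 ≤ c) (hc1 : c ≤ (1 - p 0 - p 1) * lam ^ 4 / 9) (hc2 : c ≤ 3 / 4 * (1 - lam ^ 2)) (n : ℕ) :
    Xbar p lam n ≤ yRec d lam c (1 - p 0 - p 1) n
      ∧ Bbar p lam n ≤ 3 * (yRec d lam c (1 - p 0 - p 1) n - c * yRec d lam c (1 - p 0 - p 1) n ^ 2) := by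
  set p2 := 1 - p 0 - p 1 with hp2def
  have hp21 : p2 ≤ 1 := by
    have := hp.nonneg 0
    have := hp.nonneg 1
    rw [hp2def]
    linarith
  have hd := two_p2_le hp hmean
  have hl2 : lam ^ 2 ≤ 1 := by nlinarith
  have hl20 : 0 ≤ lam ^ 2 := sq_nonneg lam
  have hl3 : lam ^ 3 ≤ 1 := pow_le_one₀ h0 h1.le
  have hl30 : 0 ≤ lam ^ 3 := by positivity
  have hl4 : lam ^ 4 ≤ 1 := pow_le_one₀ h0 h1.le
  have hc19 : c ≤ 1 / 9 := by
    have : p2 * lam ^ 4 ≤ 1 * 1 := mul_le_mul hp21 hl4 (by positivity) (by norm_num)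
    linarith
  induction n with
  | zero =>
    have hw := gwWeight_wprob hp 0
    constructor
    · unfold Xbar
      have : Ew (gwWeight p 0) (fun T => xx (glev lam 0 T)) = 2 / 3 := by
        rw [Ew_congr _ (fun _ => (2 / 3 : ℝ)) (fun T => xx_glev_zero lam T), Ew_const hw]
      rw [this]
      norm_num [yRec]
    · unfold Bbar
      have : Ew (gwWeight p 0) (fun T => BB (glev lam 0 T)) = 1 := by
        rw [Ew_congr _ (fun _ => (1 : ℝ)) (fun T => BB_glev_zero lam T), Ew_const hw]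
      rw [this]
      simp only [yRec]
      nlinarith
  | succ n ih =>
    obtain ⟨ihX, ihB⟩ := ih
    obtain ⟨hy0, hy1⟩ := yRec_bounds (d := d) (c := c) (p2 := p2) h0 h1 hp2 hp21 hd hKS hc0 hc1 n
    have hle' := yRec_succ_le (d := d) (c := c) (p2 := p2) h0 h1 hp2 hp21 hd hKS hc0 hc1 n
    obtain ⟨hy'0, hy'1⟩ := yRec_bounds (d := d) (c := c) (p2 := p2) h0 h1 hp2 hp21 hd hKS hc0 hc1 (n + 1)
    set y := yRec d lam c p2 n with hy
    have hw := gwWeight_wprob hp n
    set w := gwWeight p n with hwdef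
    -- the means of the children
    set x := Ew w (fun T => xx (chan lam (glev lam n T))) with hx
    set b := Ew w (fun T => BB (chan lam (glev lam n T))) with hb
    have hxe : x = lam ^ 2 * Xbar p lam n := by
      rw [hx]
      unfold Xbar
      rw [← Ew_const_mul]
      exact Ew_congr _ _ fun T => xx_chan (glev_wsig h0 h1 n T) lam
    have hX0 : 0 ≤ Xbar p lam n := Ew_nonneg hw fun T => xx_nonneg (glev_wsig h0 h1 n T)
    have hx0 : 0 ≤ x := by rw [hxe]; positivity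
    have hb0 : 0 ≤ b := Ew_nonneg hw fun T => BB_nonneg (chan_glev_isSig h0 h1 n T)
    have hb1 : b ≤ 1 := Ew_le_of_le hw (bdd_cB h0 h1 n) fun T => BB_le_one (chan_glev_isSig h0 h1 n T).toW
    have hble : b ≤ 3 * lam ^ 2 * (1 - lam) * Xbar p lam n + lam ^ 3 * Bbar p lam n := by
      have hbd : BddF (fun T : GWTree n => 3 * lam ^ 2 * (1 - lam) * xx (glev lam n T)
          + lam ^ 3 * BB (glev lam n T)) :=
        ((bdd_xx_glev h0 h1 n).const_mul _).add ((bdd_BB_glev h0 h1 n).const_mul _)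
      have := Ew_mono hw (bdd_cB h0 h1 n) hbd (fun T => BB_chan_glev h0 h1 n T)
      rw [Ew_add hw ((bdd_xx_glev h0 h1 n).const_mul _) ((bdd_BB_glev h0 h1 n).const_mul _),
        Ew_const_mul, Ew_const_mul] at this
      exact this
    -- scalars
    set z := lam ^ 2 * y with hz
    set v := lam ^ 3 * c * y ^ 2 with hv
    have hz0 : 0 ≤ z := mul_nonneg hl20 hy0
    have hv0 : 0 ≤ v := by positivity
    have hxz : x ≤ z := by
      rw [hxe]
      exact mul_le_mul_of_nonneg_left ihX hl20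
    have hbz : b ≤ 3 * (z - v) := by
      have t1 : 3 * lam ^ 2 * (1 - lam) * Xbar p lam n ≤ 3 * lam ^ 2 * (1 - lam) * y :=
        mul_le_mul_of_nonneg_left ihX (by
          have : 0 ≤ 1 - lam := by linarith
          positivity)
      have t2 : lam ^ 3 * Bbar p lam n ≤ lam ^ 3 * (3 * (y - c * y ^ 2)) :=
        mul_le_mul_of_nonneg_left ihB hl30
      rw [hz, hv]
      nlinarith
    have hzv : z + v ≤ 2 / 3 := by
      have hy2 : y ^ 2 ≤ 4 / 9 := by nlinarith
      have t1 : c * y ^ 2 ≤ (3 / 4 * (1 - lam ^ 2)) * (4 / 9) :=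
        mul_le_mul hc2 hy2 (sq_nonneg y) (by nlinarith)
      have t2 : lam ^ 3 * (c * y ^ 2) ≤ 1 * ((3 / 4 * (1 - lam ^ 2)) * (4 / 9)) :=
        mul_le_mul hl3 t1 (by positivity) (by norm_num)
      have t3 : lam ^ 2 * y ≤ lam ^ 2 * (2 / 3) := mul_le_mul_of_nonneg_left hy1 hl20
      have e : v = lam ^ 3 * (c * y ^ 2) := by rw [hv]; ring
      rw [e, hz]
      nlinarith
    -- the `k`-fold means
    obtain ⟨hMk, hNk⟩ := kfold_bound
      (M := fun k => Ew (wPow w k) (fun ts => xx (sigK lam n k ts)))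
      (N := fun k => Ew (wPow w k) (fun ts => BB (sigK lam n k ts)))
      (x := x) (b := b) (y := z) (w := v)
      (fun k => Ew_nonneg (hw.pow k) fun ts => xx_nonneg (sigK_isSig h0 h1 n k ts).toW)
      (fun k => Ew_le_of_le (hw.pow k) (bdd_xx_sigK h0 h1 n k) fun ts => xx_le_two_thirds (sigK_isSig h0 h1 n k ts))
      (fun k => Ew_nonneg (hw.pow k) fun ts => BB_nonneg (sigK_isSig h0 h1 n k ts))
      (fun k => Ew_le_of_le (hw.pow k) (bdd_BB_sigK h0 h1 n k) fun ts => BB_le_one (sigK_isSig h0 h1 n k ts).toW)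
      (M_zero hw) (N_zero hw)
      (fun k => M_succ h0 h1 hw k) (fun k => N_succ h0 h1 hw k)
      hx0 hxz hb0 hb1 hbz hv0 hzv
    -- mixing
    have hy'e : yRec d lam c p2 (n + 1) = d * z - 3 * (z * v) * p2 := rfl
    constructor
    · unfold Xbar
      rw [X_succ_eq hp h0 h1 n, hy'e]
      have hbdM : ∃ C : ℝ, ∀ k, |Ew (wPow w k) (fun ts => xx (sigK lam n k ts))| ≤ C := by
        refine ⟨2 / 3, fun k => ?_⟩
        rw [abs_le]
        constructor
        · have := Ew_nonneg (w := wPow w k) (f := fun ts => xx (sigK lam n k ts)) (hw.pow k)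
            fun ts => xx_nonneg (sigK_isSig h0 h1 n k ts).toW
          linarith
        · exact Ew_le_of_le (hw.pow k) (bdd_xx_sigK h0 h1 n k) fun ts => xx_le_two_thirds (sigK_isSig h0 h1 n k ts)
      have := mix_bound hp hmean hbdM (A := z) (B := 3 * (z * v)) hMk
      refine this.trans_eq ?_
      rw [← hp2def]
      ring
    · unfold Bbar
      rw [B_succ_eq hp h0 h1 n]
      have hbdN : ∃ C : ℝ, ∀ k, |Ew (wPow w k) (fun ts => BB (sigK lam n k ts))| ≤ C := by
        refine ⟨1, fun k => ?_⟩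
        rw [abs_le]
        constructor
        · have := Ew_nonneg (w := wPow w k) (f := fun ts => BB (sigK lam n k ts)) (hw.pow k)
            fun ts => BB_nonneg (sigK_isSig h0 h1 n k ts)
          linarith
        · exact Ew_le_of_le (hw.pow k) (bdd_BB_sigK h0 h1 n k) fun ts => BB_le_one (sigK_isSig h0 h1 n k ts).toW
      have h5 := mix_bound hp hmean hbdN (A := b) (B := b ^ 2) hNk
      rw [← hp2def] at h5
      refine h5.trans ?_
      have h6 : d * b - p2 * b ^ 2 ≤ 3 * (yRec d lam c p2 (n + 1) - c * yRec d lam c p2 (n + 1) ^ 2) :=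
        B_step h0 h1 hp2 hp21 hd hc0 hc1 hy0 hy1 hb0 hb1 hbz hy'0
          (by
            have h3 : 0 ≤ 3 * lam ^ 5 * c * p2 * y ^ 3 := by positivity
            linarith) hy'e
      exact h6

end means

/-! ### From the functional to the advantage -/

theorem gwTreeAdvantage_le {lam : ℝ} {n : ℕ} {T : GWTree n} (hW : WSig (glev lam n T)) (δ : ℝ) (hδ : 0 < δ) :
    gwTreeAdvantage 3 lam n T ≤ 3 * δ / 4 + xx (glev lam n T) / (4 * δ) := by
  have key : gwTreeAdvantage 3 lam n T ≤ ∑ τ, ((glev lam n T τ 0 + glev lam n T τ 1 + glev lam n T τ 2) / 3 * (3 * δ / 4)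
      + (1 / 3) * fN (glev lam n T τ 0) (glev lam n T τ 1) (glev lam n T τ 2) / (4 * δ)) := by
    unfold gwTreeAdvantage
    refine Finset.sum_le_sum fun τ _ => ?_
    have hp := point_adv (glev lam n T τ 0) (glev lam n T τ 1) (glev lam n T τ 2) δ (hW.Npos τ) hδ
    have e1 : gwProb 3 lam n T τ = (glev lam n T τ 0 + glev lam n T τ 1 + glev lam n T τ 2) / 3 := by
      unfold gwProb glev
      rw [Fin.sum_univ_three]
      push_cast
      ring
    have e2 : ∀ i : Fin 3, gwPost 3 lam n T i τ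
        = glev lam n T τ i / (glev lam n T τ 0 + glev lam n T τ 1 + glev lam n T τ 2) := by
      intro i
      unfold gwPost
      rw [e1]
      have hN := hW.Npos τ
      unfold glev at hN ⊢
      push_cast
      field_simp
    rw [e1, Fin.sum_univ_three]
    simp only [e2]
    push_cast
    exact hp
  refine key.trans ?_
  rw [Finset.sum_add_distrib, ← Finset.sum_mul, ← Finset.sum_div, ← Finset.sum_div, ← Finset.mul_sum,
    sum_N hW.tot, sum_f hW.tot]
  have : 3 / 3 * (3 * δ / 4) + 1 / 3 * (3 * xx (glev lam n T)) / (4 * δ)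
      = 3 * δ / 4 + xx (glev lam n T) / (4 * δ) := by
    ring
  rw [this]

theorem gwTreeAdvantage_nonneg {lam : ℝ} {n : ℕ} {T : GWTree n} (hW : WSig (glev lam n T)) :
    0 ≤ gwTreeAdvantage 3 lam n T := by
  unfold gwTreeAdvantage
  refine Finset.sum_nonneg fun τ _ => mul_nonneg ?_ ?_
  · unfold gwProb
    refine Finset.sum_nonneg fun i _ => mul_nonneg (by positivity) ?_
    exact hW.nonneg τ i
  · exact mul_nonneg (by norm_num) (Finset.sum_nonneg fun i _ => abs_nonneg _)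

theorem bdd_adv {lam : ℝ} (h0 : 0 ≤ lam) (h1 : lam < 1) (n : ℕ) :
    BddF (fun T : GWTree n => gwTreeAdvantage 3 lam n T) := by
  refine BddF.of_Icc (a := 0) (b := 3 / 4 + (2 / 3) / 4) fun T => ⟨gwTreeAdvantage_nonneg (glev_wsig h0 h1 n T), ?_⟩
  have := gwTreeAdvantage_le (glev_wsig h0 h1 n T) 1 one_pos
  have h2 := xx_glev_le h0 h1 n T
  norm_num at this ⊢
  linarith

theorem gwAdvantage_le {p : ℕ → ℝ} {lam : ℝ} (hp : WProb p) (h0 : 0 ≤ lam) (h1 : lam < 1) (n : ℕ)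
    (δ : ℝ) (hδ : 0 < δ) :
    gwAdvantage p 3 lam n ≤ 3 * δ / 4 + Xbar p lam n / (4 * δ) := by
  have hw := gwWeight_wprob hp n
  have hbd : BddF (fun T : GWTree n => 3 * δ / 4 + (1 / (4 * δ)) * xx (glev lam n T)) :=
    (BddF.of_Icc (a := 3 * δ / 4) (b := 3 * δ / 4) fun _ => ⟨le_rfl, le_rfl⟩).add
      ((bdd_xx_glev h0 h1 n).const_mul _)
  have := Ew_mono hw (bdd_adv h0 h1 n) hbd (fun T => by
    have := gwTreeAdvantage_le (glev_wsig h0 h1 n T) δ hδ
    refine this.trans_eq ?_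
    ring)
  rw [Ew_add hw (BddF.of_Icc (a := 3 * δ / 4) (b := 3 * δ / 4) fun _ => ⟨le_rfl, le_rfl⟩)
    ((bdd_xx_glev h0 h1 n).const_mul _), Ew_const hw, Ew_const_mul] at this
  unfold Xbar
  refine le_trans this (le_of_eq ?_)
  ring

/-- Main theorem for a general offspring law with at least two children possible. -/
theorem gwAdvantage_tendsto {p : ℕ → ℝ} {d lam : ℝ} (hp : WProb p)
    (hmean : HasSum (fun k : ℕ => (k : ℝ) * p k) d) (hp2 : 0 < 1 - p 0 - p 1)
    (h0 : 0 ≤ lam) (h1 : lam < 1) (hKS : d * lam ^ 2 ≤ 1) :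
    (∀ n, Summable (fun T : GWTree n => gwWeight p n T * gwTreeAdvantage 3 lam n T))
      ∧ Tendsto (gwAdvantage p 3 lam) atTop (𝓝 0) := by
  refine ⟨fun n => (gwWeight_wprob hp n).summable_mul (bdd_adv h0 h1 n), ?_⟩
  set p2 := 1 - p 0 - p 1 with hp2def
  have hp21 : p2 ≤ 1 := by
    have := hp.nonneg 0
    have := hp.nonneg 1
    rw [hp2def]
    linarith
  have hd := two_p2_le hp hmean
  set c := min (p2 * lam ^ 4 / 9) (3 / 4 * (1 - lam ^ 2)) with hc
  have hl2 : lam ^ 2 < 1 := by nlinarith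
  have hc0 : 0 ≤ c := le_min (by positivity) (by nlinarith)
  have hc1 : c ≤ p2 * lam ^ 4 / 9 := min_le_left _ _
  have hc2 : c ≤ 3 / 4 * (1 - lam ^ 2) := min_le_right _ _
  have hcpos : 0 < lam → 0 < c := fun hl => lt_min (by positivity) (by nlinarith)
  have hy := yRec_tendsto (d := d) (c := c) h0 h1 hp2 hp21 hd hKS hc0 hc1 hcpos
  rw [Metric.tendsto_atTop]
  intro ε hε
  have hev := (tendsto_order.1 hy).2 (ε ^ 2) (by positivity)
  obtain ⟨N, hN⟩ := Filter.eventually_atTop.1 hev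
  refine ⟨N, fun n hn => ?_⟩
  have hinv := (invariant hp hmean hp2.le h0 h1 hKS hc0 hc1 hc2 n).1
  have h3 := hN n hn
  have h4 : Xbar p lam n < ε ^ 2 := lt_of_le_of_lt hinv h3
  have h5 := gwAdvantage_le hp h0 h1 n (ε / 2) (by positivity)
  have h2 : 0 ≤ gwAdvantage p 3 lam n := by
    unfold gwAdvantage
    exact tsum_nonneg fun T => mul_nonneg ((gwWeight_wprob hp n).nonneg T)
      (gwTreeAdvantage_nonneg (glev_wsig h0 h1 n T))
  have h6 : Xbar p lam n / (4 * (ε / 2)) < ε / 2 := by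
    rw [div_lt_iff₀ (by positivity)]
    nlinarith
  rw [Real.dist_eq, sub_zero, abs_of_nonneg h2]
  nlinarith

/-! ### The Poisson law -/

theorem poisson_wprob {d : ℝ} (hd : 0 ≤ d) : WProb (poissonLaw d) := by
  refine ⟨fun k => by unfold poissonLaw; positivity, ?_⟩
  have h := NormedSpace.expSeries_div_hasSum_exp (𝔸 := ℝ) d
  rw [← Real.exp_eq_exp_ℝ] at h
  have h2 := h.mul_left (Real.exp (-d))
  have e : Real.exp (-d) * Real.exp d = 1 := by rw [← Real.exp_add]; simp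
  rw [e] at h2
  have e2 : poissonLaw d = fun i => Real.exp (-d) * (d ^ i / (i.factorial : ℝ)) := by
    funext i
    unfold poissonLaw
    ring
  rw [e2]
  exact h2

theorem poisson_mean {d : ℝ} (hd : 0 ≤ d) : HasSum (fun k : ℕ => (k : ℝ) * poissonLaw d k) d := by
  have h := (poisson_wprob hd).hasSum.mul_left d
  rw [mul_one] at h
  have e : (fun k : ℕ => d * poissonLaw d k) = fun k : ℕ => ((k + 1 : ℕ) : ℝ) * poissonLaw d (k + 1) := by
    funext k
    unfold poissonLaw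
    rw [Nat.factorial_succ]
    have : (k.factorial : ℝ) ≠ 0 := by positivity
    have h2 : ((k : ℝ) + 1) ≠ 0 := by positivity
    push_cast
    field_simp
    ring
  rw [e] at h
  have := (hasSum_nat_add_iff (f := fun k : ℕ => (k : ℝ) * poissonLaw d k) 1).1 h
  simpa using this

theorem poisson_p2 {d : ℝ} (hd : 0 < d) : 0 < 1 - poissonLaw d 0 - poissonLaw d 1 := by
  unfold poissonLaw
  have h := Real.add_one_lt_exp hd.ne'
  have h2 : Real.exp (-d) * (d + 1) < Real.exp (-d) * Real.exp d :=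
    mul_lt_mul_of_pos_left h (Real.exp_pos _)
  have e : Real.exp (-d) * Real.exp d = 1 := by rw [← Real.exp_add]; simp
  rw [e] at h2
  simp only [pow_zero, pow_one, Nat.factorial_zero, Nat.factorial_one, Nat.cast_one, mul_one, div_one]
  nlinarith

/-- Main theorem on Poisson trees. -/
theorem gwAdvantage_poisson {d lam : ℝ} (hd : 0 < d) (h0 : 0 ≤ lam) (h1 : lam < 1) (hKS : d * lam ^ 2 ≤ 1) :
    (∀ n, Summable (fun T : GWTree n => gwWeight (poissonLaw d) n T * gwTreeAdvantage 3 lam n T))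
      ∧ Tendsto (gwAdvantage (poissonLaw d) 3 lam) atTop (𝓝 0) :=
  gwAdvantage_tendsto (poisson_wprob hd.le) (poisson_mean hd.le) (poisson_p2 hd) h0 h1 hKS

end Vale.Agent.Lib.P154
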