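import Vale.Agent.Lib.Common.Kron
import Vale.Agent.Lib.P154.TreeGW

/-!
The pointwise polynomial inequality behind the recursion for negative eigenvalue, and its
reduction to a coefficient check.
-/

noncomputable section

namespace Vale.Agent.Lib.P154

open Vale.Agent.Lib.Common.Kron

/-- The quantity `Z`, with the denominator `1 - A1` cleared. -/
def polyZn (β θ A1 C1 A2 : ℝ) : ℝ :=
  (1 - A1) * (1 - A1 - A2 + β * A1 * A2) - θ * A2 * (2 * A1 - C1)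

/-- The polynomial whose nonnegativity gives the pointwise bound. -/
def polyRn (β θ A1 C1 A2 C2 : ℝ) : ℝ :=
  (1 - A1) * polyJ A1 C1 A2 C2 - polyZn β θ A1 C1 A2 * polyX A1 C1 A2 C2

/-- Nonnegativity of `polyRn` on the product of the chamber and the scaled inverted chamber. -/
def NegCert (μ β θ : ℝ) : Prop :=
  ∀ t0 t1 t2 s0 s1 s2 : ℝ, 0 ≤ t0 → 0 ≤ t1 → 0 ≤ t2 → t0 + t1 + t2 = 1 →
    0 ≤ s0 → 0 ≤ s1 → 0 ≤ s2 → s0 + s1 + s2 = 1 →
    0 ≤ polyRn β θ (achi t1 t2) (cchi t1 t2) (μ ^ 2 * achi s1 s2) (-(μ ^ 3) * cchi s1 s2)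

/-! ### The homogeneous form -/

/-- The homogeneous numerator. -/
def coreJ (h a c k a' c' : ℝ) : ℝ :=
  h ^ 4 * k ^ 4 - a * h ^ 2 * k ^ 4 - a' * h ^ 4 * k ^ 2 - 2 * (a * a') * (h ^ 2 * k ^ 2)
    + a ^ 2 * a' * k ^ 2 + a * a' ^ 2 * h ^ 2 + a ^ 2 * a' ^ 2 + c * a' * h * k ^ 2
    + c' * a * h ^ 2 * k - a ^ 2 * c' * k - a' ^ 2 * c * h

def coreX (h a c k a' c' : ℝ) : ℝ := 2 * (h ^ 3 * k ^ 3) - 6 * (a * a') * (h * k) + c * c'

def coreZ (bn bd tn td h a c k a' : ℝ) : ℝ :=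
  bd * td * ((h ^ 2 - a) * (h ^ 2 * k ^ 2 - a * k ^ 2 - a' * h ^ 2))
    + bn * td * ((h ^ 2 - a) * (a * a')) - bd * tn * (a' * ((2 * (a * h) - c) * h))

def coreR (bn bd tn td h a c k a' c' : ℝ) : ℝ :=
  2 * (bd * td) * ((h ^ 2 - a) * coreJ h a c k a' c' * (h * k))
    - coreZ bn bd tn td h a c k a' * coreX h a c k a' c'

theorem coreR_eq (bn bd tn td h a c k a' c' : ℝ) (hh : h ≠ 0) (hk : k ≠ 0) (hb : bd ≠ 0) (ht : td ≠ 0) :
    coreR bn bd tn td h a c k a' c'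
      = 2 * (bd * td) * (h ^ 7 * k ^ 5)
        * polyRn (bn / bd) (tn / td) (a / h ^ 2) (c / h ^ 3) (a' / k ^ 2) (c' / k ^ 3) := by
  unfold coreR coreZ coreX coreJ polyRn polyZn polyJ polyX
  field_simp
  ring

/-! ### Expressions -/

namespace PE

open Vale.Agent.Lib.Common.Kron.PE

def sub (a b : PE) : PE := add a (neg b)
def mul3 (a b c : PE) : PE := mul a (mul b c)

/-- `1 + 2 u + v`. -/
def eH (i j : ℕ) : PE := add (add (c 1) (mul (c 2) (v i))) (v j)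
/-- `u² + u v + v²`. -/
def eA (i j : ℕ) : PE := add (add (pow (v i) 2) (mul (v i) (v j))) (pow (v j) 2)
/-- `(2 u + v) (u + 2 v) (v - u)`. -/
def eC (i j : ℕ) : PE :=
  mul3 (add (mul (c 2) (v i)) (v j)) (add (v i) (mul (c 2) (v j))) (sub (v j) (v i))

def eJ (h a ce k a' ce' : PE) : PE :=
  sub (add (add (add (add (add (sub (sub (sub (mul (pow h 4) (pow k 4)) (mul3 a (pow h 2) (pow k 4)))
    (mul3 a' (pow h 4) (pow k 2))) (mul (c 2) (mul (mul a a') (mul (pow h 2) (pow k 2)))))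
    (mul3 (pow a 2) a' (pow k 2))) (mul3 a (pow a' 2) (pow h 2))) (mul (pow a 2) (pow a' 2)))
    (mul (mul (mul ce a') h) (pow k 2))) (mul (mul (mul ce' a) (pow h 2)) k))
    (add (mul (mul (pow a 2) ce') k) (mul (mul (pow a' 2) ce) h))

def eX (h a ce k a' ce' : PE) : PE :=
  add (sub (mul (c 2) (mul (pow h 3) (pow k 3))) (mul (c 6) (mul (mul a a') (mul h k)))) (mul ce ce')

def eZ (bn bd tn td : ℕ) (h a ce k a' : PE) : PE :=
  sub (add (mul (c (bd * td)) (mul (sub (pow h 2) a) (sub (sub (mul (pow h 2) (pow k 2)) (mul a (pow k 2)))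
      (mul a' (pow h 2)))))
    (mul (c (bn * td)) (mul (sub (pow h 2) a) (mul a a'))))
    (mul (c (bd * tn)) (mul a' (mul (sub (mul (c 2) (mul a h)) ce) h)))

def eR (bn bd tn td : ℕ) (h a ce k a' ce' : PE) : PE :=
  sub (mul (c (2 * (bd * td))) (mul (mul (sub (pow h 2) a) (eJ h a ce k a' ce')) (mul h k)))
    (mul (eZ bn bd tn td h a ce k a') (eX h a ce k a' ce'))

end PE

open PE in
/-- The expression whose coefficients are checked: the variables are `u, v, u', v'`. -/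
def ePoint (mn md bn bd tn td D1 D2 : ℕ) : Vale.Agent.Lib.Common.Kron.PE :=
  let K := Vale.Agent.Lib.Common.Kron.PE.mul (Vale.Agent.Lib.Common.Kron.PE.c md) (eH 2 3)
  Vale.Agent.Lib.Common.Kron.PE.mul (Vale.Agent.Lib.Common.Kron.PE.pow (eH 0 1) D1)
    (Vale.Agent.Lib.Common.Kron.PE.mul (Vale.Agent.Lib.Common.Kron.PE.pow K D2)
      (eR bn bd tn td (eH 0 1) (eA 0 1) (eC 0 1) K
        (Vale.Agent.Lib.Common.Kron.PE.mul (Vale.Agent.Lib.Common.Kron.PE.c (mn ^ 2)) (eA 2 3))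
        (Vale.Agent.Lib.Common.Kron.PE.neg
          (Vale.Agent.Lib.Common.Kron.PE.mul (Vale.Agent.Lib.Common.Kron.PE.c (mn ^ 3)) (eC 2 3)))))

/-- Evaluation point. -/
def ptv (u v u' v' : ℝ) : ℕ → ℝ
  | 0 => u
  | 1 => v
  | 2 => u'
  | 3 => v'
  | _ => 0

theorem ptv_nonneg {u v u' v' : ℝ} (hu : 0 ≤ u) (hv : 0 ≤ v) (hu' : 0 ≤ u') (hv' : 0 ≤ v') (i : ℕ) :
    0 ≤ ptv u v u' v' i := by
  rcases i with _ | _ | _ | _ | i
  · exact hu
  · exact hv
  · exact hu'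
  · exact hv'
  · exact le_rfl

theorem evalR_eR (x : ℕ → ℝ) (bn bd tn td : ℕ) (h a ce k a' ce' : Vale.Agent.Lib.Common.Kron.PE) :
    Vale.Agent.Lib.Common.Kron.PE.evalR x (PE.eR bn bd tn td h a ce k a' ce')
      = coreR bn bd tn td (Vale.Agent.Lib.Common.Kron.PE.evalR x h) (Vale.Agent.Lib.Common.Kron.PE.evalR x a)
          (Vale.Agent.Lib.Common.Kron.PE.evalR x ce) (Vale.Agent.Lib.Common.Kron.PE.evalR x k)
          (Vale.Agent.Lib.Common.Kron.PE.evalR x a') (Vale.Agent.Lib.Common.Kron.PE.evalR x ce') := by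
  simp only [PE.eR, PE.eZ, PE.eX, PE.eJ, PE.sub, PE.mul3, Vale.Agent.Lib.Common.Kron.PE.evalR, coreR, coreZ,
    coreX, coreJ]
  generalize Vale.Agent.Lib.Common.Kron.PE.evalR x h = H
  generalize Vale.Agent.Lib.Common.Kron.PE.evalR x a = A
  generalize Vale.Agent.Lib.Common.Kron.PE.evalR x ce = C
  generalize Vale.Agent.Lib.Common.Kron.PE.evalR x k = K
  generalize Vale.Agent.Lib.Common.Kron.PE.evalR x a' = A'
  generalize Vale.Agent.Lib.Common.Kron.PE.evalR x ce' = C'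
  push_cast
  ring

theorem evalR_ePoint (mn md bn bd tn td D1 D2 : ℕ) (u v u' v' : ℝ) :
    Vale.Agent.Lib.Common.Kron.PE.evalR (ptv u v u' v') (ePoint mn md bn bd tn td D1 D2)
      = (1 + 2 * u + v) ^ D1 * (((md : ℝ) * (1 + 2 * u' + v')) ^ D2
        * coreR bn bd tn td (1 + 2 * u + v) (u ^ 2 + u * v + v ^ 2)
          ((2 * u + v) * (u + 2 * v) * (v - u)) ((md : ℝ) * (1 + 2 * u' + v'))
          ((mn : ℝ) ^ 2 * (u' ^ 2 + u' * v' + v' ^ 2))
          (-((mn : ℝ) ^ 3 * ((2 * u' + v') * (u' + 2 * v') * (v' - u'))))) := by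
  simp only [ePoint]
  simp only [Vale.Agent.Lib.Common.Kron.PE.evalR, evalR_eR]
  simp only [PE.eH, PE.eA, PE.eC, PE.sub, PE.mul3, Vale.Agent.Lib.Common.Kron.PE.evalR, ptv]
  have e1 : (((1 : ℕ) : ℝ) + ((2 : ℕ) : ℝ) * u + v) = 1 + 2 * u + v := by push_cast; ring
  have e2 : (((1 : ℕ) : ℝ) + ((2 : ℕ) : ℝ) * u' + v') = 1 + 2 * u' + v' := by push_cast; ring
  have e3 : u ^ 2 + u * v + v ^ 2 = u ^ 2 + u * v + v ^ 2 := rfl
  have e4 : (((2 : ℕ) : ℝ) * u + v) * ((u + ((2 : ℕ) : ℝ) * v) * (v + -u)) = (2 * u + v) * (u + 2 * v) * (v - u) := by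
    push_cast; ring
  have e5 : (((2 : ℕ) : ℝ) * u' + v') * ((u' + ((2 : ℕ) : ℝ) * v') * (v' + -u'))
      = (2 * u' + v') * (u' + 2 * v') * (v' - u') := by
    push_cast; ring
  rw [e1, e2, e4, e5]
  push_cast
  rfl

/-- The coefficient check gives nonnegativity on the open part of the simplex. -/
theorem coreR_nonneg_of_check {mn md bn bd tn td D1 D2 k : ℕ} {rad : List ℕ} (hmd : 0 < md)
    (hc : check (ePoint mn md bn bd tn td D1 D2) k rad = true) (u v u' v' : ℝ)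
    (hu : 0 ≤ u) (hv : 0 ≤ v) (hu' : 0 ≤ u') (hv' : 0 ≤ v') :
    0 ≤ coreR bn bd tn td (1 + 2 * u + v) (u ^ 2 + u * v + v ^ 2)
          ((2 * u + v) * (u + 2 * v) * (v - u)) ((md : ℝ) * (1 + 2 * u' + v'))
          ((mn : ℝ) ^ 2 * (u' ^ 2 + u' * v' + v' ^ 2))
          (-((mn : ℝ) ^ 3 * ((2 * u' + v') * (u' + 2 * v') * (v' - u')))) := by
  have h := nonneg_of_check hc (ptv u v u' v') (ptv_nonneg hu hv hu' hv')
  rw [evalR_ePoint] at h
  have hmd' : (0 : ℝ) < md := by exact_mod_cast hmd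
  have h1 : 0 < 1 + 2 * u + v := by positivity
  have h2 : 0 < (md : ℝ) * (1 + 2 * u' + v') := by positivity
  exact nonneg_of_mul_nonneg_right (nonneg_of_mul_nonneg_right h (by positivity)) (by positivity)

theorem achi_scale (t0 t1 t2 : ℝ) (h0 : 0 < t0) (hs : t0 + t1 + t2 = 1) :
    ((t1 / (2 * t0)) ^ 2 + (t1 / (2 * t0)) * (t2 / t0) + (t2 / t0) ^ 2) / (1 + 2 * (t1 / (2 * t0)) + t2 / t0) ^ 2
      = achi t1 t2 := by
  have e : 1 + 2 * (t1 / (2 * t0)) + t2 / t0 = 1 / t0 := by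
    rw [eq_div_iff h0.ne']
    field_simp
    linarith
  rw [e]
  unfold achi
  field_simp

theorem cchi_scale (t0 t1 t2 : ℝ) (h0 : 0 < t0) (hs : t0 + t1 + t2 = 1) :
    ((2 * (t1 / (2 * t0)) + t2 / t0) * (t1 / (2 * t0) + 2 * (t2 / t0)) * (t2 / t0 - t1 / (2 * t0)))
        / (1 + 2 * (t1 / (2 * t0)) + t2 / t0) ^ 3
      = cchi t1 t2 := by
  have e : 1 + 2 * (t1 / (2 * t0)) + t2 / t0 = 1 / t0 := by
    rw [eq_div_iff h0.ne']
    field_simp
    linarith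
  rw [e]
  unfold cchi
  field_simp

/-- The open version of the certificate. -/
theorem polyRn_open_of_check {mn md bn bd tn td D1 D2 k : ℕ} {rad : List ℕ} (hmd : 0 < md) (hbd : 0 < bd)
    (htd : 0 < td) (hc : check (ePoint mn md bn bd tn td D1 D2) k rad = true)
    (t0 t1 t2 s0 s1 s2 : ℝ) (h0 : 0 < t0) (h1 : 0 ≤ t1) (h2 : 0 ≤ t2) (hs : t0 + t1 + t2 = 1)
    (k0 : 0 < s0) (k1 : 0 ≤ s1) (k2 : 0 ≤ s2) (hs' : s0 + s1 + s2 = 1) :
    0 ≤ polyRn ((bn : ℝ) / bd) ((tn : ℝ) / td) (achi t1 t2) (cchi t1 t2)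
      (((mn : ℝ) / md) ^ 2 * achi s1 s2) (-(((mn : ℝ) / md) ^ 3) * cchi s1 s2) := by
  have hmd' : (0 : ℝ) < md := by exact_mod_cast hmd
  have hbd' : (0 : ℝ) < bd := by exact_mod_cast hbd
  have htd' : (0 : ℝ) < td := by exact_mod_cast htd
  set u := t1 / (2 * t0) with hu
  set v := t2 / t0 with hv
  set u' := s1 / (2 * s0) with hu'
  set v' := s2 / s0 with hv'
  have hu0 : 0 ≤ u := by positivity
  have hv0 : 0 ≤ v := by positivity
  have hu'0 : 0 ≤ u' := by positivity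
  have hv'0 : 0 ≤ v' := by positivity
  have hC := coreR_nonneg_of_check hmd hc u v u' v' hu0 hv0 hu'0 hv'0
  have hh : 0 < 1 + 2 * u + v := by positivity
  have hk : 0 < (md : ℝ) * (1 + 2 * u' + v') := by positivity
  rw [coreR_eq _ _ _ _ _ _ _ _ _ _ hh.ne' hk.ne' hbd'.ne' htd'.ne'] at hC
  have hA1 := achi_scale t0 t1 t2 h0 hs
  have hC1 := cchi_scale t0 t1 t2 h0 hs
  have hA2 := achi_scale s0 s1 s2 k0 hs'
  have hC2 := cchi_scale s0 s1 s2 k0 hs'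
  rw [← hu, ← hv] at hA1 hC1
  rw [← hu', ← hv'] at hA2 hC2
  have e2 : ((mn : ℝ) ^ 2 * (u' ^ 2 + u' * v' + v' ^ 2)) / ((md : ℝ) * (1 + 2 * u' + v')) ^ 2
      = ((mn : ℝ) / md) ^ 2 * achi s1 s2 := by
    rw [← hA2]
    field_simp
  have e3 : (-((mn : ℝ) ^ 3 * ((2 * u' + v') * (u' + 2 * v') * (v' - u')))) / ((md : ℝ) * (1 + 2 * u' + v')) ^ 3
      = -(((mn : ℝ) / md) ^ 3) * cchi s1 s2 := by
    rw [← hC2]
    field_simp
  rw [hA1, hC1, e2, e3] at hC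
  exact nonneg_of_mul_nonneg_right hC (by positivity)

/-- The certificate on the closed simplex, by continuity. -/
theorem negCert_of_check {mn md bn bd tn td D1 D2 k : ℕ} {rad : List ℕ} (hmd : 0 < md) (hbd : 0 < bd)
    (htd : 0 < td) (hc : check (ePoint mn md bn bd tn td D1 D2) k rad = true) :
    NegCert ((mn : ℝ) / md) ((bn : ℝ) / bd) ((tn : ℝ) / td) := by
  intro t0 t1 t2 s0 s1 s2 h0 h1 h2 hs k0 k1 k2 hs'
  set μ := (mn : ℝ) / md
  set β := (bn : ℝ) / bd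
  set θ := (tn : ℝ) / td
  -- shrink the points
  let g : ℝ → ℝ := fun τ => polyRn β θ (achi (τ * t1) (τ * t2)) (cchi (τ * t1) (τ * t2))
    (μ ^ 2 * achi (τ * s1) (τ * s2)) (-(μ ^ 3) * cchi (τ * s1) (τ * s2))
  have hcont : Continuous g := by
    simp only [g, polyRn, polyZn, polyJ, polyX, achi, cchi]
    fun_prop
  have hg : ∀ τ : ℝ, 0 < τ → τ < 1 → 0 ≤ g τ := by
    intro τ hτ hτ1
    have h01 : 0 < 1 - τ * t1 - τ * t2 := by
      have : τ * (t1 + t2) ≤ τ * 1 := mul_le_mul_of_nonneg_left (by linarith) hτ.le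
      nlinarith
    have h02 : 0 < 1 - τ * s1 - τ * s2 := by
      have : τ * (s1 + s2) ≤ τ * 1 := mul_le_mul_of_nonneg_left (by linarith) hτ.le
      nlinarith
    exact polyRn_open_of_check hmd hbd htd hc _ _ _ _ _ _ h01 (by positivity) (by positivity) (by ring) h02
      (by positivity) (by positivity) (by ring)
  have hlim : Filter.Tendsto g (nhdsWithin 1 (Set.Iio 1)) (nhds (g 1)) :=
    (hcont.tendsto 1).mono_left nhdsWithin_le_nhds
  have hev : ∀ᶠ τ in nhdsWithin (1 : ℝ) (Set.Iio 1), 0 ≤ g τ := by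
    have : Set.Ioo (0 : ℝ) 1 ∈ nhdsWithin (1 : ℝ) (Set.Iio 1) := Ioo_mem_nhdsLT (by norm_num)
    filter_upwards [this] with τ hτ
    exact hg τ hτ.1 hτ.2
  have := ge_of_tendsto hlim hev
  simpa only [g, one_mul] using this

end Vale.Agent.Lib.P154
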