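import Vale.Agent.Lib.P154.NegPoint

/-!
Scalar recursions for the `k`-fold products in the case of a negative eigenvalue.
-/

noncomputable section

open Filter Topology

namespace Vale.Agent.Lib.P154

/-- The comparison sequence of the recursion for the `k`-fold chi-square functional. -/
def Sq (α r θ : ℝ) : ℕ → ℝ
  | 0 => 0
  | k + 1 => α * Sq α r θ k + 1 + θ * (1 - r ^ k)

theorem N_le_of_rec {N : ℕ → ℝ} {b r : ℝ} (hN0 : N 0 ≤ 0) (hN1 : ∀ k, N k ≤ 1)
    (hNs : ∀ k, N (k + 1) ≤ N k + b - N k * b) (hb : b ≤ 1 - r) (hr0 : 0 ≤ r) (k : ℕ) :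
    N k ≤ 1 - r ^ k := by
  induction k with
  | zero => simpa using hN0
  | succ k ih =>
    have h1 := hNs k
    have h2 : 0 ≤ 1 - N k := by linarith [hN1 k]
    have h3 : b * (1 - N k) ≤ (1 - r) * (1 - N k) := mul_le_mul_of_nonneg_right hb h2
    have h4 : r * r ^ k ≤ r * (1 - N k) := mul_le_mul_of_nonneg_left (by linarith) hr0
    rw [pow_succ']
    nlinarith

/-- The `k`-fold bound through the comparison sequence. -/
theorem kfold_S {M N : ℕ → ℝ} {y b a θ r : ℝ} (hM0 : M 0 ≤ 0) (hN0 : N 0 ≤ 0) (hN1 : ∀ k, N k ≤ 1)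
    (hMs : ∀ k, M (k + 1) ≤ M k + y - a * (M k * y) + θ * (y * N k))
    (hNs : ∀ k, N (k + 1) ≤ N k + b - N k * b) (hb : b ≤ 1 - r) (hr0 : 0 ≤ r)
    (hy : 0 ≤ y) (hθ : 0 ≤ θ) (hα : 0 ≤ 1 - a * y) (k : ℕ) :
    M k ≤ y * Sq (1 - a * y) r θ k := by
  induction k with
  | zero => simpa [Sq] using hM0
  | succ k ih =>
    have h1 := hMs k
    have h2 := N_le_of_rec hN0 hN1 hNs hb hr0 k
    have h3 : (1 - a * y) * M k ≤ (1 - a * y) * (y * Sq (1 - a * y) r θ k) :=
      mul_le_mul_of_nonneg_left ih hα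
    have h4 : θ * (y * N k) ≤ θ * (y * (1 - r ^ k)) :=
      mul_le_mul_of_nonneg_left (mul_le_mul_of_nonneg_left h2 hy) hθ
    simp only [Sq]
    nlinarith

/-- The `k`-fold bound at the critical choice of parameters, with a margin. -/
theorem kfold_crit {M N : ℕ → ℝ} {y b a θ c g : ℝ} (hM0 : M 0 ≤ 0) (hN0 : N 0 ≤ 0) (hN00 : ∀ k, 0 ≤ N k)
    (hMs : ∀ k, M (k + 1) ≤ M k + y - a * (M k * y) + θ * (y * N k))
    (hNs : ∀ k, N (k + 1) ≤ N k + b - N k * b) (hb0 : 0 ≤ b) (hb : b ≤ c * y)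
    (hy : 0 ≤ y) (hθ : 0 ≤ θ) (hα : 0 ≤ 1 - a * y) (ha : θ * c + g ≤ a) (hg : 0 ≤ g) (k : ℕ) :
    M k ≤ k * y - if 2 ≤ k then g * y ^ 2 else 0 := by
  have hNlin : ∀ k : ℕ, N k ≤ k * (c * y) := by
    intro k
    induction k with
    | zero => simpa using hN0
    | succ k ih =>
      have := hNs k
      have h2 := mul_nonneg (hN00 k) hb0
      push_cast
      nlinarith
  have hstep : ∀ k : ℕ, M (k + 1) ≤ (1 - a * y) * M k + y + θ * (y * (k * (c * y))) := by
    intro k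
    have h1 := hMs k
    have h2 : θ * (y * N k) ≤ θ * (y * (k * (c * y))) :=
      mul_le_mul_of_nonneg_left (mul_le_mul_of_nonneg_left (hNlin k) hy) hθ
    nlinarith
  have hM1 : M 1 ≤ y := by
    have h1 := hstep 0
    have h2 : (1 - a * y) * M 0 ≤ (1 - a * y) * 0 := mul_le_mul_of_nonneg_left hM0 hα
    simp only [Nat.cast_zero, zero_mul, mul_zero, zero_add] at h1
    nlinarith
  have hy2 : 0 ≤ y ^ 2 := sq_nonneg y
  have hag : 0 ≤ (a - θ * c - g) * y ^ 2 := mul_nonneg (by linarith) hy2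
  have hM2 : ∀ k : ℕ, M (k + 2) ≤ ((k + 2 : ℕ) : ℝ) * y - g * y ^ 2 := by
    intro k
    induction k with
    | zero =>
      have h1 := hstep 1
      have h2 : (1 - a * y) * M 1 ≤ (1 - a * y) * y := mul_le_mul_of_nonneg_left hM1 hα
      push_cast at h1 ⊢
      nlinarith
    | succ k ih =>
      have h1 := hstep (k + 2)
      have h2 : (1 - a * y) * M (k + 2) ≤ (1 - a * y) * (((k + 2 : ℕ) : ℝ) * y - g * y ^ 2) :=
        mul_le_mul_of_nonneg_left ih hα
      have hk : (0 : ℝ) ≤ k := Nat.cast_nonneg k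
      have h3 : 0 ≤ (k : ℝ) * ((a - θ * c - g) * y ^ 2) := mul_nonneg hk hag
      have h4 : 0 ≤ (1 - a * y) * (g * y ^ 2) := mul_nonneg hα (mul_nonneg hg hy2)
      have h5 : 0 ≤ ((k : ℝ) + 1) * (g * y ^ 2) := mul_nonneg (by linarith) (mul_nonneg hg hy2)
      have h6 : 0 ≤ ((k : ℝ) + 2) * ((a - θ * c - g) * y ^ 2) := mul_nonneg (by linarith) hag
      push_cast at h1 h2 ⊢
      nlinarith
  rcases k with _ | k
  · simpa using hM0
  · rcases k with _ | k
    · simpa using hM1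
    · have c2 : 2 ≤ k + 1 + 1 := by omega
      rw [if_pos c2]
      exact hM2 k

/-- A sequence with a quadratic decrement tends to `0`. -/
theorem tendsto_of_quad {x : ℕ → ℝ} {c : ℝ} (hc : 0 < c) (h0 : ∀ n, 0 ≤ x n)
    (hs : ∀ n, x (n + 1) ≤ x n - c * x n ^ 2) : Tendsto x atTop (𝓝 0) := by
  have hanti : Antitone x := by
    apply antitone_nat_of_succ_le
    intro n
    have := hs n
    have h2 : 0 ≤ c * x n ^ 2 := by positivity
    linarith
  have hbdd : BddBelow (Set.range x) := ⟨0, by rintro _ ⟨n, rfl⟩; exact h0 n⟩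
  have hlim := tendsto_atTop_ciInf hanti hbdd
  set L := ⨅ i, x i with hL
  have hlim1 : Tendsto (fun n => x (n + 1)) atTop (𝓝 L) := (tendsto_add_atTop_iff_nat 1).2 hlim
  have hlim2 : Tendsto (fun n => x n - c * x n ^ 2) atTop (𝓝 (L - c * L ^ 2)) :=
    hlim.sub ((hlim.pow 2).const_mul _)
  have hle : L ≤ L - c * L ^ 2 := le_of_tendsto_of_tendsto' hlim1 hlim2 hs
  have hL2 : L ^ 2 ≤ 0 := by
    by_contra hneg
    push Not at hneg
    have : 0 < c * L ^ 2 := mul_pos hc hneg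
    linarith
  have hLz : L = 0 := by
    have h3 : L ^ 2 = 0 := le_antisymm hL2 (sq_nonneg L)
    exact pow_eq_zero_iff (by norm_num) |>.1 h3
  rw [hLz] at hlim
  exact hlim

/-- A sequence with a geometric decrement tends to `0`. -/
theorem tendsto_of_geom {x : ℕ → ℝ} {ρ : ℝ} (hρ0 : 0 ≤ ρ) (hρ : ρ < 1) (h0 : ∀ n, 0 ≤ x n)
    (hs : ∀ n, x (n + 1) ≤ ρ * x n) : Tendsto x atTop (𝓝 0) := by
  have hb : ∀ n, x n ≤ x 0 * ρ ^ n := by
    intro n
    induction n with
    | zero => simp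
    | succ n ih =>
      have := hs n
      have h2 := mul_le_mul_of_nonneg_left ih hρ0
      rw [pow_succ]
      nlinarith
  have hlim : Tendsto (fun n => x 0 * ρ ^ n) atTop (𝓝 (x 0 * 0)) :=
    (tendsto_pow_atTop_nhds_zero_of_lt_one hρ0 hρ).const_mul _
  rw [mul_zero] at hlim
  exact squeeze_zero h0 hb hlim

/-! ### The coefficient check for the comparison sequence -/

namespace PE

open Vale.Agent.Lib.Common.Kron.PE

/-- The numerator of the comparison sequence. -/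
def eT (a g b : Vale.Agent.Lib.Common.Kron.PE) (tn td : ℕ) : ℕ → Vale.Agent.Lib.Common.Kron.PE
  | 0 => c 0
  | k + 1 => add (add (mul a (eT a g b tn td k)) (mul (c (td + tn)) (pow g (k + 1))))
      (neg (mul (c tn) (mul g (pow b k))))

/-- The expression to check. -/
def eS (a1 b1 D tn td kn kd d E : ℕ) : Vale.Agent.Lib.Common.Kron.PE :=
  let g := add (c D) (mul (c D) (v 0))
  let a := add (c D) (mul (c a1) (v 0))
  let b := add (c D) (mul (c b1) (v 0))
  mul (pow (add (c 1) (v 0)) E) (add (mul (c (kn * td)) (pow g d)) (neg (mul (c kd) (eT a g b tn td d))))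

end PE

theorem evalR_eT (x : ℕ → ℝ) (a g b : Vale.Agent.Lib.Common.Kron.PE) (tn td : ℕ)
    (hg : Vale.Agent.Lib.Common.Kron.PE.evalR x g ≠ 0) (htd : (td : ℝ) ≠ 0) (k : ℕ) :
    Vale.Agent.Lib.Common.Kron.PE.evalR x (PE.eT a g b tn td k)
      = td * Vale.Agent.Lib.Common.Kron.PE.evalR x g ^ k
        * Sq (Vale.Agent.Lib.Common.Kron.PE.evalR x a / Vale.Agent.Lib.Common.Kron.PE.evalR x g)
            (Vale.Agent.Lib.Common.Kron.PE.evalR x b / Vale.Agent.Lib.Common.Kron.PE.evalR x g)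
            ((tn : ℝ) / td) k := by
  induction k with
  | zero => simp [PE.eT, Vale.Agent.Lib.Common.Kron.PE.evalR, Sq]
  | succ k ih =>
    simp only [PE.eT, Vale.Agent.Lib.Common.Kron.PE.evalR, Sq, ih]
    generalize Vale.Agent.Lib.Common.Kron.PE.evalR x g = G at *
    generalize Vale.Agent.Lib.Common.Kron.PE.evalR x a = A at *
    generalize Vale.Agent.Lib.Common.Kron.PE.evalR x b = B at *
    generalize Sq (A / G) (B / G) ((tn : ℝ) / td) k = S at *
    rw [div_pow]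
    push_cast
    field_simp
    ring

/-- The coefficient check gives the bound for the comparison sequence on `[0, 1)`. -/
theorem Sq_le_of_check {a1 b1 D tn td kn kd d E k : ℕ} {rad : List ℕ} (hD : 0 < D) (htd : 0 < td) (hkd : 0 < kd)
    (hc : Vale.Agent.Lib.Common.Kron.check (PE.eS a1 b1 D tn td kn kd d E) k rad = true) (t : ℝ) (ht0 : 0 ≤ t)
    (ht1 : t < 1) :
    Sq (1 - (1 - (a1 : ℝ) / D) * t) (1 - (1 - (b1 : ℝ) / D) * t) ((tn : ℝ) / td) d ≤ (kn : ℝ) / kd := by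
  have hD' : (0 : ℝ) < D := by exact_mod_cast hD
  have htd' : (0 : ℝ) < td := by exact_mod_cast htd
  have hkd' : (0 : ℝ) < kd := by exact_mod_cast hkd
  set w := t / (1 - t) with hw
  have h1t : 0 < 1 - t := by linarith
  have hw0 : 0 ≤ w := by positivity
  let x : ℕ → ℝ := fun _ => w
  have hx : ∀ i, 0 ≤ x i := fun _ => hw0
  have h' := Vale.Agent.Lib.Common.Kron.nonneg_of_check hc x hx
  simp only [PE.eS] at h'
  simp only [Vale.Agent.Lib.Common.Kron.PE.evalR] at h'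
  have h1w : 0 < (((1 : ℕ) : ℝ) + x 0) ^ E := by
    have : (0 : ℝ) ≤ x 0 := hx 0
    positivity
  have h := nonneg_of_mul_nonneg_right h' h1w
  set g : Vale.Agent.Lib.Common.Kron.PE := Vale.Agent.Lib.Common.Kron.PE.add (Vale.Agent.Lib.Common.Kron.PE.c D)
    (Vale.Agent.Lib.Common.Kron.PE.mul (Vale.Agent.Lib.Common.Kron.PE.c D) (Vale.Agent.Lib.Common.Kron.PE.v 0)) with hg
  set a : Vale.Agent.Lib.Common.Kron.PE := Vale.Agent.Lib.Common.Kron.PE.add (Vale.Agent.Lib.Common.Kron.PE.c D)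
    (Vale.Agent.Lib.Common.Kron.PE.mul (Vale.Agent.Lib.Common.Kron.PE.c a1) (Vale.Agent.Lib.Common.Kron.PE.v 0)) with ha
  set b : Vale.Agent.Lib.Common.Kron.PE := Vale.Agent.Lib.Common.Kron.PE.add (Vale.Agent.Lib.Common.Kron.PE.c D)
    (Vale.Agent.Lib.Common.Kron.PE.mul (Vale.Agent.Lib.Common.Kron.PE.c b1) (Vale.Agent.Lib.Common.Kron.PE.v 0)) with hb
  have eg : Vale.Agent.Lib.Common.Kron.PE.evalR x g = D * (1 + w) := by
    simp only [hg, Vale.Agent.Lib.Common.Kron.PE.evalR, x]; ring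
  have ea : Vale.Agent.Lib.Common.Kron.PE.evalR x a = D + a1 * w := by
    simp only [ha, Vale.Agent.Lib.Common.Kron.PE.evalR, x]
  have eb : Vale.Agent.Lib.Common.Kron.PE.evalR x b = D + b1 * w := by
    simp only [hb, Vale.Agent.Lib.Common.Kron.PE.evalR, x]
  have hg0 : Vale.Agent.Lib.Common.Kron.PE.evalR x g ≠ 0 := by rw [eg]; positivity
  rw [evalR_eT x a g b tn td hg0 htd'.ne' d] at h
  have hG : 0 < Vale.Agent.Lib.Common.Kron.PE.evalR x g := by rw [eg]; positivity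
  have e1 : Vale.Agent.Lib.Common.Kron.PE.evalR x a / Vale.Agent.Lib.Common.Kron.PE.evalR x g
      = 1 - (1 - (a1 : ℝ) / D) * t := by
    rw [ea, eg, hw]
    field_simp
    ring
  have e2 : Vale.Agent.Lib.Common.Kron.PE.evalR x b / Vale.Agent.Lib.Common.Kron.PE.evalR x g
      = 1 - (1 - (b1 : ℝ) / D) * t := by
    rw [eb, eg, hw]
    field_simp
    ring
  rw [e1, e2] at h
  set G := Vale.Agent.Lib.Common.Kron.PE.evalR x g
  set S := Sq (1 - (1 - (a1 : ℝ) / D) * t) (1 - (1 - (b1 : ℝ) / D) * t) ((tn : ℝ) / td) d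
  push_cast at h
  have hGp : 0 < G ^ d := pow_pos hG d
  rw [le_div_iff₀ hkd']
  have h5 : 0 ≤ (td * G ^ d) * (kn - S * kd) := by
    have e : (td * G ^ d) * (kn - S * kd) = kn * td * G ^ d + -(kd * (td * G ^ d * S)) := by ring
    rw [e]
    exact h
  have h6 : 0 ≤ kn - S * kd := nonneg_of_mul_nonneg_right h5 (by positivity)
  linarith

end Vale.Agent.Lib.P154
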